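import Mathlib.LinearAlgebra.Finsupp.LSum
import Mathlib.LinearAlgebra.Finsupp.LinearCombination
import Mathlib.LinearAlgebra.Prod
import Mathlib.GroupTheory.GroupAction.Defs
import Vale.Agent.P263.E.Simp

/-!
# P263: free quotients of simplicial sets

`ConeContr k f N` : the cone of the map of chain complexes `k[X] → k[Y]` induced by a simplicial map
`f` has a contraction up to degree `N`; this implies that `f` induces isomorphisms in homology and in
the cohomology of function cochains in degrees `≤ N`.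

Main theorem `coneContr_quot` : if `f : W → W'` is an equivariant map of simplicial sets with free
`G`-actions, and is a homology isomorphism in degrees `≤ N`, then the map of orbit spaces has a
contractible cone up to degree `N`.
-/

namespace Vale.Agent.P263.G

open Vale.Agent.P263.S Vale.Agent.P263.E

/-! ### Abstract equivariant contractions -/

section abs

variable {k : Type} [CommRing k] {G : Type} [Group G]

/-- linear maps commuting with the action of `G` -/
def Eqv {A B : Type} [AddCommGroup A] [Module k A] [AddCommGroup B] [Module k B]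
    (ρ : G → A →ₗ[k] A) (σ : G → B →ₗ[k] B) (f : A →ₗ[k] B) : Prop :=
  ∀ g x, f (ρ g x) = σ g (f x)

/-- the lifting property -/
def LP {M : Type} [AddCommGroup M] [Module k M] (ρ : G → M →ₗ[k] M) : Prop :=
  ∀ (A C : Type) [AddCommGroup A] [Module k A] [AddCommGroup C] [Module k C]
    (ρA : G → A →ₗ[k] A) (ρC : G → C →ₗ[k] C)
    (_ : ∀ x, ρA 1 x = x) (_ : ∀ g h x, ρA (g * h) x = ρA g (ρA h x))
    (π : A →ₗ[k] C) (_ : Eqv ρA ρC π) (f : M →ₗ[k] C) (_ : Eqv ρ ρC f)
    (_ : ∀ m, ∃ a, π a = f m), ∃ F : M →ₗ[k] A, Eqv ρ ρA F ∧ ∀ m, π (F m) = f m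

/-- the descent property: invariant maps factor through `q` -/
def Desc {M Q : Type} [AddCommGroup M] [Module k M] [AddCommGroup Q] [Module k Q]
    (ρ : G → M →ₗ[k] M) (q : M →ₗ[k] Q) : Prop :=
  Function.Surjective q ∧ (∀ g x, q (ρ g x) = q x) ∧
  ∀ (A : Type) [AddCommGroup A] [Module k A] (u : M →ₗ[k] A) (_ : ∀ g x, u (ρ g x) = u x),
    ∃ v : Q →ₗ[k] A, ∀ x, v (q x) = u x

/-- the action on a product -/
def prodAct {M M' : Type} [AddCommGroup M] [Module k M] [AddCommGroup M'] [Module k M']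
    (ρ : G → M →ₗ[k] M) (ρ' : G → M' →ₗ[k] M') (g : G) : (M × M') →ₗ[k] (M × M') :=
  (ρ g).prodMap (ρ' g)

theorem LP.prod {M M' : Type} [AddCommGroup M] [Module k M] [AddCommGroup M'] [Module k M']
    {ρ : G → M →ₗ[k] M} {ρ' : G → M' →ₗ[k] M'} (h : LP ρ) (h' : LP ρ') : LP (prodAct ρ ρ') := by
  intro A C _ _ _ _ ρA ρC h1 hm π hπ f hf hr
  obtain ⟨F, hF, hF'⟩ := h A C ρA ρC h1 hm π hπ (f ∘ₗ LinearMap.inl k M M')
    (fun g x => by
      have := hf g (x, 0)
      simpa [prodAct] using this) (fun m => hr _)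
  obtain ⟨F', hG, hG'⟩ := h' A C ρA ρC h1 hm π hπ (f ∘ₗ LinearMap.inr k M M')
    (fun g x => by
      have := hf g (0, x)
      simpa [prodAct] using this) (fun m => hr _)
  refine ⟨F.coprod F', fun g x => ?_, fun m => ?_⟩
  · simp only [prodAct, LinearMap.prodMap_apply, LinearMap.coprod_apply, map_add]
    rw [hF, hG]
  · rw [LinearMap.coprod_apply, map_add, hF', hG']
    simp only [LinearMap.comp_apply]
    rw [← map_add]
    congr 1
    ext <;> simp

omit [Group G] in
theorem Desc.prod {M Q M' Q' : Type} [AddCommGroup M] [Module k M] [AddCommGroup Q] [Module k Q]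
    [AddCommGroup M'] [Module k M'] [AddCommGroup Q'] [Module k Q']
    {ρ : G → M →ₗ[k] M} {q : M →ₗ[k] Q} {ρ' : G → M' →ₗ[k] M'} {q' : M' →ₗ[k] Q'}
    (h : Desc ρ q) (h' : Desc ρ' q') : Desc (prodAct ρ ρ') (q.prodMap q') := by
  obtain ⟨hs, hi, hd⟩ := h
  obtain ⟨hs', hi', hd'⟩ := h'
  refine ⟨?_, ?_, ?_⟩
  · rintro ⟨a, b⟩
    obtain ⟨x, rfl⟩ := hs a
    obtain ⟨y, rfl⟩ := hs' b
    exact ⟨(x, y), rfl⟩
  · rintro g ⟨x, y⟩
    exact Prod.ext (hi g x) (hi' g y)
  · intro A _ _ u hu
    obtain ⟨v, hv⟩ := hd A (u ∘ₗ LinearMap.inl k M M') (fun g x => by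
      have := hu g (x, 0)
      simpa [prodAct] using this)
    obtain ⟨v', hv'⟩ := hd' A (u ∘ₗ LinearMap.inr k M M') (fun g x => by
      have := hu g (0, x)
      simpa [prodAct] using this)
    refine ⟨v.coprod v', fun x => ?_⟩
    rw [LinearMap.prodMap_apply, LinearMap.coprod_apply, hv, hv']
    simp only [LinearMap.comp_apply]
    rw [← map_add]
    congr 1
    ext <;> simp

variable {B : Type} [AddCommGroup B] [Module k B] {P : ℕ → Type} [∀ n, AddCommGroup (P n)]
  [∀ n, Module k (P n)]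

/-- A contraction of an augmented complex up to degree `N`. -/
structure Contr (ε : P 0 →ₗ[k] B) (d : ∀ n, P (n + 1) →ₗ[k] P n) (N : ℕ) where
  /-- the homotopy on the bottom module -/
  s : B →ₗ[k] P 0
  /-- the homotopy -/
  h : ∀ n, P n →ₗ[k] P (n + 1)
  ε_s : ∀ b, ε (s b) = b
  h_zero : ∀ x, d 0 (h 0 x) + s (ε x) = x
  h_succ : ∀ n < N, ∀ x, d (n + 1) (h (n + 1) x) + h n (d n x) = x

/-- An exact complex of modules with the lifting property has an equivariant contraction. -/
theorem exists_contr (ε : P 0 →ₗ[k] B) (d : ∀ n, P (n + 1) →ₗ[k] P n)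
    (hεd : ∀ x, ε (d 0 x) = 0) (hdd : ∀ n x, d n (d (n + 1) x) = 0)
    (ρB : G → B →ₗ[k] B) (ρ : ∀ n, G → P n →ₗ[k] P n)
    (h1 : ∀ n x, ρ n 1 x = x) (hm : ∀ n g h x, ρ n (g * h) x = ρ n g (ρ n h x))
    (hε : Eqv (ρ 0) ρB ε) (hd : ∀ n, Eqv (ρ (n + 1)) (ρ n) (d n))
    (lB : LP ρB) (lP : ∀ n, LP (ρ n)) (N : ℕ)
    (x0 : ∀ b, ∃ x, ε x = b) (x1 : ∀ x, ε x = 0 → ∃ y, d 0 y = x)
    (xn : ∀ n < N, ∀ x, d n x = 0 → ∃ y, d (n + 1) y = x) :
    ∃ c : Contr ε d N, Eqv ρB (ρ 0) c.s ∧ ∀ n, Eqv (ρ n) (ρ (n + 1)) (c.h n) := by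
  obtain ⟨s, hs, hs'⟩ := lB (P 0) B (ρ 0) ρB (h1 0) (hm 0) ε hε LinearMap.id (fun _ _ => rfl)
    (fun b => x0 b)
  obtain ⟨t, ht, ht'⟩ := lP 0 (P 1) (P 0) (ρ 1) (ρ 0) (h1 1) (hm 1) (d 0) (hd 0)
    (LinearMap.id - s ∘ₗ ε) (fun g x => by
      simp only [LinearMap.sub_apply, LinearMap.id_apply, LinearMap.comp_apply, map_sub]
      rw [hε, hs]) (fun x => x1 _ (by
        simp only [LinearMap.sub_apply, LinearMap.id_apply, LinearMap.comp_apply, map_sub]
        rw [hs']; simp))
  have key : ∀ N, (∀ n < N, ∀ x, d n x = 0 → ∃ y, d (n + 1) y = x) →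
      ∃ h : ∀ n, P n →ₗ[k] P (n + 1), (∀ n, Eqv (ρ n) (ρ (n + 1)) (h n)) ∧
        (∀ x, d 0 (h 0 x) + s (ε x) = x) ∧
        (∀ n < N, ∀ x, d (n + 1) (h (n + 1) x) + h n (d n x) = x) := by
    intro N
    induction N with
    | zero =>
      intro _
      classical
      refine ⟨Function.update (fun n => (0 : P n →ₗ[k] P (n + 1))) 0 t, fun n => ?_, fun x => ?_,
        fun n hn => absurd hn (Nat.not_lt_zero n)⟩
      · by_cases hn : n = 0
        · subst hn
          rw [Function.update_self]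
          exact ht
        · rw [Function.update_of_ne hn]
          intro g x
          simp
      · rw [Function.update_self, ht']
        simp
    | succ N ih =>
      intro hx
      obtain ⟨h, he, h0, hn⟩ := ih fun n hn => hx n (by omega)
      have hN : ∀ x, d N (d (N + 1) (h (N + 1) x)) = 0 := fun x => hdd N _
      have hc : ∀ x : P (N + 1), d N (x - h N (d N x)) = 0 := by
        intro x
        cases N with
        | zero =>
          have := h0 (d 0 x)
          rw [hεd, map_zero, add_zero] at this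
          rw [map_sub, this, sub_self]
        | succ N =>
          have := hn N (by omega) (d (N + 1) x)
          rw [hdd, map_zero, add_zero] at this
          rw [map_sub, this, sub_self]
      obtain ⟨u, hu, hu'⟩ := lP (N + 1) (P (N + 2)) (P (N + 1)) (ρ (N + 2)) (ρ (N + 1)) (h1 _)
        (hm _) (d (N + 1)) (hd _) (LinearMap.id - h N ∘ₗ d N) (fun g x => by
          simp only [LinearMap.sub_apply, LinearMap.id_apply, LinearMap.comp_apply, map_sub]
          rw [hd, he]) (fun x => hx N (by omega) _ (hc x))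
      classical
      refine ⟨Function.update h (N + 1) u, fun n => ?_, ?_, fun n hn' => ?_⟩
      · by_cases hn' : n = N + 1
        · subst hn'
          rw [Function.update_self]
          exact hu
        · rw [Function.update_of_ne hn']
          exact he n
      · rw [Function.update_of_ne (by omega)]
        exact h0
      · rcases Nat.lt_or_ge n N with h' | h'
        · rw [Function.update_of_ne (by omega), Function.update_of_ne (by omega)]
          exact hn n h'
        · obtain rfl : n = N := by omega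
          rw [Function.update_self, Function.update_of_ne (by omega)]
          intro x
          rw [hu']
          simp
  obtain ⟨h, he, h0, hn⟩ := key N xn
  exact ⟨⟨s, h, hs', h0, hn⟩, hs, he⟩

omit [Group G] in
/-- Equivariant contractions descend to the orbit complex. -/
theorem Contr.desc {B' : Type} [AddCommGroup B'] [Module k B'] {P' : ℕ → Type}
    [∀ n, AddCommGroup (P' n)] [∀ n, Module k (P' n)]
    {ε : P 0 →ₗ[k] B} {d : ∀ n, P (n + 1) →ₗ[k] P n} {N : ℕ} (c : Contr ε d N)
    {ρB : G → B →ₗ[k] B} {ρ : ∀ n, G → P n →ₗ[k] P n}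
    (hs : Eqv ρB (ρ 0) c.s) (he : ∀ n, Eqv (ρ n) (ρ (n + 1)) (c.h n))
    {qB : B →ₗ[k] B'} {q : ∀ n, P n →ₗ[k] P' n} (dB : Desc ρB qB) (dP : ∀ n, Desc (ρ n) (q n))
    (ε' : P' 0 →ₗ[k] B') (d' : ∀ n, P' (n + 1) →ₗ[k] P' n)
    (hε' : ∀ x, ε' (q 0 x) = qB (ε x)) (hd' : ∀ n x, d' n (q (n + 1) x) = q n (d n x)) :
    Nonempty (Contr ε' d' N) := by
  obtain ⟨v, hv⟩ := dB.2.2 (P' 0) (q 0 ∘ₗ c.s) (fun g x => by
    simp only [LinearMap.comp_apply]
    rw [hs, (dP 0).2.1])
  have H : ∀ n, ∃ w : P' n →ₗ[k] P' (n + 1), ∀ x, w (q n x) = q (n + 1) (c.h n x) := fun n =>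
    (dP n).2.2 (P' (n + 1)) (q (n + 1) ∘ₗ c.h n) (fun g x => by
      simp only [LinearMap.comp_apply]
      rw [he, (dP (n + 1)).2.1])
  choose w hw using H
  refine ⟨⟨v, w, fun b => ?_, fun x => ?_, fun n hn x => ?_⟩⟩
  · obtain ⟨b, rfl⟩ := dB.1 b
    rw [hv, LinearMap.comp_apply, hε', c.ε_s]
  · obtain ⟨x, rfl⟩ := (dP 0).1 x
    rw [hw, hd', hε', hv, LinearMap.comp_apply, ← map_add, c.h_zero]
  · obtain ⟨x, rfl⟩ := (dP (n + 1)).1 x
    rw [hw, hd', hd', hw, ← map_add, c.h_succ n hn]

end abs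

/-! ### Chains -/

section chains

variable (k : Type) [CommRing k]

/-- simplicial chains -/
abbrev C (X : SS) (n : ℕ) : Type := X.obj n →₀ k

/-- the boundary -/
noncomputable def bd (X : SS) (n : ℕ) : C k X (n + 1) →ₗ[k] C k X n :=
  ∑ i ∈ Finset.range (n + 2), ((-1 : ℤ) ^ i) • Finsupp.lmapDomain k k (X.map (dl n i))

/-- the induced map on chains -/
noncomputable def chm {X Y : SS} (f : SS.Map X Y) (n : ℕ) : C k X n →ₗ[k] C k Y n :=
  Finsupp.lmapDomain k k (fun x => f.app x)

variable {k}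

@[simp] theorem chm_single {X Y : SS} (f : SS.Map X Y) (n : ℕ) (x : X.obj n) (a : k) :
    chm k f n (Finsupp.single x a) = Finsupp.single (f.app x) a := by
  simp [chm, Finsupp.lmapDomain_apply, Finsupp.mapDomain_single]

theorem bd_single (X : SS) (n : ℕ) (x : X.obj (n + 1)) (a : k) :
    bd k X n (Finsupp.single x a) =
      ∑ i ∈ Finset.range (n + 2), sn i (Finsupp.single (X.map (dl n i) x) a) := by
  simp [bd, sn, LinearMap.sum_apply, Finsupp.lmapDomain_apply, Finsupp.mapDomain_single]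

theorem hom_ext_single {X : SS} {n : ℕ} {A : Type} [AddCommGroup A] [Module k A]
    {f g : C k X n →ₗ[k] A} (h : ∀ x, f (Finsupp.single x 1) = g (Finsupp.single x 1)) : f = g := by
  refine Finsupp.lhom_ext fun x a => ?_
  have : (Finsupp.single x a : C k X n) = a • Finsupp.single x 1 := by simp
  rw [this, map_smul, map_smul, h]

theorem bd_bd (X : SS) (n : ℕ) (c : C k X (n + 2)) : bd k X n (bd k X (n + 1) c) = 0 := by
  have : (bd k X n) ∘ₗ (bd k X (n + 1)) = 0 := by
    apply hom_ext_single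
    intro x
    rw [LinearMap.comp_apply, bd_single, map_sum, LinearMap.zero_apply]
    have e : ∀ i ∈ Finset.range (n + 3),
        bd k X n (sn i (Finsupp.single (X.map (dl (n + 1) i) x) 1)) =
        ∑ j ∈ Finset.range (n + 2),
          sn (i + j) (Finsupp.single (X.map ((dl (n + 1) i).comp (dl n j)) x) (1 : k)) := by
      intro i _
      rw [CosMod.sn_lin, bd_single, sn_sum]
      refine Finset.sum_congr rfl fun j _ => ?_
      rw [sn_sn, X.map_comp]
    rw [Finset.sum_congr rfl e]
    exact CosMod.dd_sum (n + 1)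
      (fun i j => Finsupp.single (X.map ((dl (n + 1) i).comp (dl n j)) x) (1 : k))
      fun i j hij _ => by rw [dl_dl hij]
  exact LinearMap.congr_fun this c

theorem bd_chm {X Y : SS} (f : SS.Map X Y) (n : ℕ) (c : C k X (n + 1)) :
    bd k Y n (chm k f (n + 1) c) = chm k f n (bd k X n c) := by
  have : (bd k Y n) ∘ₗ (chm k f (n + 1)) = (chm k f n) ∘ₗ (bd k X n) := by
    apply hom_ext_single
    intro x
    rw [LinearMap.comp_apply, LinearMap.comp_apply, chm_single, bd_single, bd_single, map_sum]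
    refine Finset.sum_congr rfl fun i _ => ?_
    rw [CosMod.sn_lin, chm_single, f.nat]
  exact LinearMap.congr_fun this c

/-! ### The cone -/

variable (k)

/-- the augmentation of the cone -/
noncomputable def coneE {X Y : SS} (f : SS.Map X Y) : (C k X 0 × C k Y 1) →ₗ[k] C k Y 0 :=
  (chm k f 0).coprod (bd k Y 0)

/-- the boundary of the cone -/
noncomputable def coneD {X Y : SS} (f : SS.Map X Y) (n : ℕ) :
    (C k X (n + 1) × C k Y (n + 2)) →ₗ[k] (C k X n × C k Y (n + 1)) :=
  LinearMap.prod (-(bd k X n) ∘ₗ LinearMap.fst k _ _) ((chm k f (n + 1)).coprod (bd k Y (n + 1)))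

variable {k}

@[simp] theorem coneE_apply {X Y : SS} (f : SS.Map X Y) (x : C k X 0 × C k Y 1) :
    coneE k f x = chm k f 0 x.1 + bd k Y 0 x.2 := rfl

@[simp] theorem coneD_apply {X Y : SS} (f : SS.Map X Y) (n : ℕ)
    (x : C k X (n + 1) × C k Y (n + 2)) :
    coneD k f n x = (-(bd k X n x.1), chm k f (n + 1) x.1 + bd k Y (n + 1) x.2) := rfl

theorem coneE_coneD {X Y : SS} (f : SS.Map X Y) (x : C k X 1 × C k Y 2) :
    coneE k f (coneD k f 0 x) = 0 := by
  rw [coneD_apply, coneE_apply, map_neg, map_add, bd_bd, bd_chm]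
  simp

theorem coneD_coneD {X Y : SS} (f : SS.Map X Y) (n : ℕ) (x : C k X (n + 2) × C k Y (n + 3)) :
    coneD k f n (coneD k f (n + 1) x) = 0 := by
  rw [coneD_apply, coneD_apply]
  ext1
  · simp [bd_bd]
  · simp only [map_neg, map_add, bd_bd, bd_chm, Prod.snd_zero]
    simp

variable (k) in
/-- the cone of `f` has a contraction up to degree `N` -/
abbrev ConeContr {X Y : SS} (f : SS.Map X Y) (N : ℕ) : Type :=
  Contr (P := fun n => C k X n × C k Y (n + 1)) (coneE k f) (coneD k f) N

variable (k) in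
/-- `f` induces isomorphisms in homology in degrees `≤ N`, and a surjection in degree `N + 1`. -/
structure HIso {X Y : SS} (f : SS.Map X Y) (N : ℕ) : Prop where
  surj_zero : ∀ y : C k Y 0, ∃ (x : C k X 0) (z : C k Y 1), chm k f 0 x + bd k Y 0 z = y
  surj : ∀ n ≤ N, ∀ y : C k Y (n + 1), bd k Y n y = 0 → ∃ (x : C k X (n + 1)) (z : C k Y (n + 2)),
    bd k X n x = 0 ∧ chm k f (n + 1) x + bd k Y (n + 1) z = y
  inj_zero : ∀ (x : C k X 0) (y : C k Y 1), bd k Y 0 y = chm k f 0 x → ∃ z, bd k X 0 z = x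
  inj : ∀ n < N, ∀ (x : C k X (n + 1)) (y : C k Y (n + 2)), bd k X n x = 0 →
    bd k Y (n + 1) y = chm k f (n + 1) x → ∃ z, bd k X (n + 1) z = x

/-- the cone of a homology isomorphism is exact -/
theorem HIso.exact_zero {X Y : SS} {f : SS.Map X Y} {N : ℕ} (h : HIso k f N)
    (x : C k X 0 × C k Y 1) (hx : coneE k f x = 0) : ∃ y, coneD k f 0 y = x := by
  obtain ⟨a, b⟩ := x
  rw [coneE_apply] at hx
  obtain ⟨z, hz⟩ := h.inj_zero a (-b) (by
    rw [map_neg]; exact (eq_neg_of_add_eq_zero_left hx).symm)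
  obtain ⟨u, v, hu, huv⟩ := h.surj 0 (Nat.zero_le _) (b + chm k f 1 z) (by
    rw [map_add, bd_chm, hz, add_comm]; exact hx)
  refine ⟨(-z + u, v), ?_⟩
  rw [coneD_apply]
  ext1
  · change -(bd k X 0 (-z + u)) = a
    rw [map_add, hu, map_neg, hz]; simp
  · change chm k f 1 (-z + u) + bd k Y 1 v = b
    rw [map_add, add_assoc, huv, map_neg]
    abel

theorem HIso.exact_succ {X Y : SS} {f : SS.Map X Y} {N : ℕ} (h : HIso k f N) (n : ℕ) (hn : n < N)
    (x : C k X (n + 1) × C k Y (n + 2)) (hx : coneD k f n x = 0) :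
    ∃ y, coneD k f (n + 1) y = x := by
  obtain ⟨a, b⟩ := x
  rw [coneD_apply, Prod.mk_eq_zero] at hx
  obtain ⟨h1, h2⟩ := hx
  simp only at h1 h2
  obtain ⟨z, hz⟩ := h.inj n hn a (-b) (neg_eq_zero.1 h1) (by
    rw [map_neg]; exact (eq_neg_of_add_eq_zero_left h2).symm)
  obtain ⟨u, v, hu, huv⟩ := h.surj (n + 1) hn (b + chm k f (n + 2) z) (by
    rw [map_add, bd_chm, hz, ← h2]; exact add_comm _ _)
  refine ⟨(-z + u, v), ?_⟩
  rw [coneD_apply]
  ext1
  · change -(bd k X (n + 1) (-z + u)) = a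
    rw [map_add, hu, map_neg, hz]; simp
  · change chm k f (n + 2) (-z + u) + bd k Y (n + 2) v = b
    rw [map_add, add_assoc, huv, map_neg]
    abel

/-- A contraction of the cone gives isomorphisms in homology. -/
theorem ConeContr.hIso {X Y : SS} {f : SS.Map X Y} {N : ℕ} (c : ConeContr k f N) : HIso k f N where
  surj_zero y := ⟨(c.s y).1, (c.s y).2, c.ε_s y⟩
  surj n hn y hy := by
    rcases n with _ | n
    · have := c.h_zero (0, y)
      rw [coneE_apply] at this
      simp only [map_zero, hy, add_zero] at this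
      rw [coneD_apply, Prod.mk.injEq] at this
      exact ⟨_, _, neg_eq_zero.1 this.1, this.2⟩
    · have := c.h_succ n hn (0, y)
      rw [coneD_apply _ n] at this
      simp only [map_zero, neg_zero, zero_add, hy] at this
      rw [show ((0 : C k X n), (0 : C k Y (n + 1))) = 0 from rfl, map_zero, add_zero,
        coneD_apply, Prod.mk.injEq] at this
      exact ⟨_, _, neg_eq_zero.1 this.1, this.2⟩
  inj_zero x y h := by
    have := c.h_zero (x, -y)
    rw [coneE_apply] at this
    simp only [map_neg, h, add_neg_cancel, map_zero, add_zero] at this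
    rw [coneD_apply, Prod.mk.injEq] at this
    exact ⟨_, (map_neg _ _).trans this.1⟩
  inj n hn x y hx h := by
    have := c.h_succ n hn (x, -y)
    rw [coneD_apply _ n] at this
    simp only [map_neg, h, add_neg_cancel, hx, neg_zero] at this
    rw [show ((0 : C k X n), (0 : C k Y (n + 1))) = 0 from rfl, map_zero, add_zero,
        coneD_apply, Prod.mk.injEq] at this
    exact ⟨_, (map_neg _ _).trans this.1⟩

/-! ### Cochains -/

/-- the functional of a function -/
noncomputable def lam {X : SS} {n : ℕ} (φ : (SS.F k X).obj n) : C k X n →ₗ[k] k :=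
  Finsupp.linearCombination k (fun x => φ x)

@[simp] theorem lam_single {X : SS} {n : ℕ} (φ : (SS.F k X).obj n) (x : X.obj n) (a : k) :
    lam φ (Finsupp.single x a) = a * φ x := by
  simp [lam]

theorem lam_bd {X : SS} {n : ℕ} (φ : (SS.F k X).obj n) (c : C k X (n + 1)) :
    lam φ (bd k X n c) = lam ((SS.F k X).d n φ) c := by
  have : (lam φ) ∘ₗ (bd k X n) = lam ((SS.F k X).d n φ) := by
    apply hom_ext_single
    intro x
    rw [LinearMap.comp_apply, bd_single, lam_single, SS.F_d, map_sum, one_mul]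
    refine Finset.sum_congr rfl fun i _ => ?_
    rw [CosMod.sn_lin, lam_single, one_mul]
  exact LinearMap.congr_fun this c

theorem lam_chm {X Y : SS} (f : SS.Map X Y) {n : ℕ} (φ : (SS.F k Y).obj n) (c : C k X n) :
    lam φ (chm k f n c) = lam ((f.pull (R := k)).app n φ) c := by
  have : (lam φ) ∘ₗ (chm k f n) = lam ((f.pull (R := k)).app n φ) := by
    apply hom_ext_single
    intro x
    simp
  exact LinearMap.congr_fun this c

/-- the function of a functional -/
noncomputable def fn {X : SS} {n : ℕ} (M : C k X n →ₗ[k] k) : (SS.F k X).obj n := fun x => M (Finsupp.single x 1)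

@[simp] theorem lam_fn {X : SS} {n : ℕ} (M : C k X n →ₗ[k] k) : lam (fn M) = M := by
  apply hom_ext_single
  intro x
  simp [fn]

theorem lam_inj {X : SS} {n : ℕ} {φ ψ : (SS.F k X).obj n} (h : ∀ c, lam φ c = lam ψ c) : φ = ψ := by
  funext x
  have := h (Finsupp.single x 1)
  simpa using this

@[simp] theorem lam_zero {X : SS} {n : ℕ} : lam (0 : (SS.F k X).obj n) = 0 := by
  apply hom_ext_single
  intro x
  rw [lam_single, one_mul]
  rfl

theorem lam_add {X : SS} {n : ℕ} (φ ψ : (SS.F k X).obj n) : lam (φ + ψ) = lam φ + lam ψ := by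
  apply hom_ext_single
  intro x
  rw [LinearMap.add_apply, lam_single, lam_single, lam_single, one_mul, one_mul, one_mul]
  rfl

theorem lam_neg {X : SS} {n : ℕ} (φ : (SS.F k X).obj n) : lam (-φ) = - lam φ := by
  apply hom_ext_single
  intro x
  rw [LinearMap.neg_apply, lam_single, lam_single, one_mul, one_mul]
  rfl

/-- A contraction of the cone: every cocycle of `X` is cohomologous to a pulled back one. -/
theorem ConeContr.exists_pull {X Y : SS} {f : SS.Map X Y} {N : ℕ} (c : ConeContr k f N) {n : ℕ}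
    (hn : n ≤ N) {φ : (SS.F k X).obj n} (hφ : φ ∈ (SS.F k X).Z n) :
    ∃ ψ ∈ (SS.F k Y).Z n, φ - (f.pull (R := k)).app n ψ ∈ (SS.F k X).Bd n := by
  rw [CosMod.mem_Z] at hφ
  have hφ' : ∀ x, lam φ (bd k X n x) = 0 := fun x => by rw [lam_bd, hφ, lam_zero]; rfl
  rcases n with _ | n
  · have key : ∀ z : C k X 0 × C k Y 1, lam φ z.1 = lam φ (c.s (coneE k f z)).1 := by
      intro z
      have h := congrArg (fun w => lam φ (Prod.fst w)) (c.h_zero z)
      simp only [Prod.fst_add, map_add] at h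
      rw [coneD_apply] at h
      simp only [map_neg, hφ', neg_zero, zero_add] at h
      exact h.symm
    refine ⟨fn ((lam φ ∘ₗ LinearMap.fst k _ _) ∘ₗ c.s), ?_, ?_⟩
    · rw [CosMod.mem_Z]
      apply lam_inj
      intro y
      rw [← lam_bd, lam_fn, lam_zero]
      have := key (0, y)
      rw [coneE_apply] at this
      simp only [map_zero, zero_add] at this
      exact this.symm
    · rw [CosMod.mem_Bd_zero, sub_eq_zero]
      apply lam_inj
      intro x
      rw [← lam_chm, lam_fn]
      have := key (x, 0)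
      rw [coneE_apply] at this
      simp only [map_zero, add_zero] at this
      exact this
  · have key : ∀ z : C k X (n + 1) × C k Y (n + 2),
        lam φ z.1 = lam φ (c.h n (coneD k f n z)).1 := by
      intro z
      have h := congrArg (fun w => lam φ (Prod.fst w)) (c.h_succ n hn z)
      simp only [Prod.fst_add, map_add] at h
      rw [coneD_apply] at h
      simp only [map_neg, hφ', neg_zero, zero_add] at h
      exact h.symm
    refine ⟨fn (((lam φ ∘ₗ LinearMap.fst k _ _) ∘ₗ c.h n) ∘ₗ LinearMap.inr k _ _), ?_, ?_⟩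
    · rw [CosMod.mem_Z]
      apply lam_inj
      intro y
      rw [← lam_bd, lam_fn, lam_zero]
      have := key (0, y)
      rw [coneD_apply] at this
      simp only [map_zero, zero_add, neg_zero] at this
      exact this.symm
    · rw [CosMod.mem_Bd_succ]
      refine ⟨-(fn (((lam φ ∘ₗ LinearMap.fst k _ _) ∘ₗ c.h n) ∘ₗ LinearMap.inl k _ _)), ?_⟩
      apply lam_inj
      intro x
      rw [← lam_bd, lam_neg, lam_fn, sub_eq_add_neg, lam_add, lam_neg, LinearMap.add_apply,
        LinearMap.neg_apply, LinearMap.neg_apply, ← lam_chm, lam_fn]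
      have := key (x, 0)
      rw [coneD_apply] at this
      simp only [map_zero, add_zero] at this
      rw [show ((-(bd k X n x), chm k f (n + 1) x) : C k X n × C k Y (n + 1)) =
        -(bd k X n x, 0) + (0, chm k f (n + 1) x) by simp, map_add, map_neg, Prod.fst_add,
        Prod.fst_neg, map_add, map_neg] at this
      rw [this]
      simp only [LinearMap.comp_apply, LinearMap.fst_apply, LinearMap.inl_apply,
        LinearMap.inr_apply]
      abel

/-- A contraction of the cone: a cocycle of `Y` whose pull back is a coboundary is one. -/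
theorem ConeContr.mem_Bd {X Y : SS} {f : SS.Map X Y} {N : ℕ} (c : ConeContr k f N) {n : ℕ}
    (hn : n ≤ N + 1) {ψ : (SS.F k Y).obj n} (hψ : ψ ∈ (SS.F k Y).Z n)
    (h : (f.pull (R := k)).app n ψ ∈ (SS.F k X).Bd n) : ψ ∈ (SS.F k Y).Bd n := by
  rw [CosMod.mem_Z] at hψ
  have hψ' : ∀ x, lam ψ (bd k Y n x) = 0 := fun x => by rw [lam_bd, hψ, lam_zero]; rfl
  rcases n with _ | _ | n
  · rw [CosMod.mem_Bd_zero] at h ⊢
    apply lam_inj
    intro y
    conv_lhs => rw [← c.ε_s y, coneE_apply, map_add, hψ', add_zero, lam_chm, h]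
    rw [lam_zero, lam_zero]
    rfl
  · rw [CosMod.mem_Bd_succ] at h ⊢
    obtain ⟨θ, hθ⟩ := h
    have key : ∀ y : C k Y 1, lam ψ y =
        lam θ (c.s (bd k Y 0 y)).1 + lam ψ (c.s (bd k Y 0 y)).2 := by
      intro y
      have h := congrArg (fun w : C k X 0 × C k Y 1 => lam θ w.1 + lam ψ w.2) (c.h_zero (0, y))
      simp only [Prod.fst_add, Prod.snd_add, map_add] at h
      rw [coneD_apply, coneE_apply] at h
      simp only [map_neg, map_zero, map_add, hψ', add_zero, zero_add, lam_bd, hθ, lam_chm] at h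
      rw [← h]
      abel
    refine ⟨fn (((lam θ).coprod (lam ψ)) ∘ₗ c.s), ?_⟩
    apply lam_inj
    intro y
    rw [← lam_bd, lam_fn, key]
    rfl
  · rw [CosMod.mem_Bd_succ] at h ⊢
    obtain ⟨θ, hθ⟩ := h
    have key : ∀ y : C k Y (n + 2), lam ψ y =
        lam θ (c.h n (0, bd k Y (n + 1) y)).1 + lam ψ (c.h n (0, bd k Y (n + 1) y)).2 := by
      intro y
      have h := congrArg (fun w : C k X (n + 1) × C k Y (n + 2) => lam θ w.1 + lam ψ w.2)
        (c.h_succ n (by omega) (0, y))
      simp only [Prod.fst_add, Prod.snd_add, map_add] at h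
      rw [coneD_apply, coneD_apply] at h
      simp only [map_neg, map_zero, map_add, hψ', add_zero, zero_add, neg_zero, lam_bd, hθ,
        lam_chm] at h
      rw [← h]
      abel
    refine ⟨fn ((((lam θ).coprod (lam ψ)) ∘ₗ c.h n) ∘ₗ LinearMap.inr k _ _), ?_⟩
    apply lam_inj
    intro y
    rw [← lam_bd, lam_fn, key]
    rfl

/-- A contraction of the cone gives isomorphisms in cohomology. -/
theorem ConeContr.mapH_bijective {X Y : SS} {f : SS.Map X Y} {N : ℕ} (c : ConeContr k f N) {n : ℕ}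
    (hn : n ≤ N) : Function.Bijective ((f.pull (R := k)).mapH n) := by
  constructor
  · rw [injective_iff_map_eq_zero]
    intro x hx
    obtain ⟨x, rfl⟩ := (SS.F k Y).cls_surjective n x
    rw [Hom.mapH_cls, CosMod.cls_eq_zero_iff] at hx
    rw [CosMod.cls_eq_zero_iff]
    exact c.mem_Bd (by omega) x.2 hx
  · intro y
    obtain ⟨y, rfl⟩ := (SS.F k X).cls_surjective n y
    obtain ⟨ψ, hψ, h⟩ := c.exists_pull hn y.2
    refine ⟨(SS.F k Y).cls n ⟨ψ, hψ⟩, ?_⟩
    rw [Hom.mapH_cls, eq_comm, CosMod.cls_eq_iff]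
    exact h

theorem ConeContr.mapH_injective {X Y : SS} {f : SS.Map X Y} {N : ℕ} (c : ConeContr k f N) {n : ℕ}
    (hn : n ≤ N + 1) : Function.Injective ((f.pull (R := k)).mapH n) := by
  rw [injective_iff_map_eq_zero]
  intro x hx
  obtain ⟨x, rfl⟩ := (SS.F k Y).cls_surjective n x
  rw [Hom.mapH_cls, CosMod.cls_eq_zero_iff] at hx
  rw [CosMod.cls_eq_zero_iff]
  exact c.mem_Bd hn x.2 hx

end chains

/-! ### Free quotients -/

/-- `p : W → B` exhibits `B` as the quotient of `W` by a free action of `G`. -/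
structure FreeQ (G : Type) [Group G] (W B : SS) where
  /-- the projection -/
  p : SS.Map W B
  /-- the action -/
  act : ∀ {n : ℕ}, G → W.obj n → W.obj n
  one_act : ∀ {n : ℕ} (w : W.obj n), act 1 w = w
  mul_act : ∀ {n : ℕ} (g h : G) (w : W.obj n), act (g * h) w = act g (act h w)
  map_act : ∀ {m n : ℕ} (f : Op m n) (g : G) (w : W.obj n), W.map f (act g w) = act g (W.map f w)
  free : ∀ {n : ℕ} (g : G) (w : W.obj n), act g w = w → g = 1
  p_act : ∀ {n : ℕ} (g : G) (w : W.obj n), p.app (act g w) = p.app w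
  surj : ∀ n, Function.Surjective (p.app (p := n))
  orbit : ∀ {n : ℕ} (w w' : W.obj n), p.app w = p.app w' → ∃ g, act g w = w'

namespace FreeQ

variable {k : Type} [CommRing k] {G : Type} [Group G] {W B : SS} (Q : FreeQ G W B)

variable (k) in
/-- the action on chains -/
noncomputable def ρ (n : ℕ) (g : G) : C k W n →ₗ[k] C k W n := Finsupp.lmapDomain k k (Q.act g)

@[simp] theorem ρ_single (n : ℕ) (g : G) (w : W.obj n) (a : k) :
    Q.ρ k n g (Finsupp.single w a) = Finsupp.single (Q.act g w) a := by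
  simp [ρ, Finsupp.lmapDomain_apply, Finsupp.mapDomain_single]

theorem ρ_one (n : ℕ) (x : C k W n) : Q.ρ k n 1 x = x := by
  have : Q.ρ k n 1 = LinearMap.id := by
    apply hom_ext_single
    intro x
    simp [Q.one_act]
  rw [this]; rfl

theorem ρ_mul (n : ℕ) (g h : G) (x : C k W n) : Q.ρ k n (g * h) x = Q.ρ k n g (Q.ρ k n h x) := by
  have : Q.ρ k n (g * h) = (Q.ρ k n g) ∘ₗ (Q.ρ k n h) := by
    apply hom_ext_single
    intro x
    simp [Q.mul_act]
  rw [this]; rfl

theorem ρ_bd (n : ℕ) : Eqv (Q.ρ k (n + 1)) (Q.ρ k n) (bd k W n) := by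
  intro g x
  have : (bd k W n) ∘ₗ (Q.ρ k (n + 1) g) = (Q.ρ k n g) ∘ₗ (bd k W n) := by
    apply hom_ext_single
    intro x
    rw [LinearMap.comp_apply, LinearMap.comp_apply, ρ_single, bd_single, bd_single, map_sum]
    refine Finset.sum_congr rfl fun i _ => ?_
    rw [CosMod.sn_lin, ρ_single, Q.map_act]
  exact LinearMap.congr_fun this x

theorem lp (n : ℕ) : LP (Q.ρ k n) := by
  classical
  intro A C _ _ _ _ ρA ρC h1 hm π hπ f hf hr
  choose σ hσ using Q.surj n
  have hγ : ∀ w : W.obj n, ∃ g, Q.act g (σ (Q.p.app w)) = w := fun w => Q.orbit _ _ (hσ _)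
  choose γ hγ using hγ
  choose a ha using fun b : B.obj n => hr (Finsupp.single (σ b) 1)
  have hγ' : ∀ g w, γ (Q.act g w) = g * γ w := by
    intro g w
    have h1 : Q.act (γ (Q.act g w)) (σ (Q.p.app w)) = Q.act (g * γ w) (σ (Q.p.app w)) := by
      rw [Q.mul_act, hγ w]
      conv_rhs => rw [← hγ (Q.act g w)]
      rw [Q.p_act]
    have h2 := Q.free ((γ (Q.act g w))⁻¹ * (g * γ w)) (σ (Q.p.app w)) (by
      rw [Q.mul_act, ← h1, ← Q.mul_act, inv_mul_cancel, Q.one_act])
    exact inv_mul_eq_one.1 h2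
  have hFs : ∀ w, Finsupp.linearCombination k (fun w => ρA (γ w) (a (Q.p.app w)))
      (Finsupp.single w (1 : k)) = ρA (γ w) (a (Q.p.app w)) := by
    intro w; simp
  refine ⟨Finsupp.linearCombination k (fun w => ρA (γ w) (a (Q.p.app w))), ?_, ?_⟩
  · intro g x
    have : (Finsupp.linearCombination k (fun w => ρA (γ w) (a (Q.p.app w)))) ∘ₗ (Q.ρ k n g) =
        (ρA g) ∘ₗ (Finsupp.linearCombination k (fun w => ρA (γ w) (a (Q.p.app w)))) := by
      apply hom_ext_single
      intro w
      rw [LinearMap.comp_apply, LinearMap.comp_apply, ρ_single, hFs, hFs, hγ', Q.p_act, hm]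
    exact LinearMap.congr_fun this x
  · intro m
    have : π ∘ₗ (Finsupp.linearCombination k (fun w => ρA (γ w) (a (Q.p.app w)))) = f := by
      apply hom_ext_single
      intro w
      rw [LinearMap.comp_apply, hFs, hπ, ha, ← hf, ρ_single, hγ]
    exact LinearMap.congr_fun this m

theorem desc (n : ℕ) : Desc (Q.ρ k n) (chm k Q.p n) := by
  choose σ hσ using Q.surj n
  refine ⟨?_, ?_, ?_⟩
  · intro y
    refine ⟨Finsupp.lmapDomain k k σ y, ?_⟩
    have : (chm k Q.p n) ∘ₗ (Finsupp.lmapDomain k k σ) = LinearMap.id := by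
      apply hom_ext_single
      intro b
      simp [Finsupp.lmapDomain_apply, Finsupp.mapDomain_single, hσ]
    exact LinearMap.congr_fun this y
  · intro g x
    have : (chm k Q.p n) ∘ₗ (Q.ρ k n g) = chm k Q.p n := by
      apply hom_ext_single
      intro w
      simp [Q.p_act]
    exact LinearMap.congr_fun this x
  · intro A _ _ u hu
    refine ⟨Finsupp.linearCombination k (fun b => u (Finsupp.single (σ b) 1)), fun x => ?_⟩
    have : (Finsupp.linearCombination k (fun b => u (Finsupp.single (σ b) 1))) ∘ₗ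
        (chm k Q.p n) = u := by
      apply hom_ext_single
      intro w
      obtain ⟨g, hg⟩ := Q.orbit (σ (Q.p.app w)) w (hσ _)
      have := hu g (Finsupp.single (σ (Q.p.app w)) 1)
      rw [ρ_single, hg] at this
      simp [this]
    exact LinearMap.congr_fun this x

end FreeQ

/-- Main theorem: an equivariant map between simplicial sets with free actions which is a homology
isomorphism in degrees `≤ N` induces a map of orbit spaces with contractible cone. -/
theorem coneContr_quot {k : Type} [CommRing k] {G : Type} [Group G] {W B W' B' : SS}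
    (Q : FreeQ G W B) (Q' : FreeQ G W' B') (f : SS.Map W W') (f' : SS.Map B B')
    (hf : ∀ {n : ℕ} (g : G) (w : W.obj n), f.app (Q.act g w) = Q'.act g (f.app w))
    (hp : ∀ {n : ℕ} (w : W.obj n), f'.app (Q.p.app w) = Q'.p.app (f.app w)) {N : ℕ}
    (h : HIso k f N) : Nonempty (ConeContr k f' N) := by
  have hfe : ∀ n, Eqv (Q.ρ k n) (Q'.ρ k n) (chm k f n) := by
    intro n g x
    have : (chm k f n) ∘ₗ (Q.ρ k n g) = (Q'.ρ k n g) ∘ₗ (chm k f n) := by
      apply hom_ext_single
      intro w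
      simp [hf]
    exact LinearMap.congr_fun this x
  have hpe : ∀ n (x : C k W n), chm k f' n (chm k Q.p n x) = chm k Q'.p n (chm k f n x) := by
    intro n x
    have : (chm k f' n) ∘ₗ (chm k Q.p n) = (chm k Q'.p n) ∘ₗ (chm k f n) := by
      apply hom_ext_single
      intro w
      simp [hp]
    exact LinearMap.congr_fun this x
  obtain ⟨c, hs, he⟩ := exists_contr (P := fun n => C k W n × C k W' (n + 1)) (coneE k f)
    (coneD k f) (coneE_coneD f) (coneD_coneD f) (Q'.ρ k 0)
    (fun n => prodAct (Q.ρ k n) (Q'.ρ k (n + 1)))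
    (fun n x => Prod.ext (Q.ρ_one n x.1) (Q'.ρ_one _ x.2))
    (fun n g h x => Prod.ext (Q.ρ_mul n g h x.1) (Q'.ρ_mul _ g h x.2))
    (fun g x => by
      rw [coneE_apply, coneE_apply, map_add]
      exact congrArg₂ (· + ·) (hfe 0 g x.1) (Q'.ρ_bd 0 g x.2))
    (fun n g x => by
      rw [coneD_apply, coneD_apply]
      refine Prod.ext ?_ ?_
      · exact (congrArg Neg.neg (Q.ρ_bd n g x.1)).trans (map_neg (Q.ρ k n g) _).symm
      · refine Eq.trans ?_ (map_add (Q'.ρ k (n + 1) g) _ _).symm
        exact congrArg₂ (· + ·) (hfe (n + 1) g x.1) (Q'.ρ_bd (n + 1) g x.2))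
    (Q'.lp 0) (fun n => (Q.lp n).prod (Q'.lp (n + 1))) N
    (fun y => by
      obtain ⟨x, z, hxz⟩ := h.surj_zero y
      exact ⟨(x, z), hxz⟩)
    (fun x hx => h.exact_zero x hx) (fun n hn x hx => h.exact_succ n hn x hx)
  exact c.desc hs he (Q'.desc 0) (fun n => (Q.desc n).prod (Q'.desc (n + 1))) (coneE k f')
    (coneD k f') (fun x => by
      rw [coneE_apply, coneE_apply, map_add, ← hpe, ← bd_chm]
      rfl) (fun n x => by
      rw [coneD_apply, coneD_apply]
      refine Prod.ext ?_ ?_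
      · change -(bd k B n (chm k Q.p (n + 1) x.1)) = chm k Q.p n (-(bd k W n x.1))
        rw [bd_chm, map_neg]
      · change chm k f' (n + 1) (chm k Q.p (n + 1) x.1) +
          bd k B' (n + 1) (chm k Q'.p (n + 2) x.2) =
          chm k Q'.p (n + 1) (chm k f (n + 1) x.1 + bd k W' (n + 1) x.2)
        rw [hpe, bd_chm, map_add])

end Vale.Agent.P263.G
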