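import Vale.Agent.P263.E.Simp
import Vale.Agent.P263.S.Htpy

/-!
# P263, block G: the double mapping cylinder and the gluing of zigzags

`Glue.W f g` : the double mapping cylinder of `X ← C → Y`, a simplicial set without quotients:
`W_p = X_p + Y_p + C_p × {nonconstant s : [p] → Bool}`.

`IsoUpTo R D f` : the simplicial map `f` induces an isomorphism on `H^n(- ; R)` for `n < D` and an
injection on `H^D`.
-/

namespace Vale.Agent.P263.G

open Vale.Agent.P263.S Vale.Agent.P263.E

/-- the simplicial set with `p`-simplices all functions `[p] → Bool` -/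
def JJ : SS where
  obj p := Fin (p + 1) → Bool
  map φ s := fun v => s (φ v)
  map_id _ := rfl
  map_comp _ _ _ := rfl

namespace Glue

variable {X Y C : SS} (f : SS.Map C X) (g : SS.Map C Y)

/-- the nonconstant functions -/
def NC {p : ℕ} (s : Fin (p + 1) → Bool) : Prop := (∃ v, s v = true) ∧ ∃ v, s v = false

/-- the simplices of the double mapping cylinder -/
inductive Wobj (X Y C : SS) (p : ℕ) : Type
  | x : X.obj p → Wobj X Y C p
  | y : Y.obj p → Wobj X Y C p
  | c : C.obj p → (s : Fin (p + 1) → Bool) → NC s → Wobj X Y C p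

open Classical in
/-- the quotient map `C × J → W` -/
noncomputable def q {p : ℕ} (c : C.obj p) (s : Fin (p + 1) → Bool) : Wobj X Y C p :=
  if h : NC s then Wobj.c c s h
  else if s 0 = false then Wobj.x (f.app c) else Wobj.y (g.app c)

theorem q_false {p : ℕ} (c : C.obj p) (s : Fin (p + 1) → Bool) (h : ∀ v, s v = false) :
    q f g c s = Wobj.x (f.app c) := by
  rw [q, dif_neg, if_pos (h 0)]
  rintro ⟨⟨v, hv⟩, -⟩
  rw [h v] at hv
  exact Bool.noConfusion hv

theorem q_true {p : ℕ} (c : C.obj p) (s : Fin (p + 1) → Bool) (h : ∀ v, s v = true) :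
    q f g c s = Wobj.y (g.app c) := by
  rw [q, dif_neg, if_neg (by rw [h 0]; decide)]
  rintro ⟨-, ⟨v, hv⟩⟩
  rw [h v] at hv
  exact Bool.noConfusion hv

theorem q_nc {p : ℕ} (c : C.obj p) (s : Fin (p + 1) → Bool) (h : NC s) :
    q f g c s = Wobj.c c s h := by
  rw [q, dif_pos h]

theorem not_nc {p : ℕ} {s : Fin (p + 1) → Bool} (h : ¬ NC s) : (∀ v, s v = false) ∨ ∀ v, s v = true := by
  by_cases h1 : ∃ v, s v = true
  · right
    intro v
    by_contra hv
    exact h ⟨h1, v, by simpa using hv⟩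
  · left
    intro v
    by_contra hv
    exact h1 ⟨v, by simpa using hv⟩

/-- the simplicial structure -/
noncomputable def Wmap {p r : ℕ} (φ : Op p r) : Wobj X Y C r → Wobj X Y C p
  | Wobj.x x => Wobj.x (X.map φ x)
  | Wobj.y y => Wobj.y (Y.map φ y)
  | Wobj.c c s _ => q f g (C.map φ c) (fun v => s (φ v))

theorem Wmap_q {p r : ℕ} (φ : Op p r) (c : C.obj r) (s : Fin (r + 1) → Bool) :
    Wmap f g φ (q f g c s) = q f g (C.map φ c) (fun v => s (φ v)) := by
  by_cases h1 : NC s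
  · rw [q_nc f g c s h1]
    rfl
  · rcases not_nc h1 with h2 | h2
    · rw [q_false f g c s h2, q_false f g _ _ (fun v => h2 (φ v)), f.nat]
      rfl
    · rw [q_true f g c s h2, q_true f g _ _ (fun v => h2 (φ v)), g.nat]
      rfl

/-- the double mapping cylinder -/
noncomputable def W : SS where
  obj p := Wobj X Y C p
  map φ := Wmap f g φ
  map_id w := by
    rcases w with x | y | ⟨c, s, h⟩
    · show Wobj.x _ = Wobj.x _
      rw [X.map_id]
    · show Wobj.y _ = Wobj.y _
      rw [Y.map_id]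
    · show q f g (C.map OrderHom.id c) _ = _
      rw [C.map_id]
      exact q_nc f g c s h
  map_comp φ ψ w := by
    rcases w with x | y | ⟨c, s, h⟩
    · show Wobj.x _ = Wobj.x _
      rw [X.map_comp]
    · show Wobj.y _ = Wobj.y _
      rw [Y.map_comp]
    · show q f g (C.map _ c) _ = Wmap f g ψ (q f g (C.map φ c) _)
      rw [Wmap_q, C.map_comp]
      rfl

/-- the inclusion of `X` -/
noncomputable def inX : SS.Map X (W f g) := ⟨fun x => Wobj.x x, fun _ _ => rfl⟩

/-- the inclusion of `Y` -/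
noncomputable def inY : SS.Map Y (W f g) := ⟨fun y => Wobj.y y, fun _ _ => rfl⟩

theorem inX_inj : (inX f g).Inj := fun _ _ _ h => Wobj.x.inj h

theorem inY_inj : (inY f g).Inj := fun _ _ _ h => Wobj.y.inj h

/-- the map from the cylinder -/
noncomputable def inC : SS.Map (C.prod JJ) (W f g) where
  app cs := q f g cs.1 cs.2
  nat φ cs := (Wmap_q f g φ cs.1 cs.2).symm

/-- the end `C × {b}` of the cylinder -/
def inE (C : SS) (b : Bool) : SS.Map C (C.prod JJ) := ⟨fun c => (c, fun _ => b), fun _ _ => rfl⟩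

theorem inC_false : (inC f g).comp (inE C false) = (inX f g).comp f := by
  ext p c
  exact q_false f g c _ fun _ => rfl

theorem inC_true : (inC f g).comp (inE C true) = (inY f g).comp g := by
  ext p c
  exact q_true f g c _ fun _ => rfl

section fns

variable {R : Type}

/-- the function on `W` with given restrictions -/
def mk {p : ℕ} (x : X.obj p → R) (y : Y.obj p → R) (h : C.obj p × (Fin (p + 1) → Bool) → R) :
    Wobj X Y C p → R
  | Wobj.x a => x a
  | Wobj.y b => y b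
  | Wobj.c c s _ => h (c, s)

theorem mk_q {p : ℕ} {x : X.obj p → R} {y : Y.obj p → R} {h : C.obj p × (Fin (p + 1) → Bool) → R}
    (h0 : ∀ c, h (c, fun _ => false) = x (f.app c)) (h1 : ∀ c, h (c, fun _ => true) = y (g.app c))
    (c : C.obj p) (s : Fin (p + 1) → Bool) : mk x y h (q f g c s) = h (c, s) := by
  by_cases hs : NC s
  · rw [q_nc f g c s hs]
    rfl
  · rcases not_nc hs with h2 | h2
    · rw [q_false f g c s h2, show s = fun _ => false from funext h2]
      exact (h0 c).symm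
    · rw [q_true f g c s h2, show s = fun _ => true from funext h2]
      exact (h1 c).symm

theorem fn_ext {p : ℕ} {u v : Wobj X Y C p → R} (hx : ∀ x, u (Wobj.x x) = v (Wobj.x x))
    (hy : ∀ y, u (Wobj.y y) = v (Wobj.y y)) (hc : ∀ c s, u (q f g c s) = v (q f g c s)) : u = v := by
  funext w
  rcases w with x | y | ⟨c, s, h⟩
  · exact hx x
  · exact hy y
  · rw [← q_nc f g c s h]
    exact hc c s

end fns

/-- `V` is the double mapping cylinder of `X ← C → Y`, the end `b` being glued to `X`. -/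
structure Glued (R : Type) {X Y C V : SS} (b : Bool) (f : SS.Map C X) (g : SS.Map C Y)
    (i : SS.Map X V) (j : SS.Map Y V) (k : SS.Map (C.prod JJ) V) : Prop where
  e0 : ∀ {q : ℕ} (c : C.obj q), k.app ((inE C b).app c) = i.app (f.app c)
  e1 : ∀ {q : ℕ} (c : C.obj q), k.app ((inE C (!b)).app c) = j.app (g.app c)
  ex : ∀ {p : ℕ} (x : X.obj p → R) (y : Y.obj p → R) (h : (C.prod JJ).obj p → R),
    (∀ c, h ((inE C b).app c) = x (f.app c)) → (∀ c, h ((inE C (!b)).app c) = y (g.app c)) →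
    ∃ w : V.obj p → R, (∀ a, w (i.app a) = x a) ∧ (∀ a, w (j.app a) = y a) ∧
      ∀ a, w (k.app a) = h a
  ext : ∀ {p : ℕ} (u v : V.obj p → R), (∀ a, u (i.app a) = v (i.app a)) →
    (∀ a, u (j.app a) = v (j.app a)) → (∀ a, u (k.app a) = v (k.app a)) → u = v

theorem Glued.swap {R : Type} {X Y C V : SS} {b : Bool} {f : SS.Map C X} {g : SS.Map C Y}
    {i : SS.Map X V} {j : SS.Map Y V} {k : SS.Map (C.prod JJ) V} (H : Glued R b f g i j k) :
    Glued R (!b) g f j i k where
  e0 := H.e1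
  e1 := by rw [Bool.not_not]; exact H.e0
  ex x y h h0 h1 := by
    rw [Bool.not_not] at h1
    obtain ⟨w, a, b, c⟩ := H.ex y x h h1 h0
    exact ⟨w, b, a, c⟩
  ext u v h0 h1 h2 := H.ext u v h1 h0 h2

theorem glued (R : Type) : Glued R false f g (inX f g) (inY f g) (inC f g) where
  e0 c := q_false f g c _ fun _ => rfl
  e1 c := q_true f g c _ fun _ => rfl
  ex x y h h0 h1 := ⟨mk x y h, fun _ => rfl, fun _ => rfl, fun a => mk_q f g h0 h1 a.1 a.2⟩
  ext _ _ h0 h1 h2 := fn_ext f g h0 h1 fun c s => h2 (c, s)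

end Glue

section rel

variable (R : Type) [CommRing R]

/-- the contraction of `C × J` to the end `b` -/
def cyl (C : SS) (b : Bool) : Prism (SS.F R (C.prod JJ)) (SS.F R (C.prod JJ)) where
  h _ θ :=
    { toFun := fun w cs => w (cs.1, fun v => if θ v = 1 then cs.2 v else b)
      map_add' := fun _ _ => rfl
      map_smul' := fun _ _ => rfl }
  nat _ _ _ := rfl

variable {R} {C : SS} {b : Bool}

theorem cyl_c1 {p : ℕ} (w : (SS.F R (C.prod JJ)).obj p) : (cyl R C b).h p (c1 p) w = w := by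
  funext cs
  show w (cs.1, fun v => if c1 p v = 1 then cs.2 v else b) = w cs
  simp only [c1_val, if_true]
  rfl

theorem cyl_c0 {p : ℕ} (w : (SS.F R (C.prod JJ)).obj p)
    (hw : ∀ c, w ((Glue.inE C b).app c) = 0) : (cyl R C b).h p (c0 p) w = 0 := by
  funext cs
  show w (cs.1, fun v => if c0 p v = 1 then cs.2 v else b) = 0
  simp only [c0_val]
  exact hw cs.1

theorem cyl_k {p : ℕ} (w : (SS.F R (C.prod JJ)).obj (p + 1))
    (hw : ∀ c, w ((Glue.inE C b).app c) = 0) (c : C.obj p) :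
    (cyl R C b).k p w ((Glue.inE C b).app c) = 0 := by
  rw [Prism.k_apply]
  show (∑ i ∈ Finset.range (p + 1), sn i ((SS.F R (C.prod JJ)).map (sg p i)
    ((cyl R C b).h (p + 1) (th (p + 1) (i + 1)) w)) : (C.prod JJ).obj p → R) _ = 0
  rw [Finset.sum_apply]
  refine Finset.sum_eq_zero fun i _ => ?_
  show sn i (w (C.map (sg p i) c, fun v => if th (p + 1) (i + 1) v = 1 then b else b)) = 0
  simp only [ite_self]
  rw [show w (C.map (sg p i) c, fun _ => b) = 0 from hw _, sn_zero_val]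

/-- a cocycle on `C × J` (positive degree) vanishing on the end `b` is the coboundary of a
cochain vanishing on the end `b` -/
theorem cyl_d {p : ℕ} (w : (SS.F R (C.prod JJ)).obj (p + 1))
    (hw : ∀ c, w ((Glue.inE C b).app c) = 0) (hd : (SS.F R (C.prod JJ)).d (p + 1) w = 0) :
    (SS.F R (C.prod JJ)).d p ((cyl R C b).k p w) = w := by
  have := (cyl R C b).k_d_add_d_k p w
  rw [hd, map_zero, zero_add, cyl_c1, cyl_c0 w hw, sub_zero] at this
  exact this

theorem cyl_zero (w : (SS.F R (C.prod JJ)).obj 0)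
    (hw : ∀ c, w ((Glue.inE C b).app c) = 0) (hd : (SS.F R (C.prod JJ)).d 0 w = 0) : w = 0 := by
  have := (cyl R C b).k_d_zero w
  rw [hd, map_zero, cyl_c1, cyl_c0 w hw, sub_zero] at this
  exact this.symm

variable {X Y V : SS} {f : SS.Map C X} {g : SS.Map C Y} {i : SS.Map X V} {j : SS.Map Y V}
  {k : SS.Map (C.prod JJ) V}

theorem pull_d {X Y : SS} (f : SS.Map X Y) {p : ℕ} (w : (SS.F R Y).obj p) (x : X.obj (p + 1)) :
    (SS.F R Y).d p w (f.app x) = (SS.F R X).d p (fun a => w (f.app a)) x :=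
  congrFun ((f.pull (R := R)).app_d p w) x

theorem pull_d' {X Y : SS} (f : SS.Map X Y) {p : ℕ} (w : (SS.F R Y).obj p) (v : (SS.F R X).obj p)
    (h : ∀ a, w (f.app a) = v a) (x : X.obj (p + 1)) :
    (SS.F R Y).d p w (f.app x) = (SS.F R X).d p v x := by
  rw [pull_d]
  exact congrFun (congrArg ((SS.F R X).d p) (funext h)) x

theorem pull_d0 {X Y : SS} (f : SS.Map X Y) {p : ℕ} (w : (SS.F R Y).obj p)
    (h : ∀ a, w (f.app a) = 0) (x : X.obj (p + 1)) :
    (SS.F R Y).d p w (f.app x) = 0 := by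
  rw [pull_d' f w 0 h, map_zero]
  rfl

/-- **relative cohomology of the double cylinder**, positive degrees -/
theorem rel_succ (H : Glue.Glued R b f g i j k) {n : ℕ}
    (ginj : ∀ y : (SS.F R Y).obj (n + 1), (SS.F R Y).d (n + 1) y = 0 →
      (g.pull (R := R)).app (n + 1) y ∈ (SS.F R C).Bd (n + 1) → y ∈ (SS.F R Y).Bd (n + 1))
    (gsurj : ∀ c : (SS.F R C).obj n, (SS.F R C).d n c = 0 → ∃ y : (SS.F R Y).obj n,
      (SS.F R Y).d n y = 0 ∧ c - (g.pull (R := R)).app n y ∈ (SS.F R C).Bd n)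
    (w : (SS.F R V).obj (n + 1)) (hw : (SS.F R V).d (n + 1) w = 0)
    (hx : ∀ x, w (i.app x) = 0) :
    ∃ w' : (SS.F R V).obj n, (SS.F R V).d n w' = w ∧ ∀ x, w' (i.app x) = 0 := by
  classical
  set h : (SS.F R (C.prod JJ)).obj (n + 1) := fun a => w (k.app a) with hh
  have h0 : ∀ c, h ((Glue.inE C b).app c) = 0 := fun c => by
    show w (k.app _) = 0
    rw [H.e0]
    exact hx _
  have hd : (SS.F R (C.prod JJ)).d (n + 1) h = 0 := by
    funext a
    rw [hh, ← pull_d, hw]
    rfl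
  set u := (cyl R C b).k n h with hu
  have u0 : ∀ c, u ((Glue.inE C b).app c) = 0 := cyl_k h h0
  have ud : (SS.F R (C.prod JJ)).d n u = h := cyl_d h h0 hd
  set y : (SS.F R Y).obj (n + 1) := fun a => w (j.app a) with hy
  have yd : (SS.F R Y).d (n + 1) y = 0 := by
    funext a
    rw [hy, ← pull_d, hw]
    rfl
  set u1 : (SS.F R C).obj n := fun c => u ((Glue.inE C (!b)).app c) with hu1
  have gy : (g.pull (R := R)).app (n + 1) y = (SS.F R C).d n u1 := by
    funext c
    show w (j.app (g.app c)) = _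
    rw [hu1, ← pull_d, ud, ← H.e1]
  obtain ⟨y', hy'⟩ := ginj y yd ⟨u1, gy.symm⟩
  obtain ⟨y'', hy'', hc⟩ := gsurj (((g.pull (R := R)).app n y') - u1) (by
    rw [map_sub, ← gy, ← (g.pull (R := R)).app_d, hy', sub_self])
  set y1 : (SS.F R Y).obj n := y' - y'' with hy1
  have y1d : (SS.F R Y).d n y1 = y := by rw [hy1, map_sub, hy', hy'', sub_zero]
  -- an element `e` of degree `n` on the cylinder with `d e = 0`, `e` zero on the end `b`
  obtain ⟨e, ed, e0, e1⟩ : ∃ e : (SS.F R (C.prod JJ)).obj n, (SS.F R (C.prod JJ)).d n e = 0 ∧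
      (∀ c, e ((Glue.inE C b).app c) = 0) ∧
      ∀ c, e ((Glue.inE C (!b)).app c) = y1 (g.app c) - u1 c := by
    have key : ((g.pull (R := R)).app n y' - u1) - (g.pull (R := R)).app n y'' =
        fun c => y1 (g.app c) - u1 c := by
      funext c
      show (y' (g.app c) - u1 c) - y'' (g.app c) = (y' (g.app c) - y'' (g.app c)) - u1 c
      ring
    rw [key] at hc
    cases n with
    | zero =>
      refine ⟨0, map_zero _, fun _ => rfl, fun c => ?_⟩
      exact (congrFun (CosMod.mem_Bd_zero.1 hc) c).symm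
    | succ m =>
      obtain ⟨c', hc'⟩ := CosMod.mem_Bd_succ.1 hc
      let E : (SS.F R (C.prod JJ)).obj m := fun a => if a.2 = fun _ => b then 0 else c' a.1
      have E0 : ∀ c, E ((Glue.inE C b).app c) = 0 := fun c => if_pos rfl
      have E1 : ∀ c, E ((Glue.inE C (!b)).app c) = c' c := fun c => if_neg (by
        intro h
        have := congrFun h 0
        cases b <;> exact Bool.noConfusion this)
      refine ⟨(SS.F R (C.prod JJ)).d m E, CosMod.d_d _ _ _, fun c => ?_, fun c => ?_⟩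
      · exact pull_d0 _ _ E0 c
      · rw [pull_d' _ _ _ E1, hc']
  obtain ⟨w', w1, w2, w3⟩ : ∃ w' : (SS.F R V).obj n, (∀ a, w' (i.app a) = 0) ∧
      (∀ a, w' (j.app a) = y1 a) ∧ ∀ a, w' (k.app a) = (u + e) a := H.ex (p := n) (fun _ => 0) y1 (u + e) (fun c => by
    show u _ + e _ = 0
    rw [u0, e0, add_zero]) (fun c => by
    show u _ + e _ = _
    rw [e1]
    show u1 c + _ = _
    ring)
  refine ⟨w', ?_, w1⟩
  refine H.ext _ _ (fun a => ?_) (fun a => ?_) (fun a => ?_)
  · rw [pull_d0 _ _ w1, hx]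
  · rw [pull_d' _ _ _ w2, y1d]
  · rw [pull_d' _ _ _ w3, map_add, ud, ed, add_zero]

theorem rel_zero (H : Glue.Glued R b f g i j k)
    (ginj : ∀ y : (SS.F R Y).obj 0, (SS.F R Y).d 0 y = 0 →
      (g.pull (R := R)).app 0 y = 0 → y = 0)
    (w : (SS.F R V).obj 0) (hw : (SS.F R V).d 0 w = 0)
    (hx : ∀ x, w (i.app x) = 0) : w = 0 := by
  have h0 : (fun a => w (k.app a) : (SS.F R (C.prod JJ)).obj 0) = 0 := by
    refine cyl_zero (b := b) _ (fun c => ?_) ?_
    · show w (k.app _) = 0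
      rw [H.e0]
      exact hx _
    · funext a
      rw [← pull_d, hw]
      rfl
  have hy : (fun a => w (j.app a) : (SS.F R Y).obj 0) = 0 := by
    refine ginj _ ?_ ?_
    · funext a
      rw [← pull_d, hw]
      rfl
    · funext c
      show w (j.app (g.app c)) = 0
      rw [← H.e1]
      exact congrFun h0 _
  exact H.ext _ _ hx (fun a => congrFun hy a) (fun a => congrFun h0 a)

end rel

/-! ### isomorphisms in a range -/

section range

variable (R : Type) [CommRing R]

/-- `f` induces an isomorphism on `H^n` for `n < D` and an injection on `H^D`. -/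
def IsoUpTo (D : ℕ) {X Y : SS} (f : SS.Map X Y) : Prop :=
  (∀ n ≤ D, Function.Injective ((f.pull (R := R)).mapH n)) ∧
    ∀ n < D, Function.Surjective ((f.pull (R := R)).mapH n)

variable {R} {D : ℕ}

theorem IsoUpTo.inj {X Y : SS} {f : SS.Map X Y} (hf : IsoUpTo R D f) {n : ℕ} (hn : n ≤ D)
    (y : (SS.F R Y).obj n) (hy : (SS.F R Y).d n y = 0)
    (h : (f.pull (R := R)).app n y ∈ (SS.F R X).Bd n) : y ∈ (SS.F R Y).Bd n := by
  have := hf.1 n hn (a₁ := (SS.F R Y).cls n ⟨y, hy⟩) (a₂ := 0) (by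
    rw [Hom.mapH_cls, map_zero, CosMod.cls_eq_zero_iff]
    exact h)
  exact CosMod.cls_eq_zero_iff.1 this

theorem IsoUpTo.surj {X Y : SS} {f : SS.Map X Y} (hf : IsoUpTo R D f) {n : ℕ} (hn : n < D)
    (c : (SS.F R X).obj n) (hc : (SS.F R X).d n c = 0) :
    ∃ y : (SS.F R Y).obj n, (SS.F R Y).d n y = 0 ∧
      c - (f.pull (R := R)).app n y ∈ (SS.F R X).Bd n := by
  obtain ⟨z, hz⟩ := hf.2 n hn ((SS.F R X).cls n ⟨c, hc⟩)
  obtain ⟨⟨y, hy⟩, rfl⟩ := (SS.F R Y).cls_surjective n z
  refine ⟨y, hy, ?_⟩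
  rw [Hom.mapH_cls] at hz
  exact CosMod.cls_eq_iff.1 hz.symm

theorem IsoUpTo.of_elem {X Y : SS} {f : SS.Map X Y}
    (h1 : ∀ n ≤ D, ∀ y : (SS.F R Y).obj n, (SS.F R Y).d n y = 0 →
      (f.pull (R := R)).app n y ∈ (SS.F R X).Bd n → y ∈ (SS.F R Y).Bd n)
    (h2 : ∀ n < D, ∀ c : (SS.F R X).obj n, (SS.F R X).d n c = 0 →
      ∃ y : (SS.F R Y).obj n, (SS.F R Y).d n y = 0 ∧
        c - (f.pull (R := R)).app n y ∈ (SS.F R X).Bd n) : IsoUpTo R D f := by
  refine ⟨fun n hn => ?_, fun n hn => ?_⟩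
  · rw [injective_iff_map_eq_zero]
    intro z hz
    obtain ⟨⟨y, hy⟩, rfl⟩ := (SS.F R Y).cls_surjective n z
    rw [Hom.mapH_cls, CosMod.cls_eq_zero_iff] at hz
    rw [CosMod.cls_eq_zero_iff]
    exact h1 n hn y hy hz
  · intro z
    obtain ⟨⟨c, hc⟩, rfl⟩ := (SS.F R X).cls_surjective n z
    obtain ⟨y, hy, h⟩ := h2 n hn c hc
    refine ⟨(SS.F R Y).cls n ⟨y, hy⟩, ?_⟩
    rw [Hom.mapH_cls]
    exact (CosMod.cls_eq_iff.2 h).symm

theorem IsoUpTo.id (X : SS) : IsoUpTo R D (SS.Map.id X) := by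
  refine ⟨fun n _ => ?_, fun n _ => ?_⟩
  · rw [SS.Map.pull_id]
    intro x y h
    simpa using h
  · rw [SS.Map.pull_id]
    intro x
    exact ⟨x, Hom.mapH_id _ _⟩

theorem IsoUpTo.comp {X Y V : SS} {g : SS.Map Y V} {f : SS.Map X Y} (hg : IsoUpTo R D g)
    (hf : IsoUpTo R D f) : IsoUpTo R D (g.comp f) := by
  refine ⟨fun n hn => ?_, fun n hn => ?_⟩
  · rw [SS.Map.pull_comp]
    intro x y h
    rw [Hom.mapH_comp, Hom.mapH_comp] at h
    exact hg.1 n hn (hf.1 n hn h)
  · intro x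
    obtain ⟨y, rfl⟩ := hf.2 n hn x
    obtain ⟨z, rfl⟩ := hg.2 n hn y
    exact ⟨z, by rw [SS.Map.pull_comp, Hom.mapH_comp]⟩

theorem IsoUpTo.mono {X Y : SS} {f : SS.Map X Y} (hf : IsoUpTo R D f) {D' : ℕ} (h : D' ≤ D) :
    IsoUpTo R D' f :=
  ⟨fun n hn => hf.1 n (hn.trans h), fun n hn => hf.2 n (lt_of_lt_of_le hn h)⟩

/-- the inclusion opposite to an isomorphism in the range is one -/
theorem Glue.Glued.isoUpTo {X Y C V : SS} {b : Bool} {f : SS.Map C X} {g : SS.Map C Y}
    {i : SS.Map X V} {j : SS.Map Y V} {k : SS.Map (C.prod JJ) V} (H : Glue.Glued R b f g i j k)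
    (hg : IsoUpTo R D g) : IsoUpTo R D i := by
  classical
  have ext0 : ∀ {n : ℕ} (x : (SS.F R X).obj n), ∃ w : (SS.F R V).obj n, ∀ a, w (i.app a) = x a := by
    intro n x
    obtain ⟨w, w1, -, -⟩ := H.ex (p := n) x (fun _ => 0)
      (fun a => if a.2 = fun _ => b then x (f.app a.1) else 0) (fun c => if_pos rfl)
      (fun c => if_neg (by
        intro h
        have := congrFun h 0
        cases b <;> exact Bool.noConfusion this))
    exact ⟨w, w1⟩
  refine IsoUpTo.of_elem (fun n hn w hw hx => ?_) (fun n hn x hx => ?_)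
  · cases n with
    | zero =>
      rw [CosMod.mem_Bd_zero] at hx ⊢
      refine rel_zero H (fun y hy h => ?_) w hw (fun x => congrFun hx x)
      have := hg.inj hn y hy (CosMod.mem_Bd_zero.2 h)
      exact CosMod.mem_Bd_zero.1 this
    | succ n =>
      obtain ⟨x', hx'⟩ := CosMod.mem_Bd_succ.1 hx
      obtain ⟨w0, hw0⟩ := ext0 x'
      obtain ⟨w', h1, -⟩ := rel_succ H (fun y hy h => hg.inj hn y hy h)
        (fun c hc => hg.surj hn c hc) (w - (SS.F R V).d n w0)
        (by rw [map_sub, hw, CosMod.d_d, sub_zero]) (fun x => by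
          show w (i.app x) - (SS.F R V).d n w0 (i.app x) = 0
          rw [pull_d' _ _ _ hw0, hx']
          exact sub_self _)
      exact CosMod.mem_Bd_succ.2 ⟨w' + w0, by rw [map_add, h1, sub_add_cancel]⟩
  · obtain ⟨w0, hw0⟩ := ext0 x
    obtain ⟨w', h1, h2⟩ := rel_succ H (fun y hy h => hg.inj hn y hy h)
        (fun c hc => hg.surj hn c hc) ((SS.F R V).d n w0) (CosMod.d_d _ _ _) (fun a => by
          rw [pull_d' _ _ _ hw0, hx]
          rfl)
    refine ⟨w0 - w', by rw [map_sub, h1, sub_self], ?_⟩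
    rw [show x - (i.pull (R := R)).app n (w0 - w') = 0 from ?_]
    · exact zero_mem _
    · funext a
      show x a - (w0 (i.app a) - w' (i.app a)) = 0
      rw [hw0, h2, sub_zero, sub_self]

theorem isoUpTo_inX {X Y C : SS} (f : SS.Map C X) {g : SS.Map C Y} (hg : IsoUpTo R D g) :
    IsoUpTo R D (Glue.inX f g) := (Glue.glued f g R).isoUpTo hg

theorem isoUpTo_inY {X Y C : SS} {f : SS.Map C X} (g : SS.Map C Y) (hf : IsoUpTo R D f) :
    IsoUpTo R D (Glue.inY f g) := (Glue.glued f g R).swap.isoUpTo hf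

variable (R D)

/-- `A` and `B` are connected by a zigzag of isomorphisms in the range (equivalently: by a
cospan of such). -/
def Conn (A B : SS) : Prop :=
  ∃ (Z : SS) (a : SS.Map A Z) (b : SS.Map B Z), IsoUpTo R D a ∧ IsoUpTo R D b

variable {R D}

theorem Conn.refl (A : SS) : Conn R D A A := ⟨A, SS.Map.id A, SS.Map.id A, .id A, .id A⟩

theorem Conn.symm {A B : SS} (h : Conn R D A B) : Conn R D B A := by
  obtain ⟨Z, a, b, ha, hb⟩ := h
  exact ⟨Z, b, a, hb, ha⟩

theorem Conn.of_map {A B : SS} (f : SS.Map A B) (hf : IsoUpTo R D f) : Conn R D A B :=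
  ⟨B, f, SS.Map.id B, hf, .id B⟩

theorem Conn.trans {A B C : SS} (h : Conn R D A B) (h' : Conn R D B C) : Conn R D A C := by
  obtain ⟨Z, a, b, ha, hb⟩ := h
  obtain ⟨Z', b', c, hb', hc⟩ := h'
  exact ⟨Glue.W b b', (Glue.inX b b').comp a, (Glue.inY b b').comp c,
    (isoUpTo_inX b hb').comp ha, (isoUpTo_inY b' hb).comp hc⟩

theorem Conn.mono {A B : SS} (h : Conn R D A B) {D' : ℕ} (hD : D' ≤ D) : Conn R D' A B := by
  obtain ⟨Z, a, b, ha, hb⟩ := h
  exact ⟨Z, a, b, ha.mono hD, hb.mono hD⟩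

end range

end Vale.Agent.P263.G
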