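import Vale.Agent.P263.G.Model

/-! # P263, part G: freeness of the Barratt-Eccles monoid, its group completion

* `B q` : the indecomposable elements of `M q`; `freeEquiv : FreeMonoid (B q) ≃* M q`;
* `UM q` : the free group on `B q`, the group completion of `M q`, with `ι : M q →* UM q`
  (injective) and its universal property `liftU`, `hom_ext`; simplicial operators `UM.map`;
* `dg : UM q → ℤ` : the degree;
* `MInf q : Set (UM q)` : the union of the `τ⁻ⁿ M q`.
-/

namespace Vale.Agent.P263.G

variable {p q r : ℕ}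

/-- indecomposable elements -/
def Ind (F : M q) : Prop := F ≠ 1 ∧ ∀ G H : M q, F = G * H → G = 1 ∨ H = 1

/-- the indecomposable elements of `M q` -/
abbrev B (q : ℕ) := {F : M q // Ind F}

theorem Ind.deg_pos {F : M q} (h : Ind F) : 0 < F.deg := by
  rcases Nat.eq_zero_or_pos F.deg with h0 | h0
  · exact absurd (M.deg_eq_zero.1 h0) h.1
  · exact h0

/-- the homomorphism from the free monoid -/
def toM : FreeMonoid (B q) →* M q := FreeMonoid.lift Subtype.val

@[simp] theorem toM_of (b : B q) : toM (FreeMonoid.of b) = b.1 := rfl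

theorem toM_surjective : Function.Surjective (toM : FreeMonoid (B q) → M q) := by
  intro F
  induction hn : F.deg using Nat.strong_induction_on generalizing F with
  | _ n ih =>
    by_cases h1 : F = 1
    · exact ⟨1, by rw [h1, map_one]⟩
    by_cases hI : Ind F
    · exact ⟨FreeMonoid.of ⟨F, hI⟩, rfl⟩
    · have : ∃ G H : M q, F = G * H ∧ G ≠ 1 ∧ H ≠ 1 := by
        by_contra hc
        apply hI
        refine ⟨h1, fun G H hGH => ?_⟩
        by_contra hc'
        rw [not_or] at hc'
        exact hc ⟨G, H, hGH, hc'.1, hc'.2⟩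
      obtain ⟨G, H, rfl, hG, hH⟩ := this
      have hG' : G.deg ≠ 0 := fun h => hG (M.deg_eq_zero.1 h)
      have hH' : H.deg ≠ 0 := fun h => hH (M.deg_eq_zero.1 h)
      rw [M.deg_mul] at hn
      obtain ⟨l, hl⟩ := ih G.deg (by omega) G rfl
      obtain ⟨l', hl'⟩ := ih H.deg (by omega) H rfl
      exact ⟨l * l', by rw [map_mul, hl, hl']⟩

theorem cancel_aux {b b' : B q} {X X' : M q} (h : b.1 * X = b'.1 * X')
    (hd : b.1.deg ≤ b'.1.deg) : b = b' ∧ X = X' := by
  obtain ⟨u, h1, h2⟩ := M.levi h hd
  rcases b'.2.2 _ _ h1 with h3 | h3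
  · exact absurd h3 b.2.1
  · subst h3
    rw [mul_one] at h1
    rw [one_mul] at h2
    exact ⟨Subtype.ext h1.symm, h2⟩

theorem toM_injective : Function.Injective (toM : FreeMonoid (B q) → M q) := by
  intro l
  induction l using FreeMonoid.inductionOn' with
  | one =>
    intro l' h
    cases l' using FreeMonoid.casesOn with
    | one => rfl
    | of_mul b xs =>
      exfalso
      rw [map_one, map_mul, toM_of] at h
      have := congrArg M.deg h
      rw [M.deg_mul, M.deg_one] at this
      have := b.2.deg_pos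
      omega
  | of_mul b xs ih =>
    intro l' h
    cases l' using FreeMonoid.casesOn with
    | one =>
      exfalso
      rw [map_one, map_mul, toM_of] at h
      have := congrArg M.deg h
      rw [M.deg_mul, M.deg_one] at this
      have := b.2.deg_pos
      omega
    | of_mul b' xs' =>
      rw [map_mul, map_mul, toM_of, toM_of] at h
      rcases le_total b.1.deg b'.1.deg with hd | hd
      · obtain ⟨rfl, h2⟩ := cancel_aux h hd
        rw [ih h2]
      · obtain ⟨rfl, h2⟩ := cancel_aux h.symm hd
        rw [ih h2.symm]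

/-- `M q` is free on its indecomposable elements -/
noncomputable def freeEquiv (q : ℕ) : FreeMonoid (B q) ≃* M q :=
  MulEquiv.ofBijective toM ⟨toM_injective, toM_surjective⟩

@[simp] theorem freeEquiv_apply (l : FreeMonoid (B q)) : freeEquiv q l = toM l := rfl

@[simp] theorem freeEquiv_symm_coe (b : B q) : (freeEquiv q).symm b.1 = FreeMonoid.of b := by
  rw [MulEquiv.symm_apply_eq]; rfl

/-- induction on elements of `M q` -/
theorem M.ind_on {P : M q → Prop} (F : M q) (one : P 1) (mul : ∀ (b : B q) F, P F → P (b.1 * F)) :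
    P F := by
  obtain ⟨l, rfl⟩ := toM_surjective F
  induction l using FreeMonoid.inductionOn' with
  | one => rw [_root_.map_one]; exact one
  | of_mul b xs ih => rw [_root_.map_mul]; exact mul b _ ih

theorem M.hom_ext {N : Type*} [Monoid N] {f g : M q →* N} (h : ∀ b : B q, f b.1 = g b.1) :
    f = g := by
  ext F
  induction F using M.ind_on with
  | one => rw [_root_.map_one, _root_.map_one]
  | mul b F ih => rw [_root_.map_mul, _root_.map_mul, h, ih]

/-! ### degeneracies and the bottom degree -/

/-- if `θ` has a section then `θ^*` preserves indecomposable elements -/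
theorem Ind.map {F : M q} (h : Ind F) {θ : Fin (p + 1) → Fin (q + 1)}
    {s : Fin (q + 1) → Fin (p + 1)} (hs : θ ∘ s = id) : Ind (F.map θ) := by
  refine ⟨fun h1 => h.1 ?_, fun G H hGH => ?_⟩
  · rw [← M.deg_eq_zero] at h1 ⊢
    rw [← h1, M.deg_map]
  · have e := congrArg (M.map s) hGH
    rw [M.map_map, hs, M.map_id, M.map_mul] at e
    rcases h.2 _ _ e with h2 | h2
    · left; rw [← M.deg_eq_zero] at h2 ⊢; rw [← h2, M.deg_map]
    · right; rw [← M.deg_eq_zero] at h2 ⊢; rw [← h2, M.deg_map]

/-- degeneracies of indecomposable elements -/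
def B.map (b : B q) (θ : Fin (p + 1) → Fin (q + 1)) {s : Fin (q + 1) → Fin (p + 1)}
    (hs : θ ∘ s = id) : B p := ⟨b.1.map θ, b.2.map hs⟩

theorem ind_of_deg_one {F : M q} (h : F.deg = 1) : Ind F := by
  refine ⟨fun h1 => ?_, fun G H hGH => ?_⟩
  · rw [h1, M.deg_one] at h; omega
  · rw [hGH, M.deg_mul] at h
    rcases Nat.eq_zero_or_pos G.deg with h0 | h0
    · left; exact M.deg_eq_zero.1 h0
    · right; exact M.deg_eq_zero.1 (by omega)

/-- the one point set as an indecomposable element -/
def tauB (q : ℕ) : B q := ⟨M.tau q, ind_of_deg_one (M.deg_tau)⟩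

@[simp] theorem tauB_val (q : ℕ) : (tauB q).1 = M.tau q := rfl

theorem eq_tau_of_deg_one {F : M q} (h : F.deg = 1) : F = M.tau q := by
  have h0 : ∀ x ∈ F.pts, x = 0 := by
    intro x hx
    funext i
    have := F.lt_deg hx i
    rw [h] at this
    simpa using this
  apply M.ext
  apply Finset.eq_of_subset_of_card_le
  · intro x hx
    rw [h0 x hx]
    simp
  · have : F.pts.card = 1 := h
    rw [this]
    simp

theorem B_zero (b : B 0) : b = tauB 0 := by
  apply Subtype.ext
  have h := b.2
  have hp := h.deg_pos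
  rw [M.eq_tau_pow b.1] at h
  obtain ⟨n, hn⟩ : ∃ n, b.1.deg = n + 1 := ⟨b.1.deg - 1, by omega⟩
  rw [hn] at h
  rcases h.2 (M.tau 0 ^ n) (M.tau 0) (pow_succ _ _) with h1 | h1
  · rw [M.eq_tau_pow b.1, hn, pow_succ, h1, one_mul]
    rfl
  · exfalso
    have := congrArg M.deg h1
    simp at this

instance : Unique (B 0) := ⟨⟨tauB 0⟩, B_zero⟩

/-! ### the group completion -/

/-- the group completion of `M q` -/
abbrev UM (q : ℕ) := FreeGroup (B q)

/-- the canonical homomorphism to the group completion -/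
noncomputable def ι : M q →* UM q :=
  (FreeMonoid.lift FreeGroup.of).comp (freeEquiv q).symm.toMonoidHom

@[simp] theorem ι_coe (b : B q) : ι b.1 = FreeGroup.of b := by
  simp only [ι, MonoidHom.comp_apply, MulEquiv.toMonoidHom_eq_coe, MonoidHom.coe_coe,
    freeEquiv_symm_coe, FreeMonoid.lift_eval_of]

@[simp] theorem ι_tau : (ι (M.tau q) : UM q) = FreeGroup.of (tauB q) := ι_coe (tauB q)

theorem lift_of_eq_mk {α : Type*} (l : FreeMonoid α) :
    FreeMonoid.lift (FreeGroup.of : α → FreeGroup α) l =
      FreeGroup.mk (l.toList.map (fun a => (a, true))) := by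
  induction l using FreeMonoid.inductionOn' with
  | one => rfl
  | of_mul a l ih => rw [map_mul, ih, FreeMonoid.lift_eval_of]; rfl

theorem lift_of_injective {α : Type*} :
    Function.Injective (FreeMonoid.lift (FreeGroup.of : α → FreeGroup α)) := by
  classical
  intro l l' h
  rw [lift_of_eq_mk, lift_of_eq_mk] at h
  have hr : ∀ l : List α, FreeGroup.IsReduced (l.map (fun a => (a, true))) := by
    intro l
    apply FreeGroup.IsReduced.of_reduce_eq
    induction l with
    | nil => rfl
    | cons a l ih =>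
      rw [List.map_cons, FreeGroup.reduce.cons, ih]
      cases l with
      | nil => rfl
      | cons b l => simp
  have h1 := FreeGroup.reduce.sound h
  rw [(hr _).reduce_eq, (hr _).reduce_eq] at h1
  have h2 : l.toList = l'.toList := by
    have inj : Function.Injective (fun a : α => (a, true)) := fun a b hab => (Prod.mk.inj hab).1
    exact (List.map_injective_iff.2 inj) h1
  exact FreeMonoid.toList.injective h2

theorem ι_injective : Function.Injective (ι : M q → UM q) := by
  intro F G h
  exact (freeEquiv q).symm.injective (lift_of_injective h)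

section lift

variable {G : Type*} [Group G]

/-- the universal property of the group completion -/
noncomputable def liftU (f : M q →* G) : UM q →* G := FreeGroup.lift (fun b => f b.1)

@[simp] theorem liftU_ι (f : M q →* G) (F : M q) : liftU f (ι F) = f F := by
  have : (liftU f).comp ι = f := by
    apply M.hom_ext
    intro b
    simp [liftU]
  exact DFunLike.congr_fun this F

theorem UM.hom_ext {f g : UM q →* G} (h : ∀ F : M q, f (ι F) = g (ι F)) : f = g := by
  apply FreeGroup.ext_hom
  intro b
  have := h b.1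
  rwa [ι_coe] at this

end lift

namespace UM

/-- the simplicial operators of the group completion -/
noncomputable def map (θ : Fin (p + 1) → Fin (q + 1)) : UM q →* UM p :=
  liftU (ι.comp (M.mapHom θ))

@[simp] theorem map_ι (θ : Fin (p + 1) → Fin (q + 1)) (F : M q) :
    map θ (ι F) = ι (F.map θ) := by
  rw [map, liftU_ι]; rfl

theorem map_of (θ : Fin (p + 1) → Fin (q + 1)) (b : B q) :
    map θ (FreeGroup.of b) = ι (b.1.map θ) := by
  rw [← ι_coe, map_ι]

@[simp] theorem map_id (g : UM q) : map (id : Fin (q + 1) → Fin (q + 1)) g = g := by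
  have : map (id : Fin (q + 1) → Fin (q + 1)) = MonoidHom.id (UM q) := by
    apply UM.hom_ext
    intro F
    simp
  rw [this]; rfl

theorem map_map (θ : Fin (p + 1) → Fin (q + 1)) (η : Fin (r + 1) → Fin (p + 1)) (g : UM q) :
    map η (map θ g) = map (θ ∘ η) g := by
  have : (map η).comp (map θ) = map (θ ∘ η) := by
    apply UM.hom_ext
    intro F
    simp [M.map_map]
  exact DFunLike.congr_fun this g

/-- the degree -/
noncomputable def degHom : UM q →* Multiplicative ℤ :=
  liftU { toFun := fun F => Multiplicative.ofAdd (F.deg : ℤ)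
          map_one' := by simp
          map_mul' := fun F G => by rw [M.deg_mul, Nat.cast_add]; rfl }

/-- the degree -/
noncomputable def dg (g : UM q) : ℤ := Multiplicative.toAdd (degHom g)

@[simp] theorem dg_one : dg (1 : UM q) = 0 := by simp [dg]

@[simp] theorem dg_mul (g h : UM q) : dg (g * h) = dg g + dg h := by simp [dg]

@[simp] theorem dg_inv (g : UM q) : dg g⁻¹ = - dg g := by simp [dg]

@[simp] theorem dg_ι (F : M q) : dg (ι F) = F.deg := by
  rw [dg, degHom, liftU_ι]; rfl

@[simp] theorem dg_map (θ : Fin (p + 1) → Fin (q + 1)) (g : UM q) : dg (map θ g) = dg g := by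
  have : (degHom : UM p →* Multiplicative ℤ).comp (map θ) = degHom := by
    apply UM.hom_ext
    intro F
    apply Multiplicative.toAdd.injective
    change dg (map θ (ι F)) = dg (ι F)
    rw [map_ι, dg_ι, dg_ι, M.deg_map]
  exact congrArg Multiplicative.toAdd (DFunLike.congr_fun this g)

end UM

/-! ### the telescope -/

/-- the vertex `τ` of `UM` -/
noncomputable def t (q : ℕ) : UM q := ι (M.tau q)

theorem t_eq (q : ℕ) : t q = FreeGroup.of (tauB q) := ι_tau

@[simp] theorem map_t (θ : Fin (p + 1) → Fin (q + 1)) : UM.map θ (t q) = t p := by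
  rw [t, UM.map_ι, M.map_tau]; rfl

@[simp] theorem dg_t : UM.dg (t q) = 1 := by rw [t, UM.dg_ι]; rfl

/-- the union of the `τ⁻ⁿ M q` -/
def MInf (q : ℕ) : Set (UM q) := {g | ∃ (n : ℕ) (F : M q), t q ^ n * g = ι F}

theorem ι_mem_MInf (F : M q) : ι F ∈ MInf q := ⟨0, F, by simp⟩

theorem MInf.mul {g : UM q} (hg : g ∈ MInf q) (F : M q) : g * ι F ∈ MInf q := by
  obtain ⟨n, G, h⟩ := hg
  exact ⟨n, G * F, by rw [← mul_assoc, h, map_mul]⟩

theorem MInf.mul_of {g : UM q} (hg : g ∈ MInf q) (b : B q) : g * FreeGroup.of b ∈ MInf q := by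
  rw [← ι_coe]; exact MInf.mul hg b.1

theorem MInf.t_mul {g : UM q} (hg : g ∈ MInf q) : t q * g ∈ MInf q := by
  obtain ⟨n, G, h⟩ := hg
  refine ⟨n, M.tau q * G, ?_⟩
  rw [map_mul, ← h, ← mul_assoc, ← mul_assoc]
  congr 1
  change t q ^ n * t q = t q * t q ^ n
  rw [← pow_succ, ← pow_succ']

theorem MInf.t_inv_mul {g : UM q} (hg : g ∈ MInf q) : (t q)⁻¹ * g ∈ MInf q := by
  obtain ⟨n, G, h⟩ := hg
  refine ⟨n + 1, G, ?_⟩
  rw [pow_succ, ← h]
  group

theorem MInf.map {g : UM q} (hg : g ∈ MInf q) (θ : Fin (p + 1) → Fin (q + 1)) :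
    UM.map θ g ∈ MInf p := by
  obtain ⟨n, G, h⟩ := hg
  refine ⟨n, G.map θ, ?_⟩
  rw [← UM.map_ι, ← h, _root_.map_mul, _root_.map_pow, map_t]

theorem mem_MInf_iff {g : UM q} : g ∈ MInf q ↔ ∃ (n : ℕ) (F : M q), g = (t q)⁻¹ ^ n * ι F := by
  constructor
  · rintro ⟨n, F, h⟩
    refine ⟨n, F, ?_⟩
    rw [← h, inv_pow]
    group
  · rintro ⟨n, F, h⟩
    refine ⟨n, F, ?_⟩
    rw [h, inv_pow]
    group

theorem MInf_zero : MInf 0 = Set.univ := by
  rw [Set.eq_univ_iff_forall]
  intro g
  have key : ∀ g : UM 0, ∃ n : ℤ, g = t 0 ^ n := by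
    intro g
    induction g using FreeGroup.induction_on with
    | C1 => exact ⟨0, by simp⟩
    | of b => exact ⟨1, by rw [t_eq, B_zero b]; simp⟩
    | inv_of b _ => exact ⟨-1, by rw [t_eq, B_zero b]; simp⟩
    | mul x y hx hy =>
      obtain ⟨m, hm⟩ := hx
      obtain ⟨n, hn⟩ := hy
      exact ⟨m + n, by rw [hm, hn, zpow_add]⟩
  obtain ⟨n, rfl⟩ := key g
  refine ⟨n.natAbs, M.tau 0 ^ (n.natAbs + n).toNat, ?_⟩
  rw [map_pow]
  change t 0 ^ n.natAbs * t 0 ^ n = t 0 ^ (n.natAbs + n).toNat
  rw [← zpow_natCast, ← zpow_add, ← zpow_natCast]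
  congr 1
  have : 0 ≤ (n.natAbs : ℤ) + n := by omega
  rw [Int.toNat_of_nonneg this]

end Vale.Agent.P263.G
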