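import Vale.Agent.P263.G.Bar
import Vale.Agent.P263.G.Zig
import Vale.Agent.P263.GC.Range
import Vale.Agent.P263.G2.Chains
import Vale.Agent.P263.TOP.H.Model

/-!
# P263: orbit spaces of free acyclic simplicial sets

* `HIso.of_acyc` : a map of acyclic simplicial sets is a homology isomorphism.
* `ES S` : the simplicial set with `q`-simplices `Fin (q + 1) → S`; it is acyclic.
* `FreeQ.induce` : the map of orbit spaces of an equivariant map.
* `FreeQ.exists_toES` : an equivariant map `W → ES S`.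
* `freeGam N : FreeQ (Perm (Fin N)) (ES (Fin N ↪ ℕ)) (Gam N)`.
* `freeM N : FreeQ (Perm (Fin N)) (ES (Perm (Fin N))) (MN N)`, `MN N` = the part of degree `N` of
  the simplicial monoid `M` (`GC.MN`).
* `conn_gam` : the orbit space of a free acyclic `Perm (Fin N)`-simplicial set is connected with
  `Gam N` by cohomology isomorphisms in all degrees.
-/

namespace Vale.Agent.P263.G

open Vale.Agent.P263.S Vale.Agent.P263.E Vale.Agent.P263.G2
open Vale.Agent.P263.GC (MN)

section acyc

variable {k : Type} [CommRing k]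

theorem bd_eq_cb (X : SS) (n : ℕ) : bd k X n = cb k X n := rfl

theorem chm_eq_push {X Y : SS} (f : SS.Map X Y) (n : ℕ) : chm k f n = push k f n := rfl

/-- A map of acyclic simplicial sets is a homology isomorphism. -/
theorem HIso.of_acyc {X Y : SS} (f : SS.Map X Y) {N : ℕ} (x0 : X.obj 0)
    (hX : ∀ p ≤ N, Acyc k X p) (hY : ∀ p ≤ N + 1, Acyc k Y p) : HIso k f N where
  surj_zero y := by
    obtain ⟨z, hz⟩ := hY 0 (Nat.zero_le _) (y - chm k f 0 (Finsupp.single x0 (aug k Y 0 y)))
      (isCyc_zero _) (fun _ => by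
        rw [map_sub, chm_single, aug_single, sub_self])
    refine ⟨Finsupp.single x0 (aug k Y 0 y), z, ?_⟩
    rw [bd_eq_cb, hz]
    abel
  surj n hn y hy := by
    obtain ⟨z, hz⟩ := hY (n + 1) (by omega) y hy (fun h => absurd h (Nat.succ_ne_zero n))
    exact ⟨0, z, map_zero _, by rw [map_zero, zero_add]; exact hz⟩
  inj_zero x y h := by
    refine hX 0 (Nat.zero_le _) x (isCyc_zero _) fun _ => ?_
    rw [← aug_push f, ← chm_eq_push, ← h]
    exact aug_cb y
  inj n hn x y hx _ := hX (n + 1) (by omega) x hx (fun h => absurd h (Nat.succ_ne_zero n))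

theorem ConeContr.isoUpTo {X Y : SS} {f : SS.Map X Y} {N : ℕ} (c : ConeContr k f N) :
    IsoUpTo k (N + 1) f :=
  ⟨fun _ hn => c.mapH_injective hn, fun _ hn => (c.mapH_bijective (Nat.lt_succ_iff.1 hn)).2⟩

end acyc

/-! ### The simplicial sets `ES S` -/

/-- The contractible simplicial set on `S`. -/
def ES (S : Type) : SS where
  obj q := Fin (q + 1) → S
  map f e := e ∘ f
  map_id _ := rfl
  map_comp _ _ _ := rfl

@[simp] theorem ES_map {S : Type} {p q : ℕ} (f : Op p q) (e : (ES S).obj q) (i : Fin (p + 1)) :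
    (ES S).map f e i = e (f i) := rfl

/-- the contraction of `ES S` to `s` -/
def ESHtp {S : Type} (s : S) : SS.Htp (ES S) (ES S) where
  h _ χ e := fun i => if χ i = 1 then e i else s
  nat _ _ _ := rfl

theorem ES_acyc {k : Type} [CommRing k] {S : Type} (s : S) (p : ℕ) : Acyc k (ES S) p := by
  intro z hz ha
  have := isBd_of_null (SS.Map.id (ES S)) (ESHtp s) (fun _ => s) ?_ ?_ hz ha
  · rwa [push_id] at this
  · apply SS.Map.ext
    intro p e
    funext i
    exact (if_pos (c1_val p i) : (if (c1 p) i = 1 then e i else s) = e i)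
  · apply SS.Map.ext
    intro p e
    funext i
    refine if_neg fun h => ?_
    have := (c0_val p i).symm.trans h
    exact absurd this (by decide)

/-! ### Equivariant maps -/

namespace FreeQ

variable {G : Type} [Group G] {W B W' B' : SS}

/-- the map of orbit spaces of an equivariant map -/
noncomputable def induce (Q : FreeQ G W B) (Q' : FreeQ G W' B') (f : SS.Map W W')
    (hf : ∀ {n : ℕ} (g : G) (w : W.obj n), f.app (Q.act g w) = Q'.act g (f.app w)) :
    SS.Map B B' where
  app {n} b := Q'.p.app (f.app (Q.surj n b).choose)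
  nat {p q} a b := by
    have h1 := (Q.surj q b).choose_spec
    have h2 := (Q.surj p (B.map a b)).choose_spec
    obtain ⟨g, hg⟩ := Q.orbit (Q.surj p (B.map a b)).choose (W.map a (Q.surj q b).choose) (by
      rw [h2, Q.p.nat, h1])
    rw [← Q'.p.nat, ← f.nat, ← hg, hf, Q'.p_act]

theorem induce_p (Q : FreeQ G W B) (Q' : FreeQ G W' B') (f : SS.Map W W')
    (hf : ∀ {n : ℕ} (g : G) (w : W.obj n), f.app (Q.act g w) = Q'.act g (f.app w)) {n : ℕ}
    (w : W.obj n) : (Q.induce Q' f hf).app (Q.p.app w) = Q'.p.app (f.app w) := by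
  have h1 := (Q.surj n (Q.p.app w)).choose_spec
  obtain ⟨g, hg⟩ := Q.orbit _ _ h1
  change Q'.p.app (f.app (Q.surj n (Q.p.app w)).choose) = _
  rw [← hg, hf, Q'.p_act]
  rw [hg]

/-- the vertices of a simplex -/
def vtx (W : SS) {n : ℕ} (w : W.obj n) (i : Fin (n + 1)) : W.obj 0 :=
  W.map ⟨fun _ => i, fun _ _ _ => le_rfl⟩ w

theorem vtx_map {m n : ℕ} (a : Op m n) (w : W.obj n) (i : Fin (m + 1)) :
    vtx W (W.map a w) i = vtx W w (a i) := by
  rw [vtx, ← W.map_comp]
  rfl

/-- An equivariant map from a free simplicial set to `ES S`. -/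
theorem exists_toES (Q : FreeQ G W B) {S : Type} (a : G → S → S) (s : S)
    (ham : ∀ g h s, a (g * h) s = a g (a h s)) :
    ∃ f : SS.Map W (ES S), ∀ {n : ℕ} (g : G) (w : W.obj n) (i : Fin (n + 1)),
      f.app (Q.act g w) i = a g (f.app w i) := by
  classical
  choose σ hσ using Q.surj 0
  have hγ : ∀ w : W.obj 0, ∃ g, Q.act g (σ (Q.p.app w)) = w := fun w => Q.orbit _ _ (hσ _)
  choose γ hγ using hγ
  have hγ' : ∀ g w, γ (Q.act g w) = g * γ w := by
    intro g w
    have h1 : Q.act (γ (Q.act g w)) (σ (Q.p.app w)) = Q.act (g * γ w) (σ (Q.p.app w)) := by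
      rw [Q.mul_act, hγ w]
      conv_rhs => rw [← hγ (Q.act g w)]
      rw [Q.p_act]
    have h2 := Q.free ((γ (Q.act g w))⁻¹ * (g * γ w)) (σ (Q.p.app w)) (by
      rw [Q.mul_act, ← h1, ← Q.mul_act, inv_mul_cancel, Q.one_act])
    exact inv_mul_eq_one.1 h2
  refine ⟨⟨fun w i => a (γ (vtx W w i)) s, fun b w => ?_⟩, fun g w i => ?_⟩
  · funext i
    change a (γ (vtx W (W.map b w) i)) s = a (γ (vtx W w (b i))) s
    rw [vtx_map]
  · change a (γ (vtx W (Q.act g w) i)) s = a g (a (γ (vtx W w i)) s)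
    rw [vtx, Q.map_act, hγ', ham]
    rfl

/-- Two free acyclic simplicial `G`-sets, the second one of the form `ES S`, have orbit spaces which
are related by a map with contractible cone. -/
theorem exists_coneContr {k : Type} [CommRing k] (Q : FreeQ G W B) {S : Type}
    (Q' : FreeQ G (ES S) B') (a : G → S → S) (s : S)
    (ham : ∀ g h s, a (g * h) s = a g (a h s))
    (hQ' : ∀ {n : ℕ} (g : G) (e : (ES S).obj n), Q'.act g e = fun i => a g (e i))
    (w0 : W.obj 0) {N : ℕ} (hW : ∀ p ≤ N, Acyc k W p) :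
    ∃ f : SS.Map B B', Nonempty (ConeContr k f N) := by
  obtain ⟨f, hf⟩ := Q.exists_toES a s ham
  have hf' : ∀ {n : ℕ} (g : G) (w : W.obj n), f.app (Q.act g w) = Q'.act g (f.app w) := by
    intro n g w
    rw [hQ']
    funext i
    exact hf g w i
  exact ⟨Q.induce Q' f hf', coneContr_quot Q Q' f _ hf' (fun w => induce_p Q Q' f hf' w)
    (HIso.of_acyc f w0 hW fun p _ => ES_acyc s p)⟩

end FreeQ

/-! ### Multi-labelled sets -/

section gam

open Vale.Agent.P263.TOP.H Equiv

/-- the action of the permutations on injections -/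
def aE (N : ℕ) (g : Perm (Fin N)) (e : Fin N ↪ ℕ) : Fin N ↪ ℕ := g⁻¹.toEmbedding.trans e

@[simp] theorem aE_apply (N : ℕ) (g : Perm (Fin N)) (e : Fin N ↪ ℕ) (x : Fin N) :
    aE N g e x = e (g⁻¹ x) := rfl

theorem aE_mul (N : ℕ) (g h : Perm (Fin N)) (e : Fin N ↪ ℕ) : aE N (g * h) e = aE N g (aE N h e) := by
  ext x
  simp

/-- the set of label vectors of a family of injections -/
def vec {N q : ℕ} (e : Fin (q + 1) → (Fin N ↪ ℕ)) (x : Fin N) : Lab q := fun i => e i x

theorem vec_injective {N q : ℕ} (e : Fin (q + 1) → (Fin N ↪ ℕ)) : Function.Injective (vec e) := by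
  intro x y h
  exact (e 0).injective (congrFun h 0)

/-- the configuration of a family of injections -/
def toF {N q : ℕ} (e : Fin (q + 1) → (Fin N ↪ ℕ)) : Finset (Lab q) :=
  Finset.univ.map ⟨vec e, vec_injective e⟩

theorem mem_toF {N q : ℕ} {e : Fin (q + 1) → (Fin N ↪ ℕ)} {t : Lab q} :
    t ∈ toF e ↔ ∃ x, vec e x = t := by
  simp [toF]

theorem card_toF {N q : ℕ} (e : Fin (q + 1) → (Fin N ↪ ℕ)) : (toF e).card = N := by
  simp [toF]

theorem good_toF {N q : ℕ} (e : Fin (q + 1) → (Fin N ↪ ℕ)) : Good (toF e) := by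
  intro i s hs t ht h
  rw [Finset.mem_coe, mem_toF] at hs ht
  obtain ⟨x, rfl⟩ := hs
  obtain ⟨y, rfl⟩ := ht
  have : x = y := (e i).injective h
  rw [this]

theorem exists_toF {N q : ℕ} {F : Finset (Lab q)} (hF : Good F) (hN : F.card = N) :
    ∃ e : Fin (q + 1) → (Fin N ↪ ℕ), toF e = F := by
  let σ : Fin N ≃ F := (F.equivFinOfCardEq hN).symm
  refine ⟨fun i => ⟨fun x => (σ x).1 i, ?_⟩, ?_⟩
  · intro x y h
    exact σ.injective (Subtype.ext (hF i (σ x).2 (σ y).2 h))
  · ext t
    rw [mem_toF]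
    constructor
    · rintro ⟨x, rfl⟩
      exact (σ x).2
    · intro ht
      exact ⟨σ.symm ⟨t, ht⟩, by
        funext i
        change (σ (σ.symm ⟨t, ht⟩)).1 i = t i
        rw [Equiv.apply_symm_apply]⟩

theorem toF_orbit {N q : ℕ} {e e' : Fin (q + 1) → (Fin N ↪ ℕ)} (h : toF e = toF e') :
    ∃ g : Perm (Fin N), (fun i => aE N g (e i)) = e' := by
  have h1 : ∀ x, ∃ y, vec e y = vec e' x := by
    intro x
    have : vec e' x ∈ toF e := by rw [h]; exact mem_toF.2 ⟨x, rfl⟩
    exact mem_toF.1 this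
  choose f hf using h1
  have hinj : Function.Injective f := by
    intro x y hxy
    apply vec_injective e'
    rw [← hf, ← hf, hxy]
  let g := Equiv.ofBijective f (Finite.injective_iff_bijective.1 hinj)
  refine ⟨g⁻¹, ?_⟩
  funext i
  ext x
  rw [aE_apply, inv_inv]
  exact congrFun (hf x) i

theorem toF_aE {N q : ℕ} (g : Perm (Fin N)) (e : Fin (q + 1) → (Fin N ↪ ℕ)) :
    toF (fun i => aE N g (e i)) = toF e := by
  ext t
  rw [mem_toF, mem_toF]
  constructor
  · rintro ⟨x, rfl⟩
    exact ⟨g⁻¹ x, rfl⟩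
  · rintro ⟨x, rfl⟩
    exact ⟨g x, by
      funext i
      change e i (g⁻¹ (g x)) = e i x
      simp⟩

/-- The simplicial set `Gam N` is the quotient of `ES (Fin N ↪ ℕ)`. -/
def freeGam (N : ℕ) : FreeQ (Perm (Fin N)) (ES (Fin N ↪ ℕ)) (Gam N) where
  p := ⟨fun e => ⟨toF e, good_toF e, card_toF e⟩, by
    intro p q f e
    apply Subtype.ext
    change toF (e ∘ f) = res f (toF e)
    ext t
    rw [mem_toF, mem_res]
    constructor
    · rintro ⟨x, rfl⟩
      exact ⟨vec e x, mem_toF.2 ⟨x, rfl⟩, rfl⟩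
    · rintro ⟨s, hs, rfl⟩
      obtain ⟨x, rfl⟩ := mem_toF.1 hs
      exact ⟨x, rfl⟩⟩
  act g e := fun i => aE N g (e i)
  one_act e := by funext i; ext x; simp
  mul_act g h e := by funext i; exact aE_mul N g h (e i)
  map_act _ _ _ := rfl
  free g e h := by
    have h0 := congrFun h 0
    have : g⁻¹ = 1 := by
      ext x
      have := DFunLike.congr_fun h0 x
      rw [aE_apply] at this
      exact congrArg Fin.val ((e 0).injective this)
    exact inv_eq_one.1 this
  p_act g e := Subtype.ext (toF_aE g e)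
  surj q F := by
    obtain ⟨e, he⟩ := exists_toF F.2.1 F.2.2
    exact ⟨e, Subtype.ext he⟩
  orbit e e' h := toF_orbit (congrArg Subtype.val h)

/-- the standard injection -/
def stdE (N : ℕ) : Fin N ↪ ℕ := ⟨Fin.val, Fin.val_injective⟩

/-- The orbit space of a free acyclic `Perm (Fin N)`-simplicial set maps to `Gam N`, with contractible
cone. -/
theorem exists_toGam {k : Type} [CommRing k] {W B : SS} {N : ℕ} (Q : FreeQ (Perm (Fin N)) W B)
    (w0 : W.obj 0) {D : ℕ} (hW : ∀ p ≤ D, Acyc k W p) :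
    ∃ f : SS.Map B (Gam N), Nonempty (ConeContr k f D) :=
  Q.exists_coneContr (freeGam N) (aE N) (stdE N) (aE_mul N) (fun _ _ => rfl) w0 hW

theorem conn_gam {k : Type} [CommRing k] {W B : SS} {N : ℕ} (Q : FreeQ (Perm (Fin N)) W B)
    (w0 : W.obj 0) (hW : ∀ p, Acyc k W p) (D : ℕ) : Conn k D B (Gam N) := by
  obtain ⟨f, ⟨c⟩⟩ := exists_toGam (k := k) (D := D) Q w0 fun p _ => hW p
  exact Conn.of_map f (c.isoUpTo.mono (Nat.le_succ D))

theorem M.good {q : ℕ} (F : M q) : Good F.pts := fun i x hx y hy h => F.inj x hx y hy i h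

/-- `MN N → Gam N` -/
def mnToGam (N : ℕ) : SS.Map (MN N) (Gam N) where
  app F := ⟨F.1.pts, M.good F.1, F.2⟩
  nat _ _ := rfl

/-- a permutation as an injection to `ℕ` -/
def permE {N : ℕ} (g : Perm (Fin N)) : Fin N ↪ ℕ := g.toEmbedding.trans (stdE N)

@[simp] theorem permE_apply {N : ℕ} (g : Perm (Fin N)) (x : Fin N) : permE g x = (g x : ℕ) := rfl

theorem permE_mul {N : ℕ} (g h : Perm (Fin N)) : permE (h * g⁻¹) = aE N g (permE h) := by
  ext x
  simp

theorem permE_injective {N : ℕ} : Function.Injective (permE (N := N)) := by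
  intro g h e
  ext x
  exact DFunLike.congr_fun e x

/-- an injection with values `< N` is a permutation -/
theorem exists_permE {N : ℕ} (e : Fin N ↪ ℕ) (h : ∀ x, e x < N) : ∃ g : Perm (Fin N), permE g = e := by
  let f : Fin N → Fin N := fun x => ⟨e x, h x⟩
  have hf : Function.Injective f := fun x y hxy => e.injective (congrArg Fin.val hxy)
  exact ⟨Equiv.ofBijective f (Finite.injective_iff_bijective.1 hf), by ext x; rfl⟩

/-- The simplicial set `MN N` is the quotient of `ES (Perm (Fin N))`. -/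
noncomputable def freeM (N : ℕ) : FreeQ (Perm (Fin N)) (ES (Perm (Fin N))) (MN N) where
  p := ⟨fun {q} e => ⟨⟨toF fun i => permE (e i), fun x hx y hy i h => good_toF _ i hx hy h, by
      intro x hx i
      obtain ⟨y, rfl⟩ := mem_toF.1 hx
      rw [card_toF]
      exact (e i y).2⟩, card_toF _⟩, by
    intro p q f e
    apply Subtype.ext
    apply M.ext
    exact congrArg Subtype.val (((freeGam N).p).nat f fun i => permE (e i))⟩
  act g e := fun i => e i * g⁻¹
  one_act e := by funext i; simp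
  mul_act g h e := by funext i; simp [mul_assoc]
  map_act _ _ _ := rfl
  free g e h := by
    have h0 := congrFun h 0
    simpa using h0
  p_act g e := by
    apply Subtype.ext
    apply M.ext
    change toF (fun i => permE (e i * g⁻¹)) = toF fun i => permE (e i)
    simp only [permE_mul]
    exact congrArg Subtype.val ((freeGam N).p_act g fun i => permE (e i))
  surj q F := by
    obtain ⟨e, he⟩ := exists_toF (M.good F.1) F.2
    have h1 : ∀ i, ∃ g : Perm (Fin N), permE g = e i := by
      intro i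
      apply exists_permE
      intro x
      have hx : vec e x ∈ F.1.pts := by rw [← he]; exact mem_toF.2 ⟨x, rfl⟩
      have := F.1.lt _ hx i
      have h2 : F.1.pts.card = N := F.2
      rw [h2] at this
      exact this
    choose g hg using h1
    refine ⟨g, Subtype.ext (M.ext ?_)⟩
    change toF (fun i => permE (g i)) = F.1.pts
    simp only [hg]
    exact he
  orbit e e' h := by
    have h1 : toF (fun i => permE (e i)) = toF fun i => permE (e' i) :=
      congrArg (fun F : (MN N).obj _ => F.1.pts) h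
    obtain ⟨g, hg⟩ := toF_orbit h1
    refine ⟨g, ?_⟩
    funext i
    apply permE_injective
    rw [permE_mul]
    exact congrFun hg i

/-- The inclusion `MN N → Gam N` has a contractible cone in every range, over every ring. -/
theorem coneContr_mnToGam (k : Type) [CommRing k] (N D : ℕ) :
    Nonempty (ConeContr k (mnToGam N) D) := by
  refine coneContr_quot (freeM N) (freeGam N) ⟨fun e i => permE (e i), fun _ _ => rfl⟩ (mnToGam N)
    (fun g e => ?_) (fun e => rfl)
    (HIso.of_acyc _ (fun _ => 1) (fun p _ => ES_acyc 1 p) fun p _ => ES_acyc (stdE N) p)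
  funext i
  exact permE_mul g (e i)

theorem isoUpTo_mnToGam (k : Type) [CommRing k] (N D : ℕ) : IsoUpTo k D (mnToGam N) := by
  obtain ⟨c⟩ := coneContr_mnToGam k N D
  exact c.isoUpTo.mono (Nat.le_succ D)

end gam

end Vale.Agent.P263.G
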