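import Vale.Agent.P263.G.Zig
import Vale.Agent.P263.GB.Base
import Mathlib.LinearAlgebra.Finsupp.LinearCombination
import Mathlib.LinearAlgebra.Basis.VectorSpace
import Mathlib.LinearAlgebra.Dual.Lemmas

/-!
# P263, block G: chains versus function cochains

Over a field `k`, a map of simplicial sets has vanishing relative `k`-homology in degrees `≤ D`
(995's `RZ0`) iff it is an isomorphism up to `D` on function cochains (`IsoUpTo k D`).
-/

namespace Vale.Agent.P263.G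

open Vale.Agent.P263.S Vale.Agent.P263.E Vale.Agent.P263.GB

variable {k : Type} [Field k]

/-! ### duality of complexes over a field -/

theorem dual_zero {A : Cx k} (h : A.HZ 0) (φ : A.C 0 →ₗ[k] k) (hφ : ∀ y, φ (A.d 0 y) = 0) :
    φ = 0 := by
  refine LinearMap.ext fun x => ?_
  obtain ⟨y, rfl⟩ := h x trivial
  exact hφ y

theorem dual_succ {A : Cx k} {n : ℕ} (h : A.HZ (n + 1)) (φ : A.C (n + 1) →ₗ[k] k)
    (hφ : ∀ y, φ (A.d (n + 1) y) = 0) : ∃ ψ : A.C n →ₗ[k] k, ∀ x, φ x = ψ (A.d n x) := by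
  have hk : LinearMap.ker (A.d n) ≤ LinearMap.ker φ := by
    intro x hx
    obtain ⟨y, rfl⟩ := h x hx
    exact hφ y
  obtain ⟨ψ0, h0⟩ : ∃ ψ0 : LinearMap.range (A.d n) →ₗ[k] k, ψ0.comp (A.d n).rangeRestrict = φ := by
    refine ⟨((LinearMap.ker (A.d n)).liftQ φ hk).comp
      ((A.d n).quotKerEquivRange.symm : LinearMap.range (A.d n) →ₗ[k] _), ?_⟩
    refine LinearMap.ext fun x => ?_
    show (LinearMap.ker (A.d n)).liftQ φ hk ((A.d n).quotKerEquivRange.symm
      ((A.d n).rangeRestrict x)) = φ x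
    have : (A.d n).quotKerEquivRange.symm ((A.d n).rangeRestrict x) =
        (LinearMap.ker (A.d n)).mkQ x := by
      rw [LinearEquiv.symm_apply_eq]
      rfl
    rw [this]
    rfl
  obtain ⟨ψ, hψ⟩ := LinearMap.exists_extend ψ0
  refine ⟨ψ, fun x => ?_⟩
  rw [← h0]
  show ψ0 ((A.d n).rangeRestrict x) = _
  rw [← hψ]
  rfl

theorem hz_zero_of_dual {A : Cx k}
    (h : ∀ φ : A.C 0 →ₗ[k] k, (∀ y, φ (A.d 0 y) = 0) → φ = 0) : A.HZ 0 := by
  intro x _
  by_contra hx
  obtain ⟨φ, h1, h2⟩ := Submodule.exists_le_ker_of_notMem (p := LinearMap.range (A.d 0)) (v := x)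
    (by rintro ⟨y, hy⟩; exact hx ⟨y, hy⟩)
  refine h1 ?_
  rw [h φ fun y => h2 ⟨y, rfl⟩]
  rfl

theorem hz_succ_of_dual {A : Cx k} {n : ℕ}
    (h : ∀ φ : A.C (n + 1) →ₗ[k] k, (∀ y, φ (A.d (n + 1) y) = 0) →
      ∃ ψ : A.C n →ₗ[k] k, ∀ x, φ x = ψ (A.d n x)) : A.HZ (n + 1) := by
  intro x hx0
  by_contra hx
  obtain ⟨φ, h1, h2⟩ := Submodule.exists_le_ker_of_notMem (p := LinearMap.range (A.d (n + 1)))
    (v := x) (by rintro ⟨y, hy⟩; exact hx ⟨y, hy⟩)
  obtain ⟨ψ, hψ⟩ := h φ fun y => h2 ⟨y, rfl⟩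
  refine h1 ?_
  rw [hψ, show A.d n x = 0 from hx0, map_zero]

/-! ### the mapping cone, dually -/

section cone

variable {A B : Cx k} (f : Cx.Hom A B)

theorem cone_inj_zero (h : RZ0 f 0) (y : B.C 0 →ₗ[k] k) (hy : ∀ b, y (B.d 0 b) = 0)
    (hf : ∀ a, y (f.app 0 a) = 0) : y = 0 := by
  refine LinearMap.ext fun b => ?_
  obtain ⟨b', a, rfl⟩ := (rz0_zero f).1 h b
  rw [map_add, hy, hf, add_zero]
  rfl

/-- the linear form `(b, a) ↦ y b + x a` on the cone -/
def cf {n : ℕ} (y : B.C (n + 1) →ₗ[k] k) (x : A.C n →ₗ[k] k) : (cone f).C (n + 1) →ₗ[k] k :=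
  (LinearMap.coprod y x : B.C (n + 1) × A.C n →ₗ[k] k)

theorem cf_apply {n : ℕ} (y : B.C (n + 1) →ₗ[k] k) (x : A.C n →ₗ[k] k) (b : B.C (n + 1))
    (a : A.C n) : cf f y x ((b, a) : B.C (n + 1) × A.C n) = y b + x a := rfl

theorem cone_inj_succ {m : ℕ} (h : RZ0 f (m + 1)) (y : B.C (m + 1) →ₗ[k] k)
    (hy : ∀ b, y (B.d (m + 1) b) = 0) (x : A.C m →ₗ[k] k)
    (hf : ∀ a, y (f.app (m + 1) a) = x (A.d m a)) : ∃ y' : B.C m →ₗ[k] k, ∀ b, y b = y' (B.d m b) := by
  obtain ⟨ψ, hψ⟩ := dual_succ (A := cone f) h (cf f y x) (by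
    rintro ⟨b, a⟩
    show y (B.d (m + 1) b + f.app (m + 1) a) + x (-(A.d m a)) = 0
    rw [map_add, hy, hf, map_neg, zero_add, add_neg_cancel])
  cases m with
  | zero =>
    refine ⟨ψ, fun b => ?_⟩
    have h1 : y b + x 0 = ψ (B.d 0 b + f.app 0 0 : B.C 0) := hψ ((b, 0) : B.C 1 × A.C 0)
    rw [map_zero, map_zero, add_zero, add_zero] at h1
    exact h1
  | succ l =>
    refine ⟨(ψ : B.C (l + 1) × A.C l →ₗ[k] k).comp (LinearMap.inl k _ _), fun b => ?_⟩
    have h1 : y b + x 0 = ψ ((B.d (l + 1) b + f.app (l + 1) 0, -(A.d l 0)) : B.C (l + 1) × A.C l) :=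
      hψ ((b, 0) : B.C (l + 2) × A.C (l + 1))
    rw [map_zero, map_zero, map_zero, add_zero, add_zero, neg_zero] at h1
    exact h1

theorem cone_surj_zero (h : RZ0 f 1) (c : A.C 0 →ₗ[k] k) (hc : ∀ a, c (A.d 0 a) = 0) :
    ∃ y : B.C 0 →ₗ[k] k, (∀ b, y (B.d 0 b) = 0) ∧ ∀ a, c a = y (f.app 0 a) := by
  obtain ⟨ψ, hψ⟩ := dual_succ (A := cone f) h (cf f 0 c) (by
    rintro ⟨b, a⟩
    have h1 : c (-(A.d 0 a)) = 0 := by rw [map_neg, hc, neg_zero]
    exact (zero_add _).trans h1)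
  have h1 : ∀ (b : B.C 1) (a : A.C 0), (0 : B.C 1 →ₗ[k] k) b + c a =
      ψ (B.d 0 b + f.app 0 a : B.C 0) := fun b a => hψ ((b, a) : B.C 1 × A.C 0)
  refine ⟨ψ, fun b => ?_, fun a => ?_⟩
  · have h2 := h1 b 0
    rw [map_zero, map_zero, add_zero, LinearMap.zero_apply, add_zero] at h2
    exact h2.symm
  · have h2 := h1 0 a
    rw [map_zero, map_zero, zero_add, zero_add] at h2
    exact h2

theorem cone_surj_succ {l : ℕ} (h : RZ0 f (l + 2)) (c : A.C (l + 1) →ₗ[k] k)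
    (hc : ∀ a, c (A.d (l + 1) a) = 0) :
    ∃ (y : B.C (l + 1) →ₗ[k] k) (x : A.C l →ₗ[k] k), (∀ b, y (B.d (l + 1) b) = 0) ∧
      ∀ a, c a = y (f.app (l + 1) a) - x (A.d l a) := by
  obtain ⟨ψ, hψ⟩ := dual_succ (A := cone f) h (cf f 0 c) (by
    rintro ⟨b, a⟩
    have h1 : c (-(A.d (l + 1) a)) = 0 := by rw [map_neg, hc, neg_zero]
    exact (zero_add _).trans h1)
  have h1 : ∀ (b : B.C (l + 2)) (a : A.C (l + 1)), (0 : B.C (l + 2) →ₗ[k] k) b + c a =
      ψ ((B.d (l + 1) b + f.app (l + 1) a, -(A.d l a)) : B.C (l + 1) × A.C l) :=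
    fun b a => hψ ((b, a) : B.C (l + 2) × A.C (l + 1))
  have hsum : ∀ (b : B.C (l + 1)) (a : A.C l), ψ ((b, a) : B.C (l + 1) × A.C l) =
      (ψ : B.C (l + 1) × A.C l →ₗ[k] k).comp (LinearMap.inl k _ _) b +
      (ψ : B.C (l + 1) × A.C l →ₗ[k] k).comp (LinearMap.inr k _ _) a := by
    intro b a
    have e : ((b, a) : B.C (l + 1) × A.C l) = (b, 0) + (0, a) := by
      rw [Prod.mk_add_mk, add_zero, zero_add]
    rw [e]
    exact map_add (ψ : B.C (l + 1) × A.C l →ₗ[k] k) (b, 0) (0, a)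
  refine ⟨(ψ : B.C (l + 1) × A.C l →ₗ[k] k).comp (LinearMap.inl k _ _),
    (ψ : B.C (l + 1) × A.C l →ₗ[k] k).comp (LinearMap.inr k _ _), fun b => ?_, fun a => ?_⟩
  · have h2 := h1 b 0
    rw [map_zero, map_zero, map_zero, add_zero, LinearMap.zero_apply, add_zero, neg_zero] at h2
    exact h2.symm
  · have h2 := h1 0 a
    rw [map_zero, map_zero, zero_add, zero_add, hsum, map_neg, ← sub_eq_add_neg] at h2
    exact h2

end cone

/-! ### evaluation of functions on chains -/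

section ev

variable {X Y : SS}

/-- a simplex as a chain -/
noncomputable def sgl {n : ℕ} (x : X.obj n) : (free k X).obj n := Finsupp.single x (1 : k)

theorem free_ext {n : ℕ} {φ ψ : (free k X).obj n →ₗ[k] k} (h : ∀ x, φ (sgl x) = ψ (sgl x)) :
    φ = ψ := by
  refine Finsupp.lhom_ext fun x r => ?_
  have e : (Finsupp.single x r : X.obj n →₀ k) = r • Finsupp.single x 1 := by
    rw [Finsupp.smul_single, smul_eq_mul, mul_one]
  rw [e]
  exact ((φ.map_smul r _).trans (congrArg (r • ·) (h x))).trans (ψ.map_smul r _).symm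

/-- the linear form on chains of a function on simplices -/
noncomputable def evc {n : ℕ} (c : (SS.F k X).obj n) : (free k X).obj n →ₗ[k] k :=
  Finsupp.linearCombination k c

theorem evc_sgl {n : ℕ} (c : (SS.F k X).obj n) (x : X.obj n) : evc c (sgl x) = c x := by
  exact (Finsupp.linearCombination_single k (v := (c : X.obj n → k)) 1 x).trans (one_smul k (c x))

/-- the function of a linear form -/
noncomputable def fnc {n : ℕ} (φ : (free k X).obj n →ₗ[k] k) : (SS.F k X).obj n :=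
  fun x => φ (sgl x)

theorem evc_fnc {n : ℕ} (φ : (free k X).obj n →ₗ[k] k) : evc (fnc φ) = φ :=
  free_ext fun x => evc_sgl _ x

theorem fnc_evc {n : ℕ} (c : (SS.F k X).obj n) : fnc (evc c) = c := funext fun x => evc_sgl c x

theorem free_d_sgl {n : ℕ} (x : X.obj (n + 1)) :
    (free k X).d n (sgl x) = ∑ i ∈ Finset.range (n + 2), sn i (sgl (X.map (dl n i) x)) := by
  rw [SMod.d_apply]
  refine Finset.sum_congr rfl fun i _ => ?_
  congr 1
  exact free_map_single X _ _ _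

theorem evc_d {n : ℕ} (c : (SS.F k X).obj n) (z : (free k X).obj (n + 1)) :
    evc c ((free k X).d n z) = evc ((SS.F k X).d n c) z := by
  have h : (evc c).comp ((free k X).d n) = evc ((SS.F k X).d n c) := by
    refine free_ext fun x => ?_
    rw [evc_sgl, SS.F_d]
    refine (congrArg (evc c) (free_d_sgl x)).trans ?_
    rw [map_sum]
    refine Finset.sum_congr rfl fun i _ => ?_
    rw [CosMod.sn_lin, evc_sgl]
  exact LinearMap.congr_fun h z

theorem fnc_d {n : ℕ} (φ : (free k X).obj n →ₗ[k] k) :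
    (SS.F k X).d n (fnc φ) = fnc (φ.comp ((free k X).d n)) := by
  rw [← fnc_evc ((SS.F k X).d n (fnc φ))]
  congr 1
  refine LinearMap.ext fun z => ?_
  rw [← evc_d, evc_fnc]
  rfl

theorem evc_map (f : SS.Map X Y) {n : ℕ} (c : (SS.F k Y).obj n) (z : (free k X).obj n) :
    evc c ((freeMap k f).app n z) = evc ((f.pull (R := k)).app n c) z := by
  have h : (evc c).comp ((freeMap k f).app n) = evc ((f.pull (R := k)).app n c) := by
    refine free_ext fun x => ?_
    rw [evc_sgl]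
    refine (congrArg (evc c) (freeMap_single (R := k) f x 1)).trans ?_
    exact evc_sgl c _
  exact LinearMap.congr_fun h z

theorem fn_ext_evc {n : ℕ} {c c' : (SS.F k X).obj n}
    (h : ∀ z : (free k X).obj n, evc c z = evc c' z) : c = c' := by
  rw [← fnc_evc c, ← fnc_evc c', show evc c = evc c' from LinearMap.ext h]

end ev

section smod

variable {A B : SMod k} (f : SMod.Hom A B)

theorem sm_inj_zero (h : RZ0 f.cx 0) (y : B.obj 0 →ₗ[k] k) (hy : ∀ b, y (B.d 0 b) = 0)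
    (hf : ∀ a, y (f.app 0 a) = 0) : y = 0 := cone_inj_zero f.cx h y hy hf

theorem sm_inj_succ {m : ℕ} (h : RZ0 f.cx (m + 1)) (y : B.obj (m + 1) →ₗ[k] k)
    (hy : ∀ b, y (B.d (m + 1) b) = 0) (x : A.obj m →ₗ[k] k)
    (hf : ∀ a, y (f.app (m + 1) a) = x (A.d m a)) :
    ∃ y' : B.obj m →ₗ[k] k, ∀ b, y b = y' (B.d m b) := cone_inj_succ f.cx h y hy x hf

theorem sm_surj_zero (h : RZ0 f.cx 1) (c : A.obj 0 →ₗ[k] k) (hc : ∀ a, c (A.d 0 a) = 0) :
    ∃ y : B.obj 0 →ₗ[k] k, (∀ b, y (B.d 0 b) = 0) ∧ ∀ a, c a = y (f.app 0 a) :=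
  cone_surj_zero f.cx h c hc

theorem sm_surj_succ {l : ℕ} (h : RZ0 f.cx (l + 2)) (c : A.obj (l + 1) →ₗ[k] k)
    (hc : ∀ a, c (A.d (l + 1) a) = 0) :
    ∃ (y : B.obj (l + 1) →ₗ[k] k) (x : A.obj l →ₗ[k] k), (∀ b, y (B.d (l + 1) b) = 0) ∧
      ∀ a, c a = y (f.app (l + 1) a) - x (A.d l a) :=
  cone_surj_succ f.cx h c hc

end smod

section main

variable {X Y : SS} (f : SS.Map X Y)

theorem evc_zero {X : SS} {n : ℕ} (z : (free k X).obj n) : evc (0 : (SS.F k X).obj n) z = 0 := by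
  have : evc (0 : (SS.F k X).obj n) = 0 := free_ext fun x => evc_sgl _ x
  rw [this]
  rfl

theorem evc_add {X : SS} {n : ℕ} (u v : (SS.F k X).obj n) (z : (free k X).obj n) :
    evc (u + v) z = evc u z + evc v z := by
  have : evc (u + v) = evc u + evc v := free_ext fun x => by
    refine (evc_sgl _ x).trans ?_
    have h1 := evc_sgl u x
    have h2 := evc_sgl v x
    exact (congrArg₂ (· + ·) h1 h2).symm
  rw [this]
  rfl

/-- **relative homology zero up to degree `D` implies an isomorphism up to `D` on cochains** -/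
theorem isoUpTo_of_rz0 {D : ℕ} (h : ∀ j ≤ D, RZ0 (freeMap k f).cx j) : IsoUpTo k D f := by
  refine IsoUpTo.of_elem (fun n hn y hy hc => ?_) (fun n hn c hc => ?_)
  · have hy' : ∀ b, evc y ((free k Y).d n b) = 0 := fun b => by rw [evc_d, hy, evc_zero]
    cases n with
    | zero =>
      rw [CosMod.mem_Bd_zero] at hc ⊢
      have h1 := sm_inj_zero (freeMap k f) (h 0 hn) (evc y) hy' fun a => by
        rw [evc_map, hc, evc_zero]
      refine fn_ext_evc fun z => ?_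
      rw [evc_zero, h1]
      rfl
    | succ m =>
      obtain ⟨x, hx⟩ := CosMod.mem_Bd_succ.1 hc
      obtain ⟨ψ, hψ⟩ := sm_inj_succ (freeMap k f) (h (m + 1) hn) (evc y) hy' (evc x)
        fun a => by rw [evc_map, evc_d, hx]
      refine CosMod.mem_Bd_succ.2 ⟨fnc ψ, fn_ext_evc fun b => ?_⟩
      rw [← evc_d, evc_fnc]
      exact (hψ b).symm
  · have hc' : ∀ a, evc c ((free k X).d n a) = 0 := fun b => by rw [evc_d, hc, evc_zero]
    cases n with
    | zero =>
      obtain ⟨ψ, h1, h2⟩ := sm_surj_zero (freeMap k f) (h 1 hn) (evc c) hc'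
      refine ⟨fnc ψ, fn_ext_evc fun b => ?_, ?_⟩
      · rw [← evc_d, evc_fnc, evc_zero]
        exact h1 b
      · rw [show c = (f.pull (R := k)).app 0 (fnc ψ) from fn_ext_evc fun a => ?_]
        · rw [sub_self]
          exact zero_mem _
        · rw [← evc_map, evc_fnc]
          exact h2 a
    | succ l =>
      obtain ⟨ψ, χ, h1, h2⟩ := sm_surj_succ (freeMap k f) (h (l + 2) hn) (evc c) hc'
      have key : c + (SS.F k X).d l (fnc χ) = (f.pull (R := k)).app (l + 1) (fnc ψ) := by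
        refine fn_ext_evc fun a => ?_
        rw [evc_add, ← evc_d, ← evc_map, evc_fnc, evc_fnc, h2, sub_add_cancel]
      refine ⟨fnc ψ, fn_ext_evc fun b => ?_, CosMod.mem_Bd_succ.2 ⟨-fnc χ, ?_⟩⟩
      · rw [← evc_d, evc_fnc, evc_zero]
        exact h1 b
      · rw [← key, map_neg, sub_add_cancel_left]

theorem Conn.of_rz0 {D : ℕ} (h : ∀ j ≤ D, RZ0 (freeMap k f).cx j) : Conn k D X Y :=
  Conn.of_map f (isoUpTo_of_rz0 f h)

theorem isoUpTo_of_bijective (R : Type) [CommRing R] {D : ℕ}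
    (h : ∀ p, Function.Bijective (f.app (p := p))) : IsoUpTo R D f := by
  have inj : ∀ (p : ℕ) (u v : (SS.F R Y).obj p),
      (f.pull (R := R)).app p u = (f.pull (R := R)).app p v → u = v := by
    intro p u v huv
    funext y
    obtain ⟨x, rfl⟩ := (h p).2 y
    exact congrFun huv x
  have surj : ∀ (p : ℕ) (u : (SS.F R X).obj p), ∃ v, (f.pull (R := R)).app p v = u :=
    fun p u => SS.Map.Inj.pull_surjective (R := R) (f := f) (fun p => (h p).1) p u
  refine IsoUpTo.of_elem (fun n _ y _ hc => ?_) (fun n _ c hc => ?_)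
  · cases n with
    | zero =>
      rw [CosMod.mem_Bd_zero] at hc ⊢
      exact inj 0 _ _ (hc.trans (map_zero _).symm)
    | succ m =>
      obtain ⟨x, hx⟩ := CosMod.mem_Bd_succ.1 hc
      obtain ⟨v, rfl⟩ := surj m x
      rw [← Hom.app_d] at hx
      exact CosMod.mem_Bd_succ.2 ⟨v, inj _ _ _ hx⟩
  · obtain ⟨v, rfl⟩ := surj n c
    refine ⟨v, inj _ _ _ ?_, ?_⟩
    · rw [Hom.app_d, hc, map_zero]
    · rw [sub_self]
      exact zero_mem _

end main

end Vale.Agent.P263.G
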