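import Mathlib

/-! # P263, part G: the Barratt-Eccles simplicial monoid

`M q` is the monoid of isomorphism classes of finite sets with `q + 1` total orders: such a set is
represented by the finite set of its rank vectors `x : Fin (q + 1) → ℕ`.
-/

namespace Vale.Agent.P263.G

/-- rank vectors -/
abbrev Pt (q : ℕ) := Fin (q + 1) → ℕ

/-- Finite sets with `q + 1` total orders, up to isomorphism. -/
structure M (q : ℕ) where
  /-- the set of rank vectors -/
  pts : Finset (Pt q)
  inj : ∀ x ∈ pts, ∀ y ∈ pts, ∀ i, x i = y i → x = y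
  lt : ∀ x ∈ pts, ∀ i, x i < pts.card

namespace M

variable {p q r : ℕ}

/-- the number of points -/
def deg (F : M q) : ℕ := F.pts.card

theorem lt_deg (F : M q) {x : Pt q} (hx : x ∈ F.pts) (i : Fin (q + 1)) : x i < F.deg :=
  F.lt x hx i

@[ext] theorem ext {F G : M q} (h : F.pts = G.pts) : F = G := by
  cases F; cases G; cases h; rfl

theorem image_eq (F : M q) (i : Fin (q + 1)) :
    F.pts.image (fun x => x i) = Finset.range F.deg := by
  apply Finset.eq_of_subset_of_card_le
  · intro n hn
    obtain ⟨x, hx, rfl⟩ := Finset.mem_image.1 hn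
    exact Finset.mem_range.2 (F.lt x hx i)
  · rw [Finset.card_range, Finset.card_image_of_injOn]
    · exact le_rfl
    · intro x hx y hy h
      exact F.inj x hx y hy i h

theorem exists_pt (F : M q) (i : Fin (q + 1)) {n : ℕ} (hn : n < F.deg) :
    ∃ x ∈ F.pts, x i = n := by
  have : n ∈ F.pts.image (fun x => x i) := by
    rw [image_eq]; exact Finset.mem_range.2 hn
  simpa using this

/-- the simplicial operators -/
def map (θ : Fin (p + 1) → Fin (q + 1)) (F : M q) : M p where
  pts := F.pts.image (fun x => x ∘ θ)
  inj := by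
    intro x' hx' y' hy' i h
    obtain ⟨x, hx, rfl⟩ := Finset.mem_image.1 hx'
    obtain ⟨y, hy, rfl⟩ := Finset.mem_image.1 hy'
    rw [F.inj x hx y hy (θ i) h]
  lt := by
    intro x' hx' i
    obtain ⟨x, hx, rfl⟩ := Finset.mem_image.1 hx'
    rw [Finset.card_image_of_injOn]
    · exact F.lt x hx _
    · intro x hx y hy h
      exact F.inj x hx y hy (θ 0) (congrFun h 0)

theorem mem_map {θ : Fin (p + 1) → Fin (q + 1)} {F : M q} {x : Pt p} :
    x ∈ (F.map θ).pts ↔ ∃ y ∈ F.pts, y ∘ θ = x := by
  simp [map]

theorem injOn_comp (θ : Fin (p + 1) → Fin (q + 1)) (F : M q) :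
    Set.InjOn (fun x : Pt q => x ∘ θ) F.pts := by
  intro x hx y hy h
  exact F.inj x hx y hy (θ 0) (congrFun h 0)

@[simp] theorem deg_map (θ : Fin (p + 1) → Fin (q + 1)) (F : M q) : (F.map θ).deg = F.deg :=
  Finset.card_image_of_injOn (injOn_comp θ F)

@[simp] theorem map_id (F : M q) : F.map id = F := by
  apply ext
  simp [map]

theorem map_map (θ : Fin (p + 1) → Fin (q + 1)) (η : Fin (r + 1) → Fin (p + 1)) (F : M q) :
    (F.map θ).map η = F.map (θ ∘ η) := by
  apply ext
  simp only [map, Finset.image_image]
  rfl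

/-- adding `n` to all ranks -/
def sh (n : ℕ) (x : Pt q) : Pt q := fun i => x i + n

theorem sh_inj (n : ℕ) : Function.Injective (sh n : Pt q → Pt q) := by
  intro x y h
  funext i
  have := congrFun h i
  simp only [sh] at this
  omega

@[simp] theorem sh_apply (n : ℕ) (x : Pt q) (i : Fin (q + 1)) : sh n x i = x i + n := rfl

theorem sh_sh (m n : ℕ) (x : Pt q) : sh m (sh n x) = sh (n + m) x := by
  funext i; simp [add_assoc]

@[simp] theorem sh_zero (x : Pt q) : sh 0 x = x := by
  funext i; simp

theorem disj (F G : M q) : Disjoint F.pts (G.pts.image (sh F.deg)) := by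
  rw [Finset.disjoint_left]
  intro x hx hx'
  obtain ⟨y, hy, rfl⟩ := Finset.mem_image.1 hx'
  have := F.lt_deg hx 0
  simp only [sh_apply] at this
  omega

theorem card_union (F G : M q) : (F.pts ∪ G.pts.image (sh F.deg)).card = F.deg + G.deg := by
  rw [Finset.card_union_of_disjoint (disj F G), Finset.card_image_of_injective _ (sh_inj _)]
  rfl

instance : One (M q) := ⟨⟨∅, by simp, by simp⟩⟩

/-- the ordinal sum -/
instance : Mul (M q) := ⟨fun F G =>
  { pts := F.pts ∪ G.pts.image (sh F.deg)
    inj := by
      intro x hx y hy i h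
      rw [Finset.mem_union, Finset.mem_image] at hx hy
      rcases hx with hx | ⟨x, hx, rfl⟩ <;> rcases hy with hy | ⟨y, hy, rfl⟩
      · exact F.inj x hx y hy i h
      · have := F.lt_deg hx i
        simp only [sh_apply] at h
        omega
      · have := F.lt_deg hy i
        simp only [sh_apply] at h
        omega
      · rw [G.inj x hx y hy i (by simp only [sh_apply] at h; omega)]
    lt := by
      intro x hx i
      rw [card_union]
      rw [Finset.mem_union, Finset.mem_image] at hx
      rcases hx with hx | ⟨x, hx, rfl⟩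
      · have := F.lt_deg hx i
        omega
      · have := G.lt_deg hx i
        simp only [sh_apply]
        omega }⟩

@[simp] theorem one_pts : (1 : M q).pts = ∅ := rfl

theorem mul_pts (F G : M q) : (F * G).pts = F.pts ∪ G.pts.image (sh F.deg) := rfl

theorem mem_mul {F G : M q} {x : Pt q} :
    x ∈ (F * G).pts ↔ x ∈ F.pts ∨ ∃ y ∈ G.pts, sh F.deg y = x := by
  rw [mul_pts, Finset.mem_union, Finset.mem_image]

@[simp] theorem deg_one : (1 : M q).deg = 0 := rfl

@[simp] theorem deg_mul (F G : M q) : (F * G).deg = F.deg + G.deg := card_union F G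

theorem deg_eq_zero {F : M q} : F.deg = 0 ↔ F = 1 := by
  constructor
  · intro h
    apply ext
    simpa [deg] using h
  · rintro rfl; rfl

instance : Monoid (M q) where
  mul_assoc F G H := by
    apply ext
    simp only [mul_pts, deg_mul, Finset.image_union, Finset.image_image, Finset.union_assoc]
    congr 2
    congr 1
    funext x
    simp only [Function.comp_apply, sh_sh]
    rw [add_comm]
  one_mul F := by
    apply ext
    simp only [mul_pts, one_pts, deg_one, Finset.empty_union]
    ext x
    simp
  mul_one F := by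
    apply ext
    simp [mul_pts]

@[simp] theorem map_one (θ : Fin (p + 1) → Fin (q + 1)) : (1 : M q).map θ = 1 := by
  apply ext; simp [map]

theorem map_mul (θ : Fin (p + 1) → Fin (q + 1)) (F G : M q) :
    (F * G).map θ = F.map θ * G.map θ := by
  apply ext
  simp only [mul_pts, map, Finset.image_union, Finset.image_image]
  congr 2
  · funext x i
    have h : (F.map θ).deg = F.deg := deg_map θ F
    change x (θ i) + F.deg = x (θ i) + (F.map θ).deg
    rw [h]

/-- the simplicial operators as homomorphisms -/
def mapHom (θ : Fin (p + 1) → Fin (q + 1)) : M q →* M p where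
  toFun := map θ
  map_one' := map_one θ
  map_mul' := map_mul θ

@[simp] theorem mapHom_apply (θ : Fin (p + 1) → Fin (q + 1)) (F : M q) :
    mapHom θ F = F.map θ := rfl

/-- the degree as a homomorphism -/
def degHom : M q →* Multiplicative ℕ where
  toFun F := Multiplicative.ofAdd F.deg
  map_one' := rfl
  map_mul' F G := by rw [deg_mul]; rfl

/-! ### cancellation -/

theorem pts_left (F G : M q) : F.pts = (F * G).pts.filter (fun x => x 0 < F.deg) := by
  ext x
  rw [Finset.mem_filter, mem_mul]
  constructor
  · intro hx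
    exact ⟨Or.inl hx, F.lt_deg hx 0⟩
  · rintro ⟨hx | ⟨y, hy, rfl⟩, h⟩
    · exact hx
    · simp only [sh_apply] at h
      omega

theorem left_unique {F G F' G' : M q} (h : F * G = F' * G') (hd : F.deg = F'.deg) : F = F' := by
  apply ext
  rw [pts_left F G, pts_left F' G', h, hd]

theorem mul_left_cancel' {F G G' : M q} (h : F * G = F * G') : G = G' := by
  apply ext
  have h2 := congrArg M.pts h
  rw [mul_pts, mul_pts] at h2
  have key : G.pts.image (sh F.deg) = G'.pts.image (sh F.deg) := by
    ext x
    constructor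
    · intro hx
      have hx' : x ∈ F.pts ∪ G'.pts.image (sh F.deg) := by
        rw [← h2]; exact Finset.mem_union_right _ hx
      rcases Finset.mem_union.1 hx' with h3 | h3
      · exact absurd hx (Finset.disjoint_left.1 (disj F G) h3)
      · exact h3
    · intro hx
      have hx' : x ∈ F.pts ∪ G.pts.image (sh F.deg) := by
        rw [h2]; exact Finset.mem_union_right _ hx
      rcases Finset.mem_union.1 hx' with h3 | h3
      · exact absurd hx (Finset.disjoint_left.1 (disj F G') h3)
      · exact h3
  exact Finset.image_injective (sh_inj _) key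

theorem mul_right_cancel' {F F' G : M q} (h : F * G = F' * G) : F = F' := by
  apply left_unique h
  have := congrArg deg h
  simp only [deg_mul] at this
  omega

instance : CancelMonoid (M q) where
  mul_left_cancel _ _ _ h := mul_left_cancel' h
  mul_right_cancel _ _ _ h := mul_right_cancel' h

/-! ### cuts -/

/-- `F` is cut at `k`: its first `k` points are the same for all orders -/
def Cut (F : M q) (k : ℕ) : Prop := ∀ x ∈ F.pts, ∀ i j, x i < k → x j < k

theorem cut_mul (F G : M q) : (F * G).Cut F.deg := by
  intro x hx i j h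
  rcases mem_mul.1 hx with hx | ⟨y, hy, rfl⟩
  · exact F.lt_deg hx j
  · simp only [sh_apply] at h
    omega

theorem exists_split (F : M q) (k : ℕ) (hk : k ≤ F.deg) (h : F.Cut k) :
    ∃ G H : M q, F = G * H ∧ G.deg = k := by
  classical
  have c1 : (F.pts.filter (fun x => x 0 < k)).card = k := by
    have : ((F.pts.filter (fun x => x 0 < k)).image (fun x => x 0)) = Finset.range k := by
      ext n
      simp only [Finset.mem_image, Finset.mem_filter, Finset.mem_range]
      constructor
      · rintro ⟨x, ⟨_, hx⟩, rfl⟩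
        exact hx
      · intro hn
        obtain ⟨x, hx, rfl⟩ := F.exists_pt 0 (lt_of_lt_of_le hn hk)
        exact ⟨x, ⟨hx, hn⟩, rfl⟩
    have h2 := congrArg Finset.card this
    rw [Finset.card_range, Finset.card_image_of_injOn] at h2
    · exact h2
    · intro x hx y hy hxy
      exact F.inj x (Finset.mem_filter.1 hx).1 y (Finset.mem_filter.1 hy).1 0 hxy
  have c2 : (F.pts.filter (fun x => ¬ x 0 < k)).card = F.deg - k := by
    have h1 := Finset.card_filter_add_card_filter_not (s := F.pts) (fun x : Pt q => x 0 < k)
    have h2 : F.pts.card = F.deg := rfl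
    omega
  let dn : Pt q → Pt q := fun x i => x i - k
  have dninj : Set.InjOn dn (F.pts.filter (fun x => ¬ x 0 < k)) := by
    intro x hx y hy hxy
    have hx := Finset.mem_filter.1 hx
    have hy := Finset.mem_filter.1 hy
    have h0 := congrFun hxy 0
    simp only [dn] at h0
    exact F.inj x hx.1 y hy.1 0 (by omega)
  have ge : ∀ x ∈ F.pts.filter (fun x => ¬ x 0 < k), ∀ i, k ≤ x i := by
    intro x hx i
    have hx := Finset.mem_filter.1 hx
    by_contra hc
    exact hx.2 (h x hx.1 i 0 (by omega))
  refine ⟨⟨F.pts.filter (fun x => x 0 < k), ?_, ?_⟩,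
    ⟨(F.pts.filter (fun x => ¬ x 0 < k)).image dn, ?_, ?_⟩, ?_, ?_⟩
  · intro x hx y hy i hxy
    exact F.inj x (Finset.mem_filter.1 hx).1 y (Finset.mem_filter.1 hy).1 i hxy
  · intro x hx i
    rw [c1]
    exact h x (Finset.mem_filter.1 hx).1 0 i (Finset.mem_filter.1 hx).2
  · intro x' hx' y' hy' i hxy
    obtain ⟨x, hx, rfl⟩ := Finset.mem_image.1 hx'
    obtain ⟨y, hy, rfl⟩ := Finset.mem_image.1 hy'
    have e : x = y := by
      apply F.inj x (Finset.mem_filter.1 hx).1 y (Finset.mem_filter.1 hy).1 i
      have h1 := ge x hx i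
      have h2 := ge y hy i
      simp only [dn] at hxy
      omega
    rw [e]
  · intro x' hx' i
    obtain ⟨x, hx, rfl⟩ := Finset.mem_image.1 hx'
    rw [Finset.card_image_of_injOn dninj, c2]
    have h1 := ge x hx i
    have h2 := F.lt_deg (Finset.mem_filter.1 hx).1 i
    simp only [dn]
    omega
  · apply ext
    ext x
    rw [mem_mul]
    simp only [Finset.mem_filter, Finset.mem_image, deg, c1]
    constructor
    · intro hx
      by_cases h0 : x 0 < k
      · exact Or.inl ⟨hx, h0⟩
      · right
        refine ⟨dn x, ⟨x, ⟨hx, h0⟩, rfl⟩, ?_⟩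
        funext i
        have := ge x (Finset.mem_filter.2 ⟨hx, h0⟩) i
        simp only [sh_apply, dn]
        omega
    · rintro (⟨hx, _⟩ | ⟨y, ⟨z, ⟨hz, h0⟩, rfl⟩, rfl⟩)
      · exact hx
      · have e : sh k (dn z) = z := by
          funext i
          have := ge z (Finset.mem_filter.2 ⟨hz, h0⟩) i
          simp only [sh_apply, dn]
          omega
        rw [e]
        exact hz
  · exact c1

/-- Levi's lemma -/
theorem levi {F G H K : M q} (h : F * G = H * K) (hd : F.deg ≤ H.deg) :
    ∃ u, H = F * u ∧ G = u * K := by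
  have hc : H.Cut F.deg := by
    intro x hx i j hi
    have hx' : x ∈ (F * G).pts := by
      rw [h, mem_mul]; exact Or.inl hx
    exact cut_mul F G x hx' i j hi
  obtain ⟨F', u, rfl, hF'⟩ := exists_split H F.deg hd hc
  have e : F = F' := by
    apply left_unique (G := G) (G' := u * K) _ hF'.symm
    rw [h, mul_assoc]
  subst e
  refine ⟨u, rfl, ?_⟩
  rw [mul_assoc] at h
  exact mul_left_cancel' h

/-! ### the one point set -/

/-- the one point set -/
def tau (q : ℕ) : M q where
  pts := {0}
  inj := by simp
  lt := by simp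

@[simp] theorem tau_pts : (tau q).pts = {0} := rfl

@[simp] theorem deg_tau : (tau q).deg = 1 := rfl

@[simp] theorem map_tau (θ : Fin (p + 1) → Fin (q + 1)) : (tau q).map θ = tau p := by
  apply ext
  simp only [map, tau_pts, Finset.image_singleton]
  rfl

theorem eq_tau_pow (F : M 0) : F = tau 0 ^ F.deg := by
  have key : ∀ F G : M 0, F.deg = G.deg → F = G := by
    intro F G h
    apply ext
    have : ∀ F : M 0, ∀ x : Pt 0, x ∈ F.pts ↔ x 0 < F.deg := by
      intro F x
      constructor
      · intro hx; exact F.lt_deg hx 0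
      · intro hx
        obtain ⟨y, hy, hyx⟩ := F.exists_pt 0 hx
        have e : y = x := by
          funext i
          have : i = 0 := Subsingleton.elim (α := Fin 1) i 0
          rw [this, hyx]
        rw [← e]; exact hy
    ext x
    rw [this, this, h]
  apply key
  have : ∀ n : ℕ, (tau 0 ^ n).deg = n := by
    intro n
    induction n with
    | zero => simp
    | succ n ih => rw [pow_succ, deg_mul, ih, deg_tau]
  rw [this]

/-! ### the homotopy between `F * tau` and `tau * F` -/

section hom

variable (ε : Fin (q + 1) → Bool) (F : M q)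

/-- the new point -/
def hp : Pt q := fun i => if ε i then 0 else F.deg

/-- the old points -/
def ho (x : Pt q) : Pt q := fun i => if ε i then x i + 1 else x i

theorem hp_ne_ho {x : Pt q} (hx : x ∈ F.pts) (i : Fin (q + 1)) : hp ε F i ≠ ho ε x i := by
  have := F.lt_deg hx i
  simp only [hp, ho]
  cases ε i <;> simp <;> omega

theorem ho_inj {x y : Pt q} {i : Fin (q + 1)} (h : ho ε x i = ho ε y i) : x i = y i := by
  simp only [ho] at h
  cases hε : ε i <;> simp [hε] at h <;> omega

theorem card_hom : (insert (hp ε F) (F.pts.image (ho ε))).card = F.deg + 1 := by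
  rw [Finset.card_insert_of_notMem, Finset.card_image_of_injOn]
  · rfl
  · intro x hx y hy h
    exact F.inj x hx y hy 0 (ho_inj ε (congrFun h 0))
  · intro hc
    obtain ⟨x, hx, hxe⟩ := Finset.mem_image.1 hc
    exact hp_ne_ho ε F hx 0 (congrFun hxe 0).symm

/-- `F` with one more point, which is the first point of the orders with `ε i = true` and the last
point of the other orders -/
def hom : M q where
  pts := insert (hp ε F) (F.pts.image (ho ε))
  inj := by
    intro x' hx' y' hy' i h
    rw [Finset.mem_insert, Finset.mem_image] at hx' hy'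
    rcases hx' with rfl | ⟨x, hx, rfl⟩ <;> rcases hy' with rfl | ⟨y, hy, rfl⟩
    · rfl
    · exact absurd h (hp_ne_ho ε F hy i)
    · exact absurd h.symm (hp_ne_ho ε F hx i)
    · rw [F.inj x hx y hy i (ho_inj ε h)]
  lt := by
    intro x' hx' i
    rw [card_hom]
    rw [Finset.mem_insert, Finset.mem_image] at hx'
    rcases hx' with rfl | ⟨x, hx, rfl⟩
    · simp only [hp]
      cases ε i <;> simp
    · have := F.lt_deg hx i
      simp only [ho]
      cases ε i <;> simp <;> omega

@[simp] theorem deg_hom : (F.hom ε).deg = F.deg + 1 := card_hom ε F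

variable {ε F} in
theorem mem_hom {x : Pt q} :
    x ∈ (F.hom ε).pts ↔ x = (fun i => if ε i then 0 else F.deg) ∨
      ∃ y ∈ F.pts, (fun i => if ε i then y i + 1 else y i) = x := by
  change x ∈ insert (hp ε F) (F.pts.image (ho ε)) ↔ _
  rw [Finset.mem_insert, Finset.mem_image]
  rfl

end hom

theorem hom_false (F : M q) : F.hom (fun _ => false) = F * tau q := by
  apply ext
  ext x
  rw [mem_hom, mem_mul]
  simp only [Bool.false_eq_true, if_false, tau_pts, Finset.mem_singleton, exists_eq_left]
  constructor
  · rintro (h | ⟨y, hy, rfl⟩)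
    · right; rw [h]; funext i; simp
    · left; exact hy
  · rintro (h | h)
    · right; exact ⟨x, h, rfl⟩
    · left; rw [← h]; funext i; simp

theorem hom_true (F : M q) : F.hom (fun _ => true) = tau q * F := by
  apply ext
  ext x
  rw [mem_hom, mem_mul]
  simp only [if_true, tau_pts, Finset.mem_singleton, deg_tau]
  rfl

theorem map_hom (θ : Fin (p + 1) → Fin (q + 1)) (ε : Fin (q + 1) → Bool) (F : M q) :
    (F.hom ε).map θ = (F.map θ).hom (ε ∘ θ) := by
  apply ext
  ext x
  rw [mem_map, mem_hom]
  simp only [mem_hom, deg_map, Function.comp_apply]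
  constructor
  · rintro ⟨y, (rfl | ⟨z, hz, rfl⟩), rfl⟩
    · left; rfl
    · right; exact ⟨z ∘ θ, mem_map.2 ⟨z, hz, rfl⟩, rfl⟩
  · rintro (rfl | ⟨y, hy, rfl⟩)
    · exact ⟨_, Or.inl rfl, rfl⟩
    · obtain ⟨z, hz, rfl⟩ := mem_map.1 hy
      exact ⟨_, Or.inr ⟨z, hz, rfl⟩, rfl⟩

end M

end Vale.Agent.P263.G
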