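import Vale.Agent.P263.E.Simp
import Vale.Agent.P263.S.LES
import Vale.Agent.P263.S.Htpy
import Vale.Agent.P263.E.Triple
import Mathlib.Tactic.Ring

/-! # P263, part G: the simplicial sphere `Δⁿ / ∂Δⁿ` and its cohomology

* `SP n : SS`, simplices: `none` (base point) and the surjective maps `[q] → [n]`;
* `SP.Z_le_Bd` : `H^j = 0` for `0 < j`, `j ≠ n`;
* `SP.mem_Bd_iff` : a cocycle `f` of degree `n > 0` is a coboundary iff `f ι = f *`;
* `SP.exists_cocycle` : all values of `f ι - f *` occur;
* `SP.toX` : the map `SP n → X` given by a simplex whose faces are base points.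
-/

set_option linter.unusedVariables false

namespace Vale.Agent.P263.G

open S E

/-! ### relative cochains of the standard simplex -/

/-- surjectivity of a monotone map -/
def Onto {q n : ℕ} (σ : Op q n) : Prop := ∀ i : Fin (n + 1), ∃ x, σ x = i

/-- the image contains all elements except possibly `0` -/
def Onto1 {q n : ℕ} (σ : Op q n) : Prop := ∀ i : Fin (n + 1), i ≠ 0 → ∃ x, σ x = i

theorem Onto.of_comp {p q n : ℕ} {σ : Op q n} {f : Op p q} (h : Onto (σ.comp f)) : Onto σ :=
  fun i => let ⟨x, hx⟩ := h i; ⟨f x, hx⟩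

theorem Onto1.of_comp {p q n : ℕ} {σ : Op q n} {f : Op p q} (h : Onto1 (σ.comp f)) : Onto1 σ :=
  fun i hi => let ⟨x, hx⟩ := h i hi; ⟨f x, hx⟩

theorem Onto.onto1 {q n : ℕ} {σ : Op q n} (h : Onto σ) : Onto1 σ := fun i _ => h i

variable (R : Type) [CommRing R]

/-- functions on the simplices of the standard simplex vanishing outside `P` -/
def CP (n : ℕ) (P : ∀ q, Op q n → Prop)
    (hP : ∀ {p q : ℕ} (σ : Op q n) (f : Op p q), P p (σ.comp f) → P q σ) : CosMod R where
  obj q := ({ carrier := {f : Op q n → R | ∀ σ, ¬ P q σ → f σ = 0}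
              add_mem' := fun {a b} ha hb σ hσ => by
                simp only [Set.mem_ofPred_eq] at ha hb
                rw [Pi.add_apply, ha σ hσ, hb σ hσ, add_zero]
              zero_mem' := fun σ _ => rfl
              smul_mem' := fun r a ha σ hσ => by
                simp only [Set.mem_ofPred_eq] at ha
                rw [Pi.smul_apply, ha σ hσ, smul_zero] } : Submodule R (Op q n → R))
  map f :=
    { toFun := fun c => ⟨fun σ => c.1 (σ.comp f), fun σ hσ => c.2 _ fun h => hσ (hP _ _ h)⟩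
      map_add' := fun _ _ => rfl
      map_smul' := fun _ _ => rfl }
  map_id := rfl
  map_comp _ _ := rfl

/-- relative cochains of `(Δⁿ, ∂Δⁿ)` -/
abbrev CC (n : ℕ) : CosMod R := CP R n (fun _ σ => Onto σ) (fun _ _ h => h.of_comp)

/-- relative cochains of `(Δⁿ, Λⁿ)` -/
abbrev NN (n : ℕ) : CosMod R := CP R n (fun _ σ => Onto1 σ) (fun _ _ h => h.of_comp)

variable {R}

theorem CP_map {n : ℕ} {P : ∀ q, Op q n → Prop} {hP} {p q : ℕ} (f : Op p q)
    (c : (CP R n P hP).obj p) (σ : Op q n) : ((CP R n P hP).map f c).1 σ = c.1 (σ.comp f) := rfl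

theorem CP_d {n : ℕ} {P : ∀ q, Op q n → Prop} {hP} {p : ℕ}
    (c : (CP R n P hP).obj p) (σ : Op (p + 1) n) :
    ((CP R n P hP).d p c).1 σ = ∑ i ∈ Finset.range (p + 2), sn i (c.1 (σ.comp (dl p i))) := by
  rw [CosMod.d_apply]
  let ev : (CP R n P hP).obj (p + 1) →+ R :=
    { toFun := fun c => c.1 σ, map_zero' := rfl, map_add' := fun _ _ => rfl }
  change ev (∑ i ∈ Finset.range (p + 2), sn i ((CP R n P hP).map (dl p i) c)) = _
  rw [map_sum]
  refine Finset.sum_congr rfl fun i _ => ?_
  rw [CosMod.sn_map]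
  rfl

/-! ### contractibility of `NN` -/

/-- `σ` replaced by `0` where `θ = 0` -/
def cut {q n : ℕ} (θ : Op q 1) (σ : Op q n) : Op q n where
  toFun x := if θ x = 0 then 0 else σ x
  monotone' x y h := by
    have h1 := θ.monotone h
    show (if θ x = 0 then 0 else σ x) ≤ (if θ y = 0 then 0 else σ y)
    split_ifs with h2 h3 h3
    · exact le_rfl
    · exact Fin.zero_le _
    · exfalso
      rw [h3] at h1
      exact h2 (Fin.le_zero_iff.1 h1)
    · exact σ.monotone h

theorem cut_apply {q n : ℕ} (θ : Op q 1) (σ : Op q n) (x : Fin (q + 1)) :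
    cut θ σ x = if θ x = 0 then 0 else σ x := rfl

theorem cut_onto1 {q n : ℕ} {θ : Op q 1} {σ : Op q n} (h : Onto1 (cut θ σ)) : Onto1 σ := by
  intro i hi
  obtain ⟨x, hx⟩ := h i hi
  rw [cut_apply] at hx
  split_ifs at hx with h1
  · exact absurd hx.symm hi
  · exact ⟨x, hx⟩

/-- the contraction of `NN` -/
def NNprism (n : ℕ) : Prism (NN R (n + 1)) (NN R (n + 1)) where
  h q θ :=
    { toFun := fun f => ⟨fun σ => f.1 (cut θ σ), fun σ hσ => f.2 _ fun h => hσ (cut_onto1 h)⟩
      map_add' := fun _ _ => rfl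
      map_smul' := fun _ _ => rfl }
  nat α θ f := by
    apply Subtype.ext
    funext σ
    rfl

theorem NN_Z_le_Bd (n p : ℕ) : (NN R (n + 1)).Z p ≤ (NN R (n + 1)).Bd p := by
  apply CosMod.Z_le_Bd_of_prism (NNprism n)
  · intro p f
    apply Subtype.ext
    funext σ
    change f.1 (cut (c1 p) σ) = f.1 σ
    have e : cut (c1 p) σ = σ := by
      apply OrderHom.ext
      funext x
      rw [cut_apply, c1_val, if_neg (by decide)]
    rw [e]
  · intro p f
    apply Subtype.ext
    funext σ
    change f.1 (cut (c0 p) σ) = 0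
    apply f.2
    intro h
    obtain ⟨x, hx⟩ := h 1 (by simp)
    rw [cut_apply, c0_val, if_pos rfl] at hx
    exact absurd hx (by simp)

/-! ### the exact sequence -/

theorem sg0_dl0 (n : ℕ) : (sg n 0).comp (dl n 0) = OrderHom.id := by
  ext x
  have := x.2
  simp only [OrderHom.comp_coe, Function.comp, dl_val, sg_val, OrderHom.id_coe, id]
  split_ifs <;> omega

theorem dl0_ne_zero {n : ℕ} (x : Fin (n + 1)) : dl n 0 x ≠ 0 := by
  intro h
  have := congrArg Fin.val h
  rw [dl_val] at this
  simp at this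

theorem dl0_sg0 {q n : ℕ} {σ : Op q (n + 1)} (h : ∀ x, σ x ≠ 0) :
    (dl n 0).comp ((sg n 0).comp σ) = σ := by
  apply OrderHom.ext
  funext x
  apply Fin.ext
  have h1 : (σ x).1 ≠ 0 := fun h2 => h x (Fin.ext h2)
  have h3 := (σ x).2
  simp only [OrderHom.comp_coe, Function.comp, dl_val, sg_val]
  split_ifs <;> omega

theorem onto1_dl0 {q n : ℕ} {τ : Op q n} (h : Onto1 ((dl n 0).comp τ)) : Onto τ := by
  intro i
  obtain ⟨x, hx⟩ := h (dl n 0 i) (dl0_ne_zero i)
  refine ⟨x, ?_⟩
  have h2 := congrArg (sg n 0) hx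
  have h3 : ∀ y, sg n 0 (dl n 0 y) = y := fun y => congrArg (fun f : Op n n => f y) (sg0_dl0 n)
  change sg n 0 (dl n 0 (τ x)) = _ at h2
  rwa [h3, h3] at h2

theorem onto_sg0 {q n : ℕ} {σ : Op q (n + 1)} (h0 : ∀ x, σ x ≠ 0)
    (h : Onto ((sg n 0).comp σ)) : Onto1 σ := by
  intro i hi
  obtain ⟨x, hx⟩ := h (sg n 0 i)
  refine ⟨x, ?_⟩
  have h2 := congrArg (dl n 0) hx
  have e := congrArg (fun f : Op q (n + 1) => f x) (dl0_sg0 h0)
  change dl n 0 (sg n 0 (σ x)) = σ x at e
  change dl n 0 (sg n 0 (σ x)) = _ at h2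
  rw [e] at h2
  rw [h2]
  apply Fin.ext
  have h1 : i.1 ≠ 0 := fun h2 => hi (Fin.ext h2)
  have h3 := i.2
  simp only [dl_val, sg_val]
  split_ifs <;> omega

theorem onto_of_onto1 {q n : ℕ} {σ : Op q n} (h1 : Onto1 σ) {x : Fin (q + 1)} (hx : σ x = 0) :
    Onto σ := by
  intro i
  by_cases hi : i = 0
  · exact ⟨x, by rw [hx, hi]⟩
  · exact h1 i hi

/-- restriction to the zeroth face -/
def resF (R : Type) [CommRing R] (n : ℕ) : Hom (NN R (n + 1)) (CC R n) where
  app q :=
    { toFun := fun f => ⟨fun τ => f.1 ((dl n 0).comp τ), fun τ hτ => f.2 _ fun h =>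
        hτ (onto1_dl0 h)⟩
      map_add' := fun _ _ => rfl
      map_smul' := fun _ _ => rfl }
  nat f c := rfl

/-- inclusion -/
def incF (R : Type) [CommRing R] (n : ℕ) : Hom (CC R n) (NN R n) where
  app q :=
    { toFun := fun f => ⟨f.1, fun τ hτ => f.2 _ fun h => hτ h.onto1⟩
      map_add' := fun _ _ => rfl
      map_smul' := fun _ _ => rfl }
  nat f c := rfl

/-- the exact sequence of `∂Δ ⊃ Λ` -/
noncomputable def sesF (R : Type) [CommRing R] (n : ℕ) :
    SES (CC R (n + 1)) (NN R (n + 1)) (CC R n) where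
  i := incF R (n + 1)
  p := resF R n
  inj q f g h := Subtype.ext (congrArg (fun c : (NN R (n + 1)).obj q => c.1) h)
  surj q g := by
    classical
    refine ⟨⟨fun σ => if ∀ x, σ x ≠ 0 then g.1 ((sg n 0).comp σ) else 0, ?_⟩, ?_⟩
    · intro σ hσ
      show (if ∀ x, σ x ≠ 0 then g.1 ((sg n 0).comp σ) else 0) = 0
      split_ifs with h0
      · exact g.2 _ fun h => hσ (onto_sg0 h0 h)
      · rfl
    · apply Subtype.ext
      funext τ
      show (if ∀ x, ((dl n 0).comp τ) x ≠ 0 then g.1 ((sg n 0).comp ((dl n 0).comp τ)) else 0) =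
        g.1 τ
      refine (if_pos fun x => dl0_ne_zero _).trans ?_
      have e : (sg n 0).comp ((dl n 0).comp τ) = τ := by
        apply OrderHom.ext
        funext x
        exact congrArg (fun f : Op n n => f (τ x)) (sg0_dl0 n)
      rw [e]
  pi q f := by
    apply Subtype.ext
    funext τ
    show f.1 ((dl n 0).comp τ) = 0
    apply f.2
    intro h
    obtain ⟨x, hx⟩ := h 0
    exact dl0_ne_zero _ hx
  ex q f hf := by
    refine ⟨⟨f.1, fun σ hσ => ?_⟩, rfl⟩
    by_cases h1 : Onto1 σ
    · have h0 : ∀ x, σ x ≠ 0 := fun x hx => hσ (onto_of_onto1 h1 hx)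
      have := congrArg (fun c : (CC R n).obj q => c.1 ((sg n 0).comp σ)) hf
      change f.1 ((dl n 0).comp ((sg n 0).comp σ)) = 0 at this
      rwa [dl0_sg0 h0] at this
    · exact f.2 _ h1

/-! ### the cohomology of `CC` -/

theorem CC_obj_zero {q n : ℕ} (h : q < n) (f : (CC R n).obj q) : f = 0 := by
  apply Subtype.ext
  funext σ
  show f.1 σ = 0
  apply f.2
  intro ho
  have : n + 1 ≤ q + 1 := by
    have h2 : Function.Surjective σ := ho
    simpa using Fintype.card_le_of_surjective σ h2
  omega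

theorem sum_sn (p : ℕ) (r : R) :
    ∑ i ∈ Finset.range p, sn i r = if Even p then 0 else r := by
  induction p with
  | zero => simp
  | succ p ih =>
    rw [Finset.sum_range_succ, ih]
    by_cases h : Even p
    · rw [if_pos h, if_neg (by rw [Nat.even_add_one]; exact fun h' => h' h), zero_add, sn,
        h.neg_one_pow, one_smul]
    · rw [if_neg h, if_pos (by rw [Nat.even_add_one]; exact h), sn,
        (Nat.not_even_iff_odd.1 h).neg_one_pow]
      simp

theorem CC_zero_Z_le_Bd (p : ℕ) : (CC R 0).Z (p + 1) ≤ (CC R 0).Bd (p + 1) := by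
  intro f hf
  rw [CosMod.mem_Z] at hf
  rw [CosMod.mem_Bd_succ]
  have hs : ∀ (q : ℕ) (σ τ : Op q 0), σ = τ := by
    intro q σ τ
    apply OrderHom.ext
    funext x
    exact Subsingleton.elim (α := Fin 1) _ _
  have hd : ∀ (q : ℕ) (c : (CC R 0).obj q) (σ : Op (q + 1) 0) (σ' : Op q 0),
      ((CC R 0).d q c).1 σ = if Even q then 0 else c.1 σ' := by
    intro q c σ σ'
    rw [CP_d]
    have : ∀ i ∈ Finset.range (q + 2), sn i (c.1 (σ.comp (dl q i))) = sn i (c.1 σ') :=
      fun i _ => by rw [hs _ (σ.comp (dl q i)) σ']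
    rw [Finset.sum_congr rfl this, sum_sn]
    have e : Even (q + 2) ↔ Even q := by
      rw [Nat.even_add]
      simp
    simp only [e]
  by_cases hp : Even p
  · refine ⟨0, ?_⟩
    rw [map_zero]
    apply Subtype.ext
    funext σ
    show 0 = f.1 σ
    have h1 := congrArg (fun c : (CC R 0).obj (p + 2) => c.1 (σ.comp (sg (p + 1) 0))) hf
    change ((CC R 0).d (p + 1) f).1 _ = 0 at h1
    rw [hd (p + 1) f _ σ, if_neg (by rw [Nat.even_add_one]; exact fun h' => h' hp)] at h1
    exact h1.symm
  · have hsurj : ∀ (q : ℕ) (σ : Op q 0), Onto σ := fun q σ i =>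
      ⟨0, Subsingleton.elim (α := Fin 1) _ _⟩
    refine ⟨⟨fun σ => f.1 (σ.comp (sg p 0)), fun σ hσ => absurd (hsurj _ σ) hσ⟩, ?_⟩
    apply Subtype.ext
    funext σ
    refine (hd p _ σ (σ.comp (dl p 0))).trans ?_
    rw [if_neg hp]
    exact congrArg f.1 (hs _ _ σ)

/-- `H^j(Δⁿ, ∂Δⁿ) = 0` for `j ≠ n`. -/
theorem CC_Z_le_Bd {n j : ℕ} (h : j ≠ n) : (CC R n).Z j ≤ (CC R n).Bd j := by
  rcases Nat.lt_or_ge j n with h1 | h1
  · intro f _
    rw [CC_obj_zero h1 f]
    exact zero_mem _
  · induction n generalizing j with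
    | zero =>
      obtain ⟨p, rfl⟩ : ∃ p, j = p + 1 := ⟨j - 1, by omega⟩
      exact CC_zero_Z_le_Bd p
    | succ n ih =>
      obtain ⟨p, rfl⟩ : ∃ p, j = p + 1 := ⟨j - 1, by omega⟩
      have h2 := ih (j := p) (by omega) (by omega)
      rw [← CosMod.H_eq_zero_iff] at h2 ⊢
      intro x
      have h3 := (sesF R n).conn_bijective p (CosMod.H_eq_zero_iff.2 (NN_Z_le_Bd n p))
        (CosMod.H_eq_zero_iff.2 (NN_Z_le_Bd n (p + 1)))
      obtain ⟨y, rfl⟩ := h3.2 x
      rw [h2 y, map_zero]

/-! ### the sphere -/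

section

open Classical

/-- the simplicial operators of the sphere on surjective maps -/
noncomputable def spm {n p q : ℕ} (f : Op p q) (σ : {σ : Op q n // Onto σ}) :
    Option {σ : Op p n // Onto σ} :=
  if h : Onto (σ.1.comp f) then some ⟨σ.1.comp f, h⟩ else none

theorem spm_pos {n p q : ℕ} {f : Op p q} {σ : {σ : Op q n // Onto σ}} (h : Onto (σ.1.comp f)) :
    spm f σ = some ⟨σ.1.comp f, h⟩ := dif_pos h

theorem spm_neg {n p q : ℕ} {f : Op p q} {σ : {σ : Op q n // Onto σ}} (h : ¬ Onto (σ.1.comp f)) :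
    spm f σ = none := dif_neg h

/-- the simplicial sphere `Δⁿ / ∂Δⁿ` -/
noncomputable def SP (n : ℕ) : SS where
  obj q := Option {σ : Op q n // Onto σ}
  map {p q} f x := x.elim none (spm f)
  map_id {p} x := by
    cases x with
    | none => rfl
    | some σ => exact spm_pos (f := OrderHom.id) σ.2
  map_comp {p q r} f g x := by
    cases x with
    | none => rfl
    | some σ =>
      show spm (f.comp g) σ = Option.elim (spm f σ) none (spm g)
      by_cases h1 : Onto (σ.1.comp (f.comp g))
      · have h2 : Onto (σ.1.comp f) := Onto.of_comp (f := g) h1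
        rw [spm_pos h1, spm_pos h2]
        exact (spm_pos (σ := ⟨σ.1.comp f, h2⟩) (f := g) h1).symm
      · rw [spm_neg h1]
        by_cases h2 : Onto (σ.1.comp f)
        · rw [spm_pos h2]
          exact (spm_neg (σ := ⟨σ.1.comp f, h2⟩) (f := g) h1).symm
        · rw [spm_neg h2]
          rfl

end

namespace SP

variable {n : ℕ}

/-- the base point -/
def pt (n q : ℕ) : (SP n).obj q := none

/-- the simplices -/
noncomputable def sx {q : ℕ} (σ : Op q n) : (SP n).obj q :=
  open Classical in if h : Onto σ then some ⟨σ, h⟩ else none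

theorem sx_of_onto {q : ℕ} {σ : Op q n} (h : Onto σ) : sx σ = some ⟨σ, h⟩ := dif_pos h

theorem sx_of_not {q : ℕ} {σ : Op q n} (h : ¬ Onto σ) : sx σ = pt n q := dif_neg h

@[simp] theorem map_pt {p q : ℕ} (f : Op p q) : (SP n).map f (pt n q) = pt n p := rfl

theorem map_sx {p q : ℕ} (f : Op p q) (σ : Op q n) : (SP n).map f (sx σ) = sx (σ.comp f) := by
  by_cases h : Onto σ
  · rw [sx_of_onto h]
    rfl
  · rw [sx_of_not h, sx_of_not (σ := σ.comp f) fun h' => h h'.of_comp]
    rfl

theorem cases {q : ℕ} (x : (SP n).obj q) : x = pt n q ∨ ∃ σ : Op q n, Onto σ ∧ x = sx σ := by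
  cases x with
  | none => exact Or.inl rfl
  | some σ => exact Or.inr ⟨σ.1, σ.2, (sx_of_onto σ.2).symm⟩

theorem onto_id : Onto (OrderHom.id : Op n n) := fun i => ⟨i, rfl⟩

/-- the fundamental simplex -/
noncomputable def io (n : ℕ) : (SP n).obj n := sx OrderHom.id

theorem not_onto_of_lt {q : ℕ} (h : q < n) (σ : Op q n) : ¬ Onto σ := by
  intro ho
  have : n + 1 ≤ q + 1 := by
    have h2 : Function.Surjective σ := ho
    simpa using Fintype.card_le_of_surjective σ h2
  omega

theorem onto_self {σ : Op n n} (h : Onto σ) : σ = OrderHom.id := by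
  have h1 : Function.Bijective σ := (Finite.injective_iff_bijective.1
    (Finite.injective_iff_surjective.2 h))
  have h2 : StrictMono σ := σ.monotone.strictMono_of_injective h1.1
  apply OrderHom.ext
  funext x
  have h3 : (σ : Fin (n + 1) → Fin (n + 1)) = id := by
    apply (StrictMono.range_inj h2 strictMono_id).1
    rw [h1.2.range_eq, Set.range_id]
  exact congrFun h3 x

theorem face_io (i : ℕ) : (SP (n + 1)).map (dl n i) (io (n + 1)) = pt (n + 1) n := by
  rw [io, map_sx]
  exact sx_of_not (not_onto_of_lt (Nat.lt_succ_self n) _)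

/-- the reduced part of a function -/
noncomputable def red (R : Type) [CommRing R] (n : ℕ) : Hom (SS.F R (SP n)) (CC R n) where
  app q :=
    { toFun := fun f => ⟨fun σ => f (sx σ) - f (pt n q), fun σ hσ => by
        have hσ' : ¬ Onto σ := hσ
        show f (sx σ) - f (pt n q) = 0
        rw [sx_of_not hσ']
        exact sub_self _⟩
      map_add' := fun f g => by
        apply Subtype.ext
        funext σ
        show (f (sx σ) + g (sx σ)) - (f (pt n q) + g (pt n q)) =
          (f (sx σ) - f (pt n q)) + (g (sx σ) - g (pt n q))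
        ring
      map_smul' := fun r f => by
        apply Subtype.ext
        funext σ
        show r * f (sx σ) - r * f (pt n q) = r * (f (sx σ) - f (pt n q))
        ring }
  nat {p q} α f := by
    apply Subtype.ext
    funext σ
    show f ((SP n).map α (sx σ)) - f ((SP n).map α (pt n q)) = f (sx (σ.comp α)) - f (pt n p)
    rw [map_sx, map_pt]

/-- functions on the sphere from relative cochains -/
def ext (R : Type) [CommRing R] (n : ℕ) : Hom (CC R n) (SS.F R (SP n)) where
  app q :=
    { toFun := fun c x => x.elim 0 fun σ => c.1 σ.1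
      map_add' := fun f g => by
        funext x
        cases x with
        | none => exact (add_zero 0).symm
        | some σ => rfl
      map_smul' := fun r f => by
        funext x
        cases x with
        | none => exact (mul_zero r).symm
        | some σ => rfl }
  nat {p q} α c := by
    funext x
    rcases cases x with rfl | ⟨σ, hσ, rfl⟩
    · rfl
    · rw [SS.F_map, map_sx, sx_of_onto hσ]
      by_cases h : Onto (σ.comp α)
      · rw [sx_of_onto h]
        rfl
      · rw [sx_of_not h]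
        exact c.2 _ h

theorem ext_pt (q : ℕ) (c : (CC R n).obj q) : (ext R n).app q c (pt n q) = 0 := rfl

theorem ext_sx (q : ℕ) (c : (CC R n).obj q) (σ : Op q n) :
    (ext R n).app q c (sx σ) = c.1 σ := by
  by_cases h : Onto σ
  · rw [sx_of_onto h]; rfl
  · rw [sx_of_not h]
    exact (c.2 _ h).symm

/-- a function is its reduced part plus a constant -/
theorem decomp (q : ℕ) (f : (SS.F R (SP n)).obj q) :
    f = (ext R n).app q ((red R n).app q f) + (cstF R (SP n)).app q (f (pt n q) : R) := by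
  funext x
  show f x = (ext R n).app q ((red R n).app q f) x + f (pt n q)
  rcases cases x with rfl | ⟨σ, hσ, rfl⟩
  · rw [ext_pt, zero_add]
  · rw [ext_sx]
    show f (sx σ) = f (sx σ) - f (pt n q) + f (pt n q)
    ring

theorem mem_Bd_of_red {j : ℕ} {f : (SS.F R (SP n)).obj (j + 1)}
    (hf : f ∈ (SS.F R (SP n)).Z (j + 1))
    (h : (red R n).app (j + 1) f ∈ (CC R n).Bd (j + 1)) : f ∈ (SS.F R (SP n)).Bd (j + 1) := by
  have h1 : (ext R n).app (j + 1) ((red R n).app (j + 1) f) ∈ (SS.F R (SP n)).Bd (j + 1) :=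
    (ext R n).app_mem_Bd h
  have h2 : (cstF R (SP n)).app (j + 1) (f (pt n (j + 1)) : R) ∈ (SS.F R (SP n)).Z (j + 1) := by
    have e : (cstF R (SP n)).app (j + 1) (f (pt n (j + 1)) : R) =
        f - (ext R n).app (j + 1) ((red R n).app (j + 1) f) :=
      eq_sub_of_add_eq' (decomp (j + 1) f).symm
    rw [e]
    exact sub_mem hf ((SS.F R (SP n)).Bd_le_Z _ h1)
  have h3 : (cst R).d (j + 1) (f (pt n (j + 1)) : R) = 0 := by
    have h5 : (cstF R (SP n)).app (j + 2) ((cst R).d (j + 1) (f (pt n (j + 1)) : R)) = 0 :=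
      ((cstF R (SP n)).app_d _ _).trans (CosMod.mem_Z.1 h2)
    exact congrFun h5 (pt n (j + 2))
  have h4 : (f (pt n (j + 1)) : R) ∈ (cst R).Bd (j + 1) :=
    CosMod.H_eq_zero_iff.1 (cst_H (R := R) (j + 1) (Nat.succ_pos j)) h3
  rw [decomp (j + 1) f]
  exact add_mem h1 ((cstF R (SP n)).app_mem_Bd h4)

/-- `H^j (Δⁿ / ∂Δⁿ) = 0` for `0 < j`, `j ≠ n` -/
theorem Z_le_Bd {j : ℕ} (hj : j + 1 ≠ n) :
    (SS.F R (SP n)).Z (j + 1) ≤ (SS.F R (SP n)).Bd (j + 1) := by
  intro f hf
  exact mem_Bd_of_red hf (CC_Z_le_Bd hj ((red R n).app_mem_Z hf))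

theorem obj_eq {q : ℕ} (h : q < n) (x : (SP n).obj q) : x = pt n q := by
  rcases cases x with rfl | ⟨σ, hσ, rfl⟩
  · rfl
  · exact absurd hσ (not_onto_of_lt h σ)

/-- a cocycle of degree `n` is a coboundary iff it takes the same value on the fundamental
simplex and on the base point -/
theorem mem_Bd_iff {m : ℕ} {f : (SS.F R (SP (m + 1))).obj (m + 1)}
    (hf : f ∈ (SS.F R (SP (m + 1))).Z (m + 1)) :
    f ∈ (SS.F R (SP (m + 1))).Bd (m + 1) ↔ f (io (m + 1)) = f (pt (m + 1) (m + 1)) := by
  constructor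
  · rintro ⟨g, rfl⟩
    rw [SS.F_d, SS.F_d]
    refine Finset.sum_congr rfl fun i _ => ?_
    rw [face_io, map_pt]
  · intro h
    apply mem_Bd_of_red hf
    have : (red R (m + 1)).app (m + 1) f = 0 := by
      apply Subtype.ext
      funext σ
      show f (sx σ) - f (pt (m + 1) (m + 1)) = 0
      by_cases hσ : Onto σ
      · rw [onto_self hσ]
        exact sub_eq_zero.2 h
      · rw [sx_of_not hσ]
        exact sub_self _
    rw [this]
    exact zero_mem _

/-- the fundamental cocycle -/
noncomputable def fc (R : Type) [CommRing R] (n : ℕ) (r : R) : (CC R n).obj n :=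
  ⟨fun σ => open Classical in if Onto σ then r else 0, fun σ hσ => if_neg hσ⟩

theorem fc_onto {r : R} {σ : Op n n} (h : Onto σ) : (fc R n r).1 σ = r := if_pos h

theorem fc_not {r : R} {σ : Op n n} (h : ¬ Onto σ) : (fc R n r).1 σ = 0 := if_neg h

/-- a surjective map `[n+1] → [n]` has exactly one pair of equal consecutive values -/
theorem exists_step {σ : Op (n + 1) n} (h : Onto σ) :
    ∃ j, j ≤ n ∧ ∀ x : Fin (n + 2), (σ x).1 = if x.1 ≤ j then x.1 else x.1 - 1 := by
  classical
  have hv : ∀ x y : Fin (n + 2), x.1 ≤ y.1 → (σ x).1 ≤ (σ y).1 := fun x y hxy =>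
    Fin.le_def.1 (σ.monotone (Fin.le_def.2 hxy))
  -- consecutive values differ by at most one
  have hstep : ∀ k : ℕ, (hk : k + 1 < n + 2) →
      (σ ⟨k + 1, hk⟩).1 ≤ (σ ⟨k, by omega⟩).1 + 1 := by
    intro k hk
    by_contra hc
    obtain ⟨x, hx⟩ := h ⟨(σ ⟨k, by omega⟩).1 + 1, by have := (σ ⟨k + 1, hk⟩).2; omega⟩
    have hx' : (σ x).1 = (σ ⟨k, by omega⟩).1 + 1 := congrArg Fin.val hx
    rcases Nat.lt_or_ge k x.1 with h1 | h1
    · have := hv ⟨k + 1, hk⟩ x h1
      omega
    · have := hv x ⟨k, by omega⟩ h1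
      omega
  have h0 : (σ 0).1 = 0 := by
    obtain ⟨x, hx⟩ := h 0
    have := hv 0 x (Nat.zero_le _)
    rw [hx] at this
    simpa using this
  have hle : ∀ k : ℕ, (hk : k < n + 2) → (σ ⟨k, hk⟩).1 ≤ k := by
    intro k
    induction k with
    | zero => intro hk; exact (le_of_eq h0)
    | succ k ih => intro hk; have := ih (by omega); have := hstep k hk; omega
  have hlast : (σ ⟨n + 1, by omega⟩).1 = n := by
    obtain ⟨x, hx⟩ := h ⟨n, by omega⟩
    have h1 := hv x ⟨n + 1, by omega⟩ (by
      have := x.2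
      show x.1 ≤ n + 1
      omega)
    rw [hx] at h1
    have := (σ ⟨n + 1, by omega⟩).2
    simp only at h1
    omega
  have hge : ∀ k : ℕ, (hk : k < n + 2) → k ≤ (σ ⟨k, hk⟩).1 + 1 := by
    intro k hk
    obtain ⟨l, hl⟩ : ∃ l, k + l = n + 1 := ⟨n + 1 - k, by omega⟩
    induction l generalizing k with
    | zero =>
      have e : k = n + 1 := by omega
      subst e
      rw [hlast]
    | succ l ih =>
      have h1 := ih (k + 1) (by omega) (by omega)
      have h2 := hstep k (by omega)
      omega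
  -- the first index where the value drops
  let P : ℕ → Prop := fun k => ∃ hk : k < n + 2, (σ ⟨k, hk⟩).1 < k
  have hP : ∃ k, P k := ⟨n + 1, by omega, by rw [hlast]; omega⟩
  obtain ⟨hk, hkv⟩ := Nat.find_spec hP
  have hpos : 0 < Nat.find hP := by
    rcases Nat.eq_zero_or_pos (Nat.find hP) with h1 | h1
    · omega
    · exact h1
  refine ⟨Nat.find hP - 1, by omega, fun x => ?_⟩
  split_ifs with hx
  · have h1 : ¬ P x.1 := Nat.find_min hP (by omega)
    have h2 := hle x.1 x.2
    by_contra hc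
    exact h1 ⟨x.2, by
      change (σ x).1 ≤ x.1 at h2
      change (σ x).1 < x.1
      omega⟩
  · -- after the drop
    have key : ∀ l : ℕ, (hl : Nat.find hP + l < n + 2) →
        (σ ⟨Nat.find hP + l, hl⟩).1 < Nat.find hP + l := by
      intro l
      induction l with
      | zero => intro _; exact hkv
      | succ l ih =>
        intro hl
        have h1 := ih (by omega)
        have h2 := hstep (Nat.find hP + l) (by omega)
        have h3 : Nat.find hP + l + 1 = Nat.find hP + (l + 1) := by omega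
        simp only [h3] at h2
        omega
    have h1 := key (x.1 - Nat.find hP) (by have := x.2; omega)
    have h2 : Nat.find hP + (x.1 - Nat.find hP) = x.1 := by omega
    simp only [h2] at h1
    have h3 := hge x.1 x.2
    change (σ x).1 < x.1 at h1
    change x.1 ≤ (σ x).1 + 1 at h3
    omega

theorem fc_mem_Z (r : R) : fc R n r ∈ (CC R n).Z n := by
  rw [CosMod.mem_Z]
  apply Subtype.ext
  funext σ
  refine (CP_d _ _).trans ?_
  show _ = (0 : R)
  by_cases h : Onto σ
  · obtain ⟨j, hj, hσ⟩ := exists_step h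
    have h1 : ∀ i ∈ Finset.range (n + 2), sn i ((fc R n r).1 (σ.comp (dl n i))) =
        (if i = j then sn j r else 0) + (if i = j + 1 then sn (j + 1) r else 0) := by
      intro i hi
      have hi' := Finset.mem_range.1 hi
      by_cases h2 : i = j ∨ i = j + 1
      · have ho : Onto (σ.comp (dl n i)) := by
          have : σ.comp (dl n i) = OrderHom.id := by
            apply OrderHom.ext
            funext x
            apply Fin.ext
            show (σ (dl n i x)).1 = x.1
            rw [hσ, dl_val]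
            split_ifs <;> omega
          rw [this]
          exact onto_id
        rw [fc_onto ho]
        rcases h2 with rfl | rfl
        · rw [if_pos rfl, if_neg (by omega), add_zero]
        · rw [if_neg (by omega), if_pos rfl, zero_add]
      · rw [not_or] at h2
        have ho : ¬ Onto (σ.comp (dl n i)) := by
          intro ho
          have h3 := onto_self ho
          have h4 : ∀ x : Fin (n + 1), (σ (dl n i x)).1 = x.1 := fun x =>
            congrArg (fun f : Op n n => (f x).1) h3
          rcases Nat.lt_or_ge i j with h5 | h5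
          · have h6 := h4 ⟨i, by omega⟩
            rw [hσ, dl_val] at h6
            simp only [lt_self_iff_false, if_false] at h6
            split_ifs at h6 <;> omega
          · have h6 := h4 ⟨i - 1, by omega⟩
            rw [hσ, dl_val] at h6
            simp only at h6
            split_ifs at h6 <;> omega
        rw [fc_not ho, if_neg h2.1, if_neg h2.2, add_zero, sn, smul_zero]
    rw [Finset.sum_congr rfl h1, Finset.sum_add_distrib, Finset.sum_ite_eq', Finset.sum_ite_eq',
      if_pos (Finset.mem_range.2 (by omega)), if_pos (Finset.mem_range.2 (by omega)), sn_succ,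
      add_neg_cancel]
  · refine Finset.sum_eq_zero fun i _ => ?_
    rw [fc_not fun h' => h h'.of_comp, sn, smul_zero]

/-- all values of `f ι - f *` occur -/
theorem exists_cocycle (m : ℕ) (r : R) : ∃ f ∈ (SS.F R (SP (m + 1))).Z (m + 1),
    (f (io (m + 1)) : R) - f (pt (m + 1) (m + 1)) = r := by
  refine ⟨_, (ext R (m + 1)).app_mem_Z (fc_mem_Z r), ?_⟩
  rw [ext_pt, sub_zero, io, ext_sx, fc_onto onto_id]

variable (R) in
/-- the sphere satisfies the hypotheses of `E/Triple.lean` -/
theorem sphLike (m : ℕ) : SphLike R (SP (m + 1)) (m + 1) where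
  dpos := Nat.succ_pos m
  ne p := ⟨pt (m + 1) p⟩
  zero f _ x y := by
    rw [obj_eq (Nat.succ_pos m) x, obj_eq (Nat.succ_pos m) y]
  low j h1 h2 := by
    obtain ⟨i, rfl⟩ : ∃ i, j = i + 1 := ⟨j - 1, by omega⟩
    exact CosMod.H_eq_zero_iff.2 (Z_le_Bd (by omega))
  top := CosMod.H_eq_zero_iff.2 (Z_le_Bd (by omega))

/-- evaluation on the fundamental class -/
noncomputable def fundZ (R : Type) [CommRing R] (m : ℕ) :
    (SS.F R (SP (m + 1))).Z (m + 1) →ₗ[R] R where
  toFun f := (f.1 (io (m + 1)) : R) - f.1 (pt (m + 1) (m + 1))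
  map_add' f g := by
    show (f.1 (io (m + 1)) + g.1 (io (m + 1)) : R) - (f.1 (pt (m + 1) (m + 1)) +
      g.1 (pt (m + 1) (m + 1))) = _
    ring
  map_smul' r f := by
    show (r * f.1 (io (m + 1)) : R) - r * f.1 (pt (m + 1) (m + 1)) = r * _
    ring

/-- `H^n (Δⁿ / ∂Δⁿ) = R` -/
noncomputable def fundHom (R : Type) [CommRing R] (m : ℕ) :
    (SS.F R (SP (m + 1))).H (m + 1) →ₗ[R] R :=
  CosMod.liftH (fundZ R m) (fun z hz => sub_eq_zero.2 ((mem_Bd_iff z.2).1 hz))

theorem fundHom_cls (m : ℕ) (z : (SS.F R (SP (m + 1))).Z (m + 1)) :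
    fundHom R m ((SS.F R (SP (m + 1))).cls (m + 1) z) =
      (z.1 (io (m + 1)) : R) - z.1 (pt (m + 1) (m + 1)) := rfl

theorem fundHom_bijective (m : ℕ) : Function.Bijective (fundHom R m) := by
  constructor
  · rw [injective_iff_map_eq_zero]
    intro x
    induction x using CosMod.H_ind with
    | h z =>
      intro h
      rw [fundHom_cls] at h
      exact CosMod.cls_eq_zero_iff.2 ((mem_Bd_iff z.2).2 (sub_eq_zero.1 h))
  · intro r
    obtain ⟨f, hf, h⟩ := exists_cocycle m r
    exact ⟨(SS.F R (SP (m + 1))).cls (m + 1) ⟨f, hf⟩, h⟩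

/-- `H^n (Δⁿ / ∂Δⁿ) = R` -/
noncomputable def fund (R : Type) [CommRing R] (m : ℕ) :
    (SS.F R (SP (m + 1))).H (m + 1) ≃ₗ[R] R :=
  LinearEquiv.ofBijective (fundHom R m) (fundHom_bijective m)

@[simp] theorem fund_cls (m : ℕ) (z : (SS.F R (SP (m + 1))).Z (m + 1)) :
    fund R m ((SS.F R (SP (m + 1))).cls (m + 1) z) =
      (z.1 (io (m + 1)) : R) - z.1 (pt (m + 1) (m + 1)) := rfl

/-- the map from the sphere given by a simplex `x`, all of whose faces are base points; `b` is
the base point -/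
noncomputable def toX {X : SS} {m : ℕ} (b : SS.Map SS.pt X) (x : X.obj (m + 1))
    (hx : ∀ (p : ℕ) (σ : Op p (m + 1)), ¬ Onto σ → X.map σ x = b.app (p := p) ()) :
    SS.Map (SP (m + 1)) X where
  app {p} y := y.elim (b.app (p := p) ()) fun σ => X.map σ.1 x
  nat {p q} f y := by
    rcases cases y with rfl | ⟨σ, hσ, rfl⟩
    · exact b.nat f ()
    · rw [map_sx, sx_of_onto hσ]
      show Option.elim (sx (σ.comp f)) (b.app (p := p) ()) (fun σ => X.map σ.1 x) =
        X.map f (X.map σ x)
      rw [← X.map_comp]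
      by_cases h : Onto (σ.comp f)
      · rw [sx_of_onto h]; rfl
      · rw [sx_of_not h]
        exact (hx p _ h).symm

@[simp] theorem toX_pt {X : SS} {m : ℕ} (b : SS.Map SS.pt X) (x : X.obj (m + 1)) (hx) (q : ℕ) :
    (toX b x hx).app (pt (m + 1) q) = b.app () := rfl

@[simp] theorem toX_io {X : SS} {m : ℕ} (b : SS.Map SS.pt X) (x : X.obj (m + 1)) (hx) :
    (toX b x hx).app (io (m + 1)) = x := by
  rw [io, sx_of_onto onto_id]
  exact X.map_id x

/-- the class of a cocycle pulled back to the sphere -/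
theorem fund_toX {X : SS} {m : ℕ} (b : SS.Map SS.pt X) (x : X.obj (m + 1)) (hx)
    (z : (SS.F R X).Z (m + 1)) :
    fund R m (((toX b x hx).pull).mapH (m + 1) ((SS.F R X).cls (m + 1) z)) =
      (z.1 x : R) - z.1 (b.app ()) := by
  rw [Hom.mapH_cls, fund_cls, Hom.coe_mapZ, SS.Map.pull_app, SS.Map.pull_app, toX_io, toX_pt]

end SP

end Vale.Agent.P263.G
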