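import Vale.Agent.P263.G.Free
import Vale.Agent.P263.T0.Dual
import Mathlib.Algebra.Category.Grp.Basic
import Mathlib.GroupTheory.QuotientGroup.Basic

/-! # P263, part G: homotopy groups of simplicial groups, the Hurewicz map, the group `UM`

* for a simplicial group `G` : `cyc G n` (the `(n+1)`-simplices all of whose faces are `1`),
  `bd G n` (null homotopic ones), `Pi G n = π_{n+1} G`, the mod 2 Hurewicz homomorphism
  `hur G n : Additive (π_{n+1} G) →+ H_{n+1}(G; 𝔽₂)` (Mathlib's homology of simplicial sets);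
* `hz_eq_zero_iff` : `h(x) = 0` iff `c x = c 1` for all `𝔽₂`-cocycles `c`;
* `UMG` : the simplicial group `UM`.
-/

open CategoryTheory Simplicial Opposite Limits

namespace Vale.Agent.P263.G

open T0

section Group

variable (G : SimplicialObject GrpCat.{0}) (n : ℕ)

/-- the underlying simplicial set -/
abbrev und : SSet.{0} := G ⋙ forget GrpCat.{0}

/-- the faces -/
def face (i : Fin (n + 2)) : G _⦋n + 1⦌ →* G _⦋n⦌ := (G.δ i).hom

theorem und_δ (i : Fin (n + 2)) (x : G _⦋n + 1⦌) : (und G).δ i x = face G n i x := rfl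

/-- the `(n+1)`-simplices all of whose faces are `1` -/
def cyc : Subgroup (G _⦋n + 1⦌) := ⨅ i, (face G n i).ker

variable {G n} in
theorem mem_cyc {x : G _⦋n + 1⦌} : x ∈ cyc G n ↔ ∀ i, face G n i x = 1 := by
  simp [cyc, Subgroup.mem_iInf, MonoidHom.mem_ker]

/-- the null homotopic `(n+1)`-simplices -/
def nul : Subgroup (G _⦋n + 1⦌) :=
  (⨅ i : Fin (n + 2), (face G (n + 1) i.castSucc).ker).map (face G (n + 1) (Fin.last (n + 2)))

variable {G n} in
theorem mem_nul {x : G _⦋n + 1⦌} : x ∈ nul G n ↔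
    ∃ w : G _⦋n + 2⦌, (∀ i : Fin (n + 2), face G (n + 1) i.castSucc w = 1) ∧
      face G (n + 1) (Fin.last (n + 2)) w = x := by
  simp [nul, Subgroup.mem_map, Subgroup.mem_iInf, MonoidHom.mem_ker]

/-- the degeneracies -/
def dgn (i : Fin (n + 1)) : G _⦋n⦌ →* G _⦋n + 1⦌ := (G.σ i).hom

variable {G n}

theorem face_dgn_self (i : Fin (n + 1)) (x : G _⦋n⦌) : face G n i.castSucc (dgn G n i x) = x :=
  ConcreteCategory.congr_hom (G.δ_comp_σ_self (i := i)) x

theorem face_dgn_succ (i : Fin (n + 1)) (x : G _⦋n⦌) : face G n i.succ (dgn G n i x) = x :=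
  ConcreteCategory.congr_hom (G.δ_comp_σ_succ (i := i)) x

theorem face_dgn_of_le {i : Fin (n + 2)} {j : Fin (n + 1)} (H : i ≤ j.castSucc)
    (x : G _⦋n + 1⦌) :
    face G (n + 1) i.castSucc (dgn G (n + 1) j.succ x) = dgn G n j (face G n i x) :=
  ConcreteCategory.congr_hom (G.δ_comp_σ_of_le H) x

theorem face_dgn_of_gt {i : Fin (n + 2)} {j : Fin (n + 1)} (H : j.castSucc < i)
    (x : G _⦋n + 1⦌) :
    face G (n + 1) i.succ (dgn G (n + 1) j.castSucc x) = dgn G n j (face G n i x) :=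
  ConcreteCategory.congr_hom (G.δ_comp_σ_of_gt H) x

variable (G n)

instance nul_normal : (nul G n).Normal := by
  refine ⟨fun x hx z => ?_⟩
  rw [mem_nul] at hx ⊢
  obtain ⟨w, hw, rfl⟩ := hx
  refine ⟨dgn G (n + 1) (Fin.last (n + 1)) z * w * (dgn G (n + 1) (Fin.last (n + 1)) z)⁻¹,
    fun i => ?_, ?_⟩
  · rw [map_mul, map_mul, hw i, map_inv]
    group
  · rw [map_mul, map_mul, map_inv]
    have h : face G (n + 1) (Fin.last (n + 2)) (dgn G (n + 1) (Fin.last (n + 1)) z) = z :=
      face_dgn_succ (Fin.last (n + 1)) z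
    rw [h]

/-- the homotopy group `π_{n+1} G` -/
abbrev Pi : Type := cyc G n ⧸ (nul G n).subgroupOf (cyc G n)

variable {G n}

/-- cocycles and degenerate simplices -/
theorem coc_one {c : G _⦋n + 1⦌ → ZMod 2} (hc : cobd (und G) c = 0) : (n + 1 : ZMod 2) * c 1 = 0 := by
  have h2 : ∑ _i : Fin (n + 3), c (1 : G _⦋n + 1⦌) = 0 := by
    refine Eq.trans (Finset.sum_congr rfl fun i _ => ?_) (congrFun hc (1 : G _⦋n + 2⦌))
    rw [und_δ, map_one]
  rw [Finset.sum_const, Finset.card_univ, Fintype.card_fin, nsmul_eq_mul] at h2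
  push_cast at h2
  have h4 : (3 : ZMod 2) = 1 := rfl
  rw [h4] at h2
  exact h2

theorem coc_mul {c : G _⦋n + 1⦌ → ZMod 2} (hc : cobd (und G) c = 0) {x y : G _⦋n + 1⦌}
    (hx : x ∈ cyc G n) (hy : y ∈ cyc G n) : c (x * y) + c 1 = c x + c y := by
  rw [mem_cyc] at hx hy
  let w : G _⦋n + 2⦌ := dgn G (n + 1) (Fin.last n).castSucc x * dgn G (n + 1) (Fin.last (n + 1)) y
  have f1 : ∀ j : Fin n, face G (n + 1) j.castSucc.castSucc.castSucc w = 1 := by
    intro j
    have h1 : face G (n + 1) j.castSucc.castSucc.castSucc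
        (dgn G (n + 1) (Fin.last (n + 1)) y) = 1 := by
      have := face_dgn_of_le (G := G) (n := n) (i := j.castSucc.castSucc) (j := Fin.last n)
        (by simp [Fin.le_def]) y
      rw [Fin.succ_last] at this
      rw [this, hy, map_one]
    have h2 : face G (n + 1) j.castSucc.castSucc.castSucc
        (dgn G (n + 1) (Fin.last n).castSucc x) = 1 := by
      cases n with
      | zero => exact j.elim0
      | succ m =>
        have e : ((Fin.last (m + 1)).castSucc : Fin (m + 3)) = (Fin.last m).castSucc.succ := by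
          ext; simp
        have := face_dgn_of_le (G := G) (n := m + 1) (i := j.castSucc.castSucc)
          (j := (Fin.last m).castSucc) (by simp [Fin.le_def]; omega) x
        rw [e, this, hx, map_one]
    rw [map_mul, h1, h2, mul_one]
  have f2 : face G (n + 1) (Fin.last n).castSucc.castSucc w = x := by
    have h1 : face G (n + 1) (Fin.last n).castSucc.castSucc
        (dgn G (n + 1) (Fin.last (n + 1)) y) = 1 := by
      have := face_dgn_of_le (G := G) (n := n) (i := (Fin.last n).castSucc) (j := Fin.last n)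
        le_rfl y
      rw [Fin.succ_last] at this
      rw [this, hy, map_one]
    rw [map_mul, h1, face_dgn_self, mul_one]
  have f3 : face G (n + 1) (Fin.last (n + 1)).castSucc w = x * y := by
    have h1 : face G (n + 1) (Fin.last (n + 1)).castSucc
        (dgn G (n + 1) (Fin.last n).castSucc x) = x := by
      have := face_dgn_succ (G := G) (n := n + 1) (Fin.last n).castSucc x
      rwa [show ((Fin.last n).castSucc.succ : Fin (n + 3)) = (Fin.last (n + 1)).castSucc by
        ext; simp] at this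
    rw [map_mul, h1, face_dgn_self]
  have f4 : face G (n + 1) (Fin.last (n + 2)) w = y := by
    have h1 : face G (n + 1) (Fin.last (n + 2))
        (dgn G (n + 1) (Fin.last n).castSucc x) = 1 := by
      have := face_dgn_of_gt (G := G) (n := n) (i := Fin.last (n + 1)) (j := Fin.last n)
        (Fin.castSucc_lt_last _) x
      rw [Fin.succ_last] at this
      rw [this, hx, map_one]
    have h2 : face G (n + 1) (Fin.last (n + 2)) (dgn G (n + 1) (Fin.last (n + 1)) y) = y :=
      face_dgn_succ (Fin.last (n + 1)) y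
    rw [map_mul, h1, h2, one_mul]
  have h := congrFun hc w
  have h2 : ∑ i : Fin (n + 3), c (face G (n + 1) i w) = 0 := h
  rw [Fin.sum_univ_castSucc, Fin.sum_univ_castSucc, Fin.sum_univ_castSucc] at h2
  simp only [f1, f2, f3, f4, Finset.sum_const, Finset.card_univ, Fintype.card_fin,
    nsmul_eq_mul] at h2
  have h3 := coc_one hc
  have h4 : (2 : ZMod 2) = 0 := rfl
  linear_combination h2 - h3 + (c 1 - c x - c y) * h4

theorem coc_nul {c : G _⦋n + 1⦌ → ZMod 2} (hc : cobd (und G) c = 0) {x : G _⦋n + 1⦌}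
    (hx : x ∈ nul G n) : c x = c 1 := by
  rw [mem_nul] at hx
  obtain ⟨w, hw, rfl⟩ := hx
  have h := congrFun hc w
  have h2 : ∑ i : Fin (n + 3), c (face G (n + 1) i w) = 0 := h
  rw [Fin.sum_univ_castSucc] at h2
  simp only [hw, Finset.sum_const, Finset.card_univ, Fintype.card_fin, nsmul_eq_mul] at h2
  push_cast at h2
  have h3 := coc_one hc
  have h4 : (2 : ZMod 2) = 0 := rfl
  linear_combination h2 - h3 - (c 1) * h4

/-! ### the Hurewicz homomorphism -/

variable (G n)

/-- the chain `[x] - [1]` -/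
noncomputable def zch (x : G _⦋n + 1⦌) : RF2 ⟶ ((und G).chainComplex RF2).X (n + 1) :=
  (und G).ιChainComplex (R := RF2) (n := n + 1) x - (und G).ιChainComplex (R := RF2) (n := n + 1) 1

variable {G n}

theorem zch_d {x : G _⦋n + 1⦌} (hx : x ∈ cyc G n) :
    zch G n x ≫ ((und G).chainComplex RF2).d (n + 1) n = 0 := by
  rw [mem_cyc] at hx
  rw [zch, Preadditive.sub_comp, SSet.ιChainComplex_d, SSet.ιChainComplex_d, sub_eq_zero]
  refine Finset.sum_congr rfl fun i _ => ?_
  rw [und_δ, und_δ, hx i, map_one]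

/-- the class of `[x] - [1]`, as a morphism from `𝔽₂` -/
noncomputable def hz {x : G _⦋n + 1⦌} (hx : x ∈ cyc G n) : RF2 ⟶ (und G).homology RF2 (n + 1) :=
  ((und G).chainComplex RF2).liftCycles (zch G n x) n (by simp) (zch_d hx) ≫
    ((und G).chainComplex RF2).homologyπ (n + 1)

theorem hz_evH {x : G _⦋n + 1⦌} (hx : x ∈ cyc G n) (c : G _⦋n + 1⦌ → ZMod 2)
    (hc : cobd (und G) c = 0) :
    hz hx ≫ evH (und G) c hc = (c x - c 1) • 𝟙 RF2 := by
  rw [hz, evH, T0.pair, Category.assoc, HomologicalComplex.homology_π_ι_assoc,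
    HomologicalComplex.liftCycles_i_assoc, HomologicalComplex.p_descOpcycles, zch,
    Preadditive.sub_comp, ι_ev, ι_ev, sub_smul]

theorem hz_eq_iff {x y : G _⦋n + 1⦌} (hx : x ∈ cyc G n) (hy : y ∈ cyc G n) :
    hz hx = hz hy ↔ ∀ c : G _⦋n + 1⦌ → ZMod 2, cobd (und G) c = 0 → c x = c y := by
  rw [← sub_eq_zero, eq_zero_iff_dual]
  constructor
  · intro h c hc
    have := h (evH (und G) c hc)
    rw [Preadditive.sub_comp, hz_evH, hz_evH, ← sub_smul] at this
    have h2 := congrArg (fun g : RF2 ⟶ RF2 => g.hom (1 : ZMod 2)) this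
    change ((c x - c 1 - (c y - c 1)) • 𝟙 RF2 : RF2 ⟶ RF2).hom (1 : ZMod 2) = 0 at h2
    rw [smul_id_hom] at h2
    linear_combination h2
  · intro h l
    obtain ⟨c, hc, rfl⟩ := evH_surjective (und G) l
    rw [Preadditive.sub_comp, hz_evH, hz_evH, ← sub_smul, h c hc, sub_self, zero_smul]

theorem hz_one : hz (one_mem (cyc G n)) = 0 := by
  rw [eq_zero_iff_dual]
  intro l
  obtain ⟨c, hc, rfl⟩ := evH_surjective (und G) l
  rw [hz_evH, sub_self, zero_smul]

theorem hz_eq_zero_iff {x : G _⦋n + 1⦌} (hx : x ∈ cyc G n) :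
    hz hx = 0 ↔ ∀ c : G _⦋n + 1⦌ → ZMod 2, cobd (und G) c = 0 → c x = c 1 := by
  rw [← hz_one, hz_eq_iff]

theorem hz_mul {x y : G _⦋n + 1⦌} (hx : x ∈ cyc G n) (hy : y ∈ cyc G n) :
    hz (mul_mem hx hy) = hz hx + hz hy := by
  rw [← sub_eq_zero, eq_zero_iff_dual]
  intro l
  obtain ⟨c, hc, rfl⟩ := evH_surjective (und G) l
  rw [Preadditive.sub_comp, Preadditive.add_comp, hz_evH, hz_evH, hz_evH, ← add_smul, ← sub_smul]
  have h1 := coc_mul hc hx hy
  have h2 : c (x * y) - c 1 - (c x - c 1 + (c y - c 1)) = 0 := by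
    have h4 : (2 : ZMod 2) = 0 := rfl
    linear_combination h1
  rw [h2, zero_smul]

/-- The mod 2 Hurewicz homomorphism on the `(n+1)`-simplices with trivial faces. -/
noncomputable def hzHom (G : SimplicialObject GrpCat.{0}) (n : ℕ) :
    cyc G n →* Multiplicative (((und G).homology RF2 (n + 1) : ModuleCat.{0} (ZMod 2)) : Type) where
  toFun x := Multiplicative.ofAdd ((hz x.2).hom (1 : ZMod 2))
  map_one' := by
    apply Multiplicative.toAdd.injective
    change (hz (one_mem (cyc G n))).hom (1 : ZMod 2) = 0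
    rw [hz_one]
    rfl
  map_mul' x y := by
    apply Multiplicative.toAdd.injective
    change (hz (mul_mem x.2 y.2)).hom (1 : ZMod 2) = (hz x.2).hom (1 : ZMod 2) +
      (hz y.2).hom (1 : ZMod 2)
    rw [hz_mul]
    rfl

theorem hz_nul {x : G _⦋n + 1⦌} (hx : x ∈ cyc G n) (h : x ∈ nul G n) : hz hx = 0 := by
  rw [hz_eq_zero_iff]
  intro c hc
  exact coc_nul hc h

/-- The mod 2 Hurewicz homomorphism `π_{n+1} G → H_{n+1}(G; 𝔽₂)`. -/
noncomputable def hur (G : SimplicialObject GrpCat.{0}) (n : ℕ) :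
    Pi G n →* Multiplicative (((und G).homology RF2 (n + 1) : ModuleCat.{0} (ZMod 2)) : Type) :=
  QuotientGroup.lift _ (hzHom G n) (by
    intro x hx
    apply Multiplicative.toAdd.injective
    change (hz x.2).hom (1 : ZMod 2) = 0
    rw [hz_nul x.2 hx]
    rfl)

@[simp] theorem hur_mk (x : cyc G n) :
    hur G n (QuotientGroup.mk x) = Multiplicative.ofAdd ((hz x.2).hom (1 : ZMod 2)) := rfl

theorem hur_mk_eq_one_iff (x : cyc G n) : hur G n (QuotientGroup.mk x) = 1 ↔
    ∀ c : G _⦋n + 1⦌ → ZMod 2, cobd (und G) c = 0 → c x.1 = c 1 := by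
  rw [← hz_eq_zero_iff x.2, hur_mk]
  constructor
  · intro h
    have h1 : (hz x.2).hom (1 : ZMod 2) = 0 := congrArg Multiplicative.toAdd h
    ext
    exact h1
  · intro h
    rw [h]
    rfl

end Group

/-! ### the simplicial group `UM` -/

/-- The simplicial group `UM`, the group completion of the Barratt-Eccles monoid
`M = ∐ B Σ_m`. -/
noncomputable def UMG : SimplicialObject GrpCat.{0} where
  obj Δ := GrpCat.of (UM Δ.unop.len)
  map f := GrpCat.ofHom (UM.map f.unop.toOrderHom)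
  map_id _ := GrpCat.hom_ext (MonoidHom.ext fun g => UM.map_id g)
  map_comp f g := GrpCat.hom_ext (MonoidHom.ext fun x =>
    (UM.map_map f.unop.toOrderHom g.unop.toOrderHom x).symm)

/-- The simplicial monoid `M`. -/
def MS : SimplicialObject MonCat.{0} where
  obj Δ := MonCat.of (M Δ.unop.len)
  map f := MonCat.ofHom (M.mapHom f.unop.toOrderHom)
  map_id _ := MonCat.hom_ext (MonoidHom.ext fun g => M.map_id g)
  map_comp f g := MonCat.hom_ext (MonoidHom.ext fun x =>
    (M.map_map f.unop.toOrderHom g.unop.toOrderHom x).symm)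

/-- The statement of Curtis' conjecture for the model `UM` of `QS⁰`, numerical part. -/
def CurtisUM : Prop :=
  ∀ (n : ℕ) (a : Pi UMG n), hur UMG n a ≠ 1 →
    (∃ s : ℕ, n + 2 = 2 ^ s) ∨ (∃ s : ℕ, n + 3 = 2 ^ (s + 1))

theorem mem_cyc_UMG {n : ℕ} {x : UM (n + 1)} :
    x ∈ cyc UMG n ↔ ∀ i : Fin (n + 2), UM.map i.succAbove x = 1 := mem_cyc

/-- elementwise form -/
theorem curtisUM_iff : CurtisUM ↔ ∀ (n : ℕ) (x : UM (n + 1)),
    (∀ i : Fin (n + 2), UM.map i.succAbove x = 1) →
    (∃ c : UM (n + 1) → ZMod 2,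
      (∀ w : UM (n + 2), ∑ i : Fin (n + 3), c (UM.map i.succAbove w) = 0) ∧ c x ≠ c 1) →
    (∃ s : ℕ, n + 2 = 2 ^ s) ∨ (∃ s : ℕ, n + 3 = 2 ^ (s + 1)) := by
  constructor
  · intro h n x hx hc
    obtain ⟨c, hc, hcx⟩ := hc
    refine h n (QuotientGroup.mk ⟨x, mem_cyc_UMG.2 hx⟩) fun h1 => ?_
    rw [hur_mk_eq_one_iff] at h1
    exact hcx (h1 c (funext hc))
  · intro h n a ha
    obtain ⟨x, rfl⟩ := QuotientGroup.mk_surjective a
    refine h n x.1 (mem_cyc_UMG.1 x.2) ?_
    rw [Ne, hur_mk_eq_one_iff] at ha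
    push Not at ha
    obtain ⟨c, hc, hcx⟩ := ha
    exact ⟨c, congrFun hc, hcx⟩

end Vale.Agent.P263.G
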