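import Vale.Agent.P263.G.Sph
import Vale.Agent.P263.G.Stmt
import Vale.Agent.P263.GC.Range

/-! # P263, part G: spheres in `UM`, and `CurtisUM` from the general theorem

* `sphUM x hx : SS.Map (SP (m+1)) UM0` : the sphere of an element `x` of `UM (m+1)` with trivial
  faces; `fund_sphUM` : the pull back of the class of a cocycle `z` is `z x - z 1`;
* `curtisUM_of` : `CurtisUM` follows from the theorem on spheres in `UM0`.
-/

namespace Vale.Agent.P263.G

open S E GC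

variable {R : Type} [CommRing R]

/-- a map which is not onto factors through a face -/
theorem exists_factor {p m : ℕ} {σ : Op p (m + 1)} (h : ¬ Onto σ) :
    ∃ (i : Fin (m + 2)) (τ : Op p m), (dl m i.1).comp τ = σ := by
  rw [Onto] at h
  push Not at h
  obtain ⟨i, hi⟩ := h
  have hne : ∀ x, (σ x).1 ≠ i.1 := fun x hx => hi x (Fin.ext hx)
  refine ⟨i, ⟨fun x => ⟨if (σ x).1 < i.1 then (σ x).1 else (σ x).1 - 1, ?_⟩, ?_⟩, ?_⟩
  · have := (σ x).2
    have := i.2
    have := hne x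
    split_ifs <;> omega
  · intro x y hxy
    have h1 := Fin.le_def.1 (σ.monotone hxy)
    have h2 := hne x
    have h3 := hne y
    rw [Fin.le_def]
    show (if (σ x).1 < i.1 then (σ x).1 else (σ x).1 - 1) ≤
      (if (σ y).1 < i.1 then (σ y).1 else (σ y).1 - 1)
    split_ifs <;> omega
  · apply OrderHom.ext
    funext x
    apply Fin.ext
    have := hne x
    show (dl m i.1 ⟨if (σ x).1 < i.1 then (σ x).1 else (σ x).1 - 1, _⟩).1 = (σ x).1
    rw [dl_val]
    simp only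
    split_ifs <;> omega

theorem dl_eq_succAbove {m : ℕ} (i : Fin (m + 2)) : ⇑(dl m i.1) = i.succAbove := by
  funext x
  apply Fin.ext
  rw [dl_val]
  by_cases h : x.1 < i.1
  · rw [if_pos h, Fin.succAbove_of_castSucc_lt _ _ (by rw [Fin.lt_def]; exact h)]
    rfl
  · rw [if_neg h, Fin.succAbove_of_le_castSucc _ _ (by rw [Fin.le_def]; exact not_lt.1 h)]
    rfl

theorem map_of_not_onto {p m : ℕ} {x : UM (m + 1)}
    (hx : ∀ i : Fin (m + 2), UM.map i.succAbove x = 1) {σ : Op p (m + 1)} (h : ¬ Onto σ) :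
    UM.map σ x = 1 := by
  obtain ⟨i, τ, rfl⟩ := exists_factor h
  have e : UM.map ((dl m i.1).comp τ) x = UM.map τ (UM.map (dl m i.1) x) :=
    (UM.map_map (⇑(dl m i.1)) (⇑τ) x).symm
  rw [e, dl_eq_succAbove, hx, map_one]

theorem dg_of_faces {m : ℕ} {x : UM (m + 1)}
    (hx : ∀ i : Fin (m + 2), UM.map i.succAbove x = 1) : UM.dg x = 0 := by
  rw [← UM.dg_map (Fin.succAbove (0 : Fin (m + 2))) x, hx, UM.dg_one]

/-- the base point of `UM0` -/
noncomputable def bUM : SS.Map SS.pt UM0 where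
  app _ := ⟨1, UM.dg_one⟩
  nat f _ := Subtype.ext (map_one (UM.map f)).symm

/-- the sphere in `UM0` given by an element with trivial faces -/
noncomputable def sphUM {m : ℕ} (x : UM (m + 1))
    (hx : ∀ i : Fin (m + 2), UM.map i.succAbove x = 1) : SS.Map (SP (m + 1)) UM0 :=
  SP.toX bUM ⟨x, dg_of_faces hx⟩ fun _ _ hσ => Subtype.ext (map_of_not_onto hx hσ)

theorem fund_sphUM {m : ℕ} (x : UM (m + 1)) (hx : ∀ i : Fin (m + 2), UM.map i.succAbove x = 1)
    (z : (SS.F R UM0).Z (m + 1)) :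
    SP.fund R m (((sphUM x hx).pull).mapH (m + 1) ((SS.F R UM0).cls (m + 1) z)) =
      (z.1 ⟨x, dg_of_faces hx⟩ : R) - z.1 ⟨1, UM.dg_one⟩ :=
  SP.fund_toX _ _ _ z

/-- functions on `UM`, restricted to `UM0` -/
def resU {q : ℕ} (c : UM q → R) : (SS.F R UM0).obj q := fun g => c g.1

/-- cocycles on `UM` with values in `𝔽₂`, restricted to `UM0` -/
theorem coc_mem_Z {m : ℕ} {c : UM (m + 1) → ZMod 2}
    (hc : ∀ w : UM (m + 2), ∑ i : Fin (m + 3), c (UM.map i.succAbove w) = 0) :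
    resU c ∈ (SS.F (ZMod 2) UM0).Z (m + 1) := by
  rw [CosMod.mem_Z]
  funext w
  refine (SS.F_d (R := ZMod 2) (X := UM0) _ w).trans ?_
  have hs : ∀ (k : ℕ) (a : ZMod 2), sn k a = a := by
    intro k a
    have h1 : (-1 : ZMod 2) = 1 := rfl
    simp [sn, h1]
  rw [Finset.sum_range]
  refine Eq.trans (Finset.sum_congr rfl fun i _ => ?_) (hc w.1)
  rw [hs]
  show c (UM.map (dl (m + 1) i.1) w.1) = _
  rw [dl_eq_succAbove]

/-- The general theorem on spheres implies `CurtisUM`. -/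
theorem curtisUM_of
    (H : ∀ m : ℕ, ¬ (∃ s : ℕ, m + 2 = 2 ^ s) → ¬ (∃ s : ℕ, m + 3 = 2 ^ (s + 1)) →
      ∀ (α : SS.Map (SP (m + 1)) UM0) (y : (SS.F (ZMod 2) UM0).H (m + 1)),
        (α.pull).mapH (m + 1) y = 0) : CurtisUM := by
  rw [curtisUM_iff]
  intro m x hx hc
  obtain ⟨c, hc, hcx⟩ := hc
  by_contra hcon
  rw [not_or] at hcon
  have h1 := H m hcon.1 hcon.2 (sphUM x hx)
    ((SS.F (ZMod 2) UM0).cls (m + 1) ⟨_, coc_mem_Z hc⟩)
  have h2 := fund_sphUM x hx ⟨_, coc_mem_Z hc⟩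
  rw [h1, map_zero] at h2
  exact hcx (sub_eq_zero.1 h2.symm)

end Vale.Agent.P263.G
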