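import Vale.Agent.P263.G.Zig

/-!
# P263, block G (helper51): zigzags with the induced map on cohomology

`ConnT R D A B th` : there is a cospan `A → Z ← B` of isomorphisms in the range with
`a^* z = th n (b^* z)` for `z ∈ H^n(Z)`, `n < D`; `th n : H^n(B) → H^n(A)` is the isomorphism
induced by the zigzag. `ConnT.of_map` , `ConnT.symm` , `ConnT.trans` compute it.
-/

namespace Vale.Agent.P263.G

open Vale.Agent.P263.S Vale.Agent.P263.E

section ends

variable (R : Type) [CommRing R] (C : SS)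

/-- the homotopy between the two ends of the cylinder `C × J` -/
def endsPrism : Prism (SS.F R (C.prod JJ)) (SS.F R C) where
  h _ θ :=
    { toFun := fun w c => w (c, fun v => decide (θ v = 1))
      map_add' := fun _ _ => rfl
      map_smul' := fun _ _ => rfl }
  nat _ _ _ := rfl

variable {R C}

/-- the two ends of the cylinder induce the same map in cohomology -/
theorem inE_mapH (n : ℕ) (w : (SS.F R (C.prod JJ)).H n) :
    ((Glue.inE C false).pull (R := R)).mapH n w = ((Glue.inE C true).pull (R := R)).mapH n w := by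
  obtain ⟨⟨w, hw⟩, rfl⟩ := (SS.F R (C.prod JJ)).cls_surjective n w
  rw [Hom.mapH_cls, Hom.mapH_cls]
  refine (CosMod.cls_eq_iff.2 ?_).symm
  have h := (endsPrism R C).sub_mem hw
  have e1 : (endsPrism R C).h n (c1 n) w = ((Glue.inE C true).pull (R := R)).app n w := by
    funext c
    show w (c, fun v => decide (c1 n v = 1)) = w (c, fun _ => true)
    simp only [c1_val, decide_true]
  have e0 : (endsPrism R C).h n (c0 n) w = ((Glue.inE C false).pull (R := R)).app n w := by
    funext c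
    show w (c, fun v => decide (c0 n v = 1)) = w (c, fun _ => false)
    simp only [c0_val]
    rfl
  rw [e1, e0] at h
  exact h

theorem glue_mapH {X Y : SS} (f : SS.Map C X) (g : SS.Map C Y) (n : ℕ)
    (w : (SS.F R (Glue.W f g)).H n) :
    (f.pull (R := R)).mapH n (((Glue.inX f g).pull (R := R)).mapH n w) =
      (g.pull (R := R)).mapH n (((Glue.inY f g).pull (R := R)).mapH n w) := by
  rw [← Hom.mapH_comp, ← Hom.mapH_comp, ← SS.Map.pull_comp, ← SS.Map.pull_comp,
    ← Glue.inC_false, ← Glue.inC_true, SS.Map.pull_comp, SS.Map.pull_comp, Hom.mapH_comp,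
    Hom.mapH_comp]
  exact inE_mapH n _

end ends

variable (R : Type) [CommRing R] (D : ℕ)

/-- A zigzag of isomorphisms in the range, with the induced map `th` on cohomology. -/
def ConnT (A B : SS) (th : ∀ n, (SS.F R B).H n →ₗ[R] (SS.F R A).H n) : Prop :=
  ∃ (Z : SS) (a : SS.Map A Z) (b : SS.Map B Z), IsoUpTo R D a ∧ IsoUpTo R D b ∧
    ∀ n < D, ∀ z : (SS.F R Z).H n,
      (a.pull (R := R)).mapH n z = th n ((b.pull (R := R)).mapH n z)

variable {R D}

namespace ConnT

variable {A B C : SS} {th : ∀ n, (SS.F R B).H n →ₗ[R] (SS.F R A).H n}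
  {th' : ∀ n, (SS.F R C).H n →ₗ[R] (SS.F R B).H n}

theorem conn (h : ConnT R D A B th) : Conn R D A B := by
  obtain ⟨Z, a, b, ha, hb, _⟩ := h
  exact ⟨Z, a, b, ha, hb⟩

/-- every zigzag has an induced map -/
theorem _root_.Vale.Agent.P263.G.Conn.connT (h : Conn R D A B) :
    ∃ th : ∀ n, (SS.F R B).H n →ₗ[R] (SS.F R A).H n, ConnT R D A B th := by
  classical
  obtain ⟨Z, a, b, ha, hb⟩ := h
  refine ⟨fun n => if hn : n < D then
    ((a.pull (R := R)).mapH n).comp (LinearEquiv.ofBijective ((b.pull (R := R)).mapH n)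
      ⟨hb.1 n hn.le, hb.2 n hn⟩).symm.toLinearMap else 0, Z, a, b, ha, hb, fun n hn z => ?_⟩
  beta_reduce
  rw [dif_pos hn]
  exact congrArg ((a.pull (R := R)).mapH n)
    ((LinearEquiv.ofBijective ((b.pull (R := R)).mapH n)
      ⟨hb.1 n hn.le, hb.2 n hn⟩).symm_apply_apply z).symm

/-- the induced map is bijective in the range -/
theorem bijective (h : ConnT R D A B th) {n : ℕ} (hn : n < D) : Function.Bijective (th n) := by
  obtain ⟨Z, a, b, ha, hb, hab⟩ := h
  constructor
  · intro x y hxy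
    obtain ⟨x, rfl⟩ := hb.2 n hn x
    obtain ⟨y, rfl⟩ := hb.2 n hn y
    rw [← hab n hn, ← hab n hn] at hxy
    rw [ha.1 n hn.le hxy]
  · intro x
    obtain ⟨z, rfl⟩ := ha.2 n hn x
    exact ⟨_, (hab n hn z).symm⟩

theorem congr (h : ConnT R D A B th) {th' : ∀ n, (SS.F R B).H n →ₗ[R] (SS.F R A).H n}
    (e : ∀ n < D, ∀ x, th n x = th' n x) : ConnT R D A B th' := by
  obtain ⟨Z, a, b, ha, hb, hab⟩ := h
  exact ⟨Z, a, b, ha, hb, fun n hn z => by rw [hab n hn, e n hn]⟩

theorem refl (A : SS) : ConnT R D A A fun _ => LinearMap.id :=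
  ⟨A, SS.Map.id A, SS.Map.id A, .id A, .id A, fun _ _ _ => rfl⟩

theorem of_map (f : SS.Map A B) (hf : IsoUpTo R D f) :
    ConnT R D A B fun n => (f.pull (R := R)).mapH n :=
  ⟨B, f, SS.Map.id B, hf, .id B, fun n _ z => by
    rw [SS.Map.pull_id, Hom.mapH_id]⟩

theorem symm (h : ConnT R D A B th) {ph : ∀ n, (SS.F R A).H n →ₗ[R] (SS.F R B).H n}
    (e : ∀ n < D, ∀ x, ph n (th n x) = x) : ConnT R D B A ph := by
  obtain ⟨Z, a, b, ha, hb, hab⟩ := h
  exact ⟨Z, b, a, hb, ha, fun n hn z => by rw [hab n hn, e n hn]⟩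

/-- the inverse of a map in the zigzag -/
theorem of_map_symm (f : SS.Map A B) (hf : IsoUpTo R D f)
    {ph : ∀ n, (SS.F R A).H n →ₗ[R] (SS.F R B).H n}
    (e : ∀ n < D, ∀ x, ph n ((f.pull (R := R)).mapH n x) = x) : ConnT R D B A ph :=
  (of_map f hf).symm e

theorem trans (h : ConnT R D A B th) (h' : ConnT R D B C th') :
    ConnT R D A C fun n => (th n).comp (th' n) := by
  obtain ⟨Z, a, b, ha, hb, hab⟩ := h
  obtain ⟨Z', b', c, hb', hc, hbc⟩ := h'
  refine ⟨Glue.W b b', (Glue.inX b b').comp a, (Glue.inY b b').comp c,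
    (isoUpTo_inX b hb').comp ha, (isoUpTo_inY b' hb).comp hc, fun n hn z => ?_⟩
  rw [SS.Map.pull_comp, SS.Map.pull_comp, Hom.mapH_comp, Hom.mapH_comp, hab n hn,
    glue_mapH b b', hbc n hn]
  rfl

theorem mono (h : ConnT R D A B th) {D' : ℕ} (hD : D' ≤ D) : ConnT R D' A B th := by
  obtain ⟨Z, a, b, ha, hb, hab⟩ := h
  exact ⟨Z, a, b, ha.mono hD, hb.mono hD, fun n hn => hab n (lt_of_lt_of_le hn hD)⟩

end ConnT

end Vale.Agent.P263.G
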